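import Vale.Agent.P268.Hol

/-!
# P097 / A5.TANC (4) : holomorphic dependence of interval integrals on parameters
-/

set_option linter.all false

open Set Filter Metric Topology MeasureTheory

namespace Vale.Agent.P097.H839.Tan

variable {E F : Type*} [NormedAddCommGroup E] [NormedSpace ℂ E] [FiniteDimensional ℂ E]
  [NormedAddCommGroup F] [NormedSpace ℂ F] [CompleteSpace F]

theorem differentiableOn_param {G : E × ℂ → F} {U : Set E} {W : Set ℂ} (hU : IsOpen U)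
    (hW : IsOpen W) (hsW : ∀ τ ∈ Icc (0 : ℝ) 1, (τ : ℂ) ∈ W)
    (hG : DifferentiableOn ℂ G (U ×ˢ W)) :
    DifferentiableOn ℂ (fun x => ∫ τ in (0 : ℝ)..1, G (x, (τ : ℂ))) U := by
  have : ProperSpace E := FiniteDimensional.proper ℂ E
  intro x₀ hx₀
  apply DifferentiableAt.differentiableWithinAt
  have hUW : IsOpen (U ×ˢ W) := hU.prod hW
  obtain ⟨r, hr, hrU⟩ : ∃ r > 0, closedBall x₀ (2 * r) ⊆ U := by
    obtain ⟨r, hr, h⟩ := Metric.isOpen_iff.1 hU x₀ hx₀
    exact ⟨r / 4, by positivity, (closedBall_subset_ball (by linarith)).trans h⟩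
  set J : Set ℂ := (fun τ : ℝ => (τ : ℂ)) '' Icc (0 : ℝ) 1 with hJ
  have hJc : IsCompact J := isCompact_Icc.image Complex.continuous_ofReal
  have hJW : J ⊆ W := by
    rintro _ ⟨τ, hτ, rfl⟩
    exact hsW τ hτ
  have hcomp : IsCompact (closedBall x₀ (2 * r) ×ˢ J) := (isCompact_closedBall _ _).prod hJc
  have hsub : closedBall x₀ (2 * r) ×ˢ J ⊆ U ×ˢ W := Set.prod_mono hrU hJW
  obtain ⟨C, hC⟩ := hcomp.exists_bound_of_continuousOn (hG.continuousOn.mono hsub)
  have hdG : ∀ x ∈ ball x₀ (2 * r), ∀ t ∈ J,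
      HasFDerivAt (fun x => G (x, t))
        ((fderiv ℂ G (x, t)).comp (ContinuousLinearMap.inl ℂ E ℂ)) x := by
    intro x hx t ht
    have h1 : DifferentiableAt ℂ G (x, t) :=
      hG.differentiableAt (hUW.mem_nhds ⟨hrU (ball_subset_closedBall hx), hJW ht⟩)
    have h2 : HasFDerivAt (fun x : E => (x, t)) (ContinuousLinearMap.inl ℂ E ℂ) x :=
      hasFDerivAt_prodMk_left x t
    exact h1.hasFDerivAt.comp x h2
  have hbound : ∀ x ∈ ball x₀ r, ∀ t ∈ J,
      ‖(fderiv ℂ G (x, t)).comp (ContinuousLinearMap.inl ℂ E ℂ)‖ ≤ C / r := by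
    intro x hx t ht
    have hxb : ball x r ⊆ ball x₀ (2 * r) := by
      intro y hy
      rw [mem_ball] at hx hy ⊢
      calc dist y x₀ ≤ dist y x + dist x x₀ := dist_triangle _ _ _
        _ < 2 * r := by linarith
    have hx2 : x ∈ ball x₀ (2 * r) := hxb (mem_ball_self hr)
    rw [← (hdG x hx2 t ht).fderiv]
    apply P268.norm_fderiv_le_of_ball hr
    · intro y hy
      exact (hdG y (hxb hy) t ht).differentiableAt.differentiableWithinAt
    · intro y hy
      exact hC (y, t) ⟨ball_subset_closedBall (hxb hy), ht⟩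
  have hcontD : ContinuousOn (fderiv ℂ G) (U ×ˢ W) :=
    P268.continuousOn_fderiv_of_differentiableOn hUW hG
  have hmI : ∀ τ ∈ Set.uIoc (0 : ℝ) 1, (τ : ℂ) ∈ J := by
    intro τ hτ
    rw [uIoc_of_le zero_le_one] at hτ
    exact ⟨τ, ⟨hτ.1.le, hτ.2⟩, rfl⟩
  have hcx : ∀ x ∈ ball x₀ (2 * r), ContinuousOn (fun τ : ℝ => G (x, (τ : ℂ))) (Icc 0 1) := by
    intro x hx
    refine hG.continuousOn.comp (by fun_prop) fun τ hτ => ?_
    exact ⟨hrU (ball_subset_closedBall hx), hsW τ hτ⟩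
  have key := intervalIntegral.hasFDerivAt_integral_of_dominated_of_fderiv_le
    (μ := volume) (a := (0 : ℝ)) (b := 1)
    (F := fun (x : E) (τ : ℝ) => G (x, (τ : ℂ)))
    (F' := fun (x : E) (τ : ℝ) =>
      ((fderiv ℂ G (x, (τ : ℂ))).comp (ContinuousLinearMap.inl ℂ E ℂ)))
    (x₀ := x₀) (s := ball x₀ r) (bound := fun _ => C / r) (𝕜 := ℂ)
    (ball_mem_nhds x₀ hr) ?_ ?_ ?_ ?_ ?_ ?_
  · exact key.differentiableAt
  · filter_upwards [ball_mem_nhds x₀ hr] with x hx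
    refine ContinuousOn.aestronglyMeasurable ?_ measurableSet_uIoc
    refine (hcx x (ball_subset_ball (by linarith) hx)).mono ?_
    rw [uIoc_of_le zero_le_one]; exact Ioc_subset_Icc_self
  · refine ContinuousOn.intervalIntegrable ?_
    rw [uIcc_of_le zero_le_one]
    exact hcx x₀ (mem_ball_self (by positivity))
  · refine ContinuousOn.aestronglyMeasurable ?_ measurableSet_uIoc
    have h1 : ContinuousOn (fun τ : ℝ => fderiv ℂ G (x₀, (τ : ℂ))) (Set.uIoc 0 1) := by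
      refine hcontD.comp (by fun_prop) fun τ hτ => ?_
      exact ⟨hx₀, hJW (hmI τ hτ)⟩
    exact h1.clm_comp continuousOn_const
  · refine Eventually.of_forall fun τ hτ x hx => ?_
    exact hbound x hx _ (hmI τ hτ)
  · exact intervalIntegrable_const
  · refine Eventually.of_forall fun τ hτ x hx => ?_
    exact hdG x (ball_subset_ball (by linarith) hx) _ (hmI τ hτ)

/-- radial mean -/
noncomputable def rad (c : ℂ × ℂ → ℂ) (z : ℂ × ℂ) : ℂ :=
  ∫ τ in (0 : ℝ)..1, c (z.1, (τ : ℂ) * z.2)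

theorem rad_diff {c : ℂ × ℂ → ℂ} {s₀ : ℂ} {δ : ℝ}
    (hc : DifferentiableOn ℂ c (ball s₀ δ ×ˢ ball (0 : ℂ) δ)) :
    DifferentiableOn ℂ (rad c) (ball s₀ δ ×ˢ ball (0 : ℂ) (δ / 2)) := by
  rcases le_or_gt δ 0 with hδ | hδ
  · rw [ball_eq_empty.2 hδ, empty_prod]
    exact differentiableOn_empty
  refine differentiableOn_param (E := ℂ × ℂ) (F := ℂ)
    (G := fun w => c (w.1.1, w.2 * w.1.2)) (W := ball (0 : ℂ) 2)
    (isOpen_ball.prod isOpen_ball) isOpen_ball ?_ ?_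
  · intro τ hτ
    rw [mem_ball_zero_iff, Complex.norm_real, Real.norm_of_nonneg hτ.1]
    linarith [hτ.2]
  · refine hc.comp (by fun_prop) ?_
    rintro ⟨⟨s, w⟩, τ⟩ ⟨⟨hs, hw⟩, hτ⟩
    refine ⟨hs, ?_⟩
    simp only [mem_ball_zero_iff] at hw hτ ⊢
    rw [norm_mul]
    nlinarith [norm_nonneg τ, norm_nonneg w]

/-- `w * rad c (s, w)` is the primitive of `c (s, ·)` -/
theorem rad_prim {c : ℂ × ℂ → ℂ} {s₀ : ℂ} {δ : ℝ}
    (hc : DifferentiableOn ℂ c (ball s₀ δ ×ˢ ball (0 : ℂ) δ)) {s : ℂ} (hs : s ∈ ball s₀ δ) {w : ℂ}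
    (hw : w ∈ ball (0 : ℂ) δ) : HasDerivAt (fun w => w * rad c (s, w)) (c (s, w)) w := by
  have hd : DifferentiableOn ℂ (fun w => c (s, w)) (ball 0 δ) :=
    hc.comp (by fun_prop) fun w hw => ⟨hs, hw⟩
  obtain ⟨P, hP⟩ := hd.isExactOn_ball
  have h1 : ∀ w ∈ ball (0 : ℂ) δ, w * rad c (s, w) = P w - P 0 := by
    intro w hw
    have hin : ∀ τ ∈ Icc (0 : ℝ) 1, (τ : ℂ) * w ∈ ball (0 : ℂ) δ := by
      intro τ hτ
      rw [mem_ball_zero_iff] at hw ⊢
      rw [norm_mul, Complex.norm_real, Real.norm_of_nonneg hτ.1]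
      nlinarith [norm_nonneg w, hτ.2]
    have h2 : ∀ τ ∈ uIcc (0 : ℝ) 1, HasDerivAt (fun τ : ℝ => P ((τ : ℂ) * w))
        (w * c (s, (τ : ℂ) * w)) τ := by
      intro τ hτ
      rw [uIcc_of_le zero_le_one] at hτ
      have e1 : HasDerivAt (fun τ : ℝ => (τ : ℂ) * w) (1 * w) τ :=
        (Complex.ofRealCLM.hasDerivAt (x := τ)).mul_const w
      have e2 := (hP _ (hin τ hτ)).comp τ e1
      refine e2.congr_deriv ?_
      ring
    have h3 : ContinuousOn (fun τ : ℝ => w * c (s, (τ : ℂ) * w)) (uIcc (0 : ℝ) 1) := by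
      rw [uIcc_of_le zero_le_one]
      refine continuousOn_const.mul ?_
      exact hd.continuousOn.comp (by fun_prop) fun τ hτ => hin τ hτ
    have h4 := intervalIntegral.integral_eq_sub_of_hasDerivAt h2 h3.intervalIntegrable
    rw [intervalIntegral.integral_const_mul] at h4
    rw [rad]
    simp only
    rw [h4]
    simp
  have h5 : (fun w => w * rad c (s, w)) =ᶠ[𝓝 w] fun w => P w - P 0 := by
    filter_upwards [isOpen_ball.mem_nhds hw] with y hy using h1 y hy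
  exact ((hP w hw).sub_const (P 0)).congr_of_eventuallyEq h5

end Vale.Agent.P097.H839.Tan
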