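import Vale.Agent.P097.H839.Tan.Chart
import Vale.Agent.P097.H839.Tan.Par
import Vale.Agent.P097.H264.Hb

/-!
# P097 / A5.TANC (5) : roots in the tangential chart, area form, exact area chart
-/

set_option linter.all false

open Set Filter Metric Topology MeasureTheory

namespace Vale.Agent.P097.H839.Tan

open Vale.Agent.P097.TC

/-- Jacobian of a pair of functions of two variables -/
noncomputable def Jac (f g : ℂ × ℂ → ℂ) (z : ℂ × ℂ) : ℂ :=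
  fderiv ℂ f z (1, 0) * fderiv ℂ g z (0, 1) - fderiv ℂ f z (0, 1) * fderiv ℂ g z (1, 0)

theorem fd_apply (A : ℂ × ℂ →L[ℂ] ℂ) (x y : ℂ) : A (x, y) = x * A (1, 0) + y * A (0, 1) := by
  have : ((x, y) : ℂ × ℂ) = x • (1, 0) + y • (0, 1) := by simp
  rw [this, map_add, map_smul, map_smul]
  simp

/-- chain rule for Jacobians -/
theorem Jac_comp {f g : ℂ × ℂ → ℂ} {L : ℂ × ℂ → ℂ × ℂ} {z : ℂ × ℂ}
    (hf : DifferentiableAt ℂ f (L z)) (hg : DifferentiableAt ℂ g (L z))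
    (hL : DifferentiableAt ℂ L z) :
    Jac (fun y => f (L y)) (fun y => g (L y)) z =
      Jac f g (L z) * Jac (fun y => (L y).1) (fun y => (L y).2) z := by
  have e1 : fderiv ℂ (fun y => f (L y)) z = (fderiv ℂ f (L z)).comp (fderiv ℂ L z) :=
    (hf.hasFDerivAt.comp z hL.hasFDerivAt).fderiv
  have e2 : fderiv ℂ (fun y => g (L y)) z = (fderiv ℂ g (L z)).comp (fderiv ℂ L z) :=
    (hg.hasFDerivAt.comp z hL.hasFDerivAt).fderiv
  have e3 : ∀ h, fderiv ℂ (fun y => (L y).1) z h = (fderiv ℂ L z h).1 := by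
    intro h
    rw [(hL.hasFDerivAt.fst).fderiv]
    rfl
  have e4 : ∀ h, fderiv ℂ (fun y => (L y).2) z h = (fderiv ℂ L z h).2 := by
    intro h
    rw [(hL.hasFDerivAt.snd).fderiv]
    rfl
  simp only [Jac, e1, e2, e3, e4, ContinuousLinearMap.comp_apply]
  generalize fderiv ℂ L z (1, 0) = u
  generalize fderiv ℂ L z (0, 1) = w
  obtain ⟨a, b⟩ := u
  obtain ⟨c, d⟩ := w
  rw [fd_apply (fderiv ℂ f (L z)) a b, fd_apply (fderiv ℂ g (L z)) c d,
    fd_apply (fderiv ℂ f (L z)) c d, fd_apply (fderiv ℂ g (L z)) a b]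
  ring

theorem Jac_diff {f g : ℂ × ℂ → ℂ} {O : Set (ℂ × ℂ)} (hO : IsOpen O)
    (hf : DifferentiableOn ℂ f O) (hg : DifferentiableOn ℂ g O) :
    DifferentiableOn ℂ (Jac f g) O := by
  have h1 := P268.differentiableOn_fderiv_apply hO hf
  have h2 := P268.differentiableOn_fderiv_apply hO hg
  exact ((h1 (1, 0)).mul (h2 (0, 1))).sub ((h1 (0, 1)).mul (h2 (1, 0)))

section
variable {b : ℝ} {F q : ℂ → ℂ} {x0 : ℂ} {ε ε' : ℝ} {T W : ℂ × ℂ → ℂ}
    {U : (ℂ × ℂ) × ℂ → ℂ} {Inv : ℂ × ℂ → ℂ × ℂ} {K : ℝ}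

theorem TChart.root_iff (h : TChart b F q x0 ε ε' T W U Inv K) {v : ℂ × ℂ} {x : ℂ}
    (hv : v ∈ ball (F x0, q x0) ε) (hx : x ∈ ball x0 ε') :
    Mi F q v.1 v.2 x = 0 ↔ (x - T v) ^ 2 = W v := by
  rw [h.fac v hv x hx, mul_eq_zero, or_iff_right (h.une v hv x hx), sub_eq_zero]

theorem TChart.hasDerivAt (h : TChart b F q x0 ε ε' T W U Inv K) {v : ℂ × ℂ} {x : ℂ}
    (hv : v ∈ ball (F x0, q x0) ε) (hx : x ∈ ball x0 ε') (h0 : Mi F q v.1 v.2 x = 0) :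
    HasDerivAt (Mi F q v.1 v.2) (2 * (x - T v) * U (v, x)) x := by
  have hr := (h.root_iff hv hx).1 h0
  have hBo : IsOpen (ball (F x0, q x0) ε ×ˢ ball x0 ε') := isOpen_ball.prod isOpen_ball
  have d1 : DifferentiableAt ℂ (fun y => U (v, y)) x := by
    have e1 : DifferentiableAt ℂ U (v, x) := h.dU.differentiableAt (hBo.mem_nhds ⟨hv, hx⟩)
    exact e1.comp x (f := fun y : ℂ => ((v, y) : (ℂ × ℂ) × ℂ)) (by fun_prop)
  have d2 : HasDerivAt (fun y : ℂ => (y - T v) ^ 2 - W v) (2 * (x - T v)) x := by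
    have := (((hasDerivAt_id x).sub_const (T v)).fun_pow 2).sub_const (W v)
    refine this.congr_deriv ?_
    simp
  have d3 := d1.hasDerivAt.fun_mul d2
  have e : Mi F q v.1 v.2 =ᶠ[𝓝 x] fun y => U (v, y) * ((y - T v) ^ 2 - W v) := by
    filter_upwards [isOpen_ball.mem_nhds hx] with y hy using h.fac v hv y hy
  refine (d3.congr_of_eventuallyEq e).congr_deriv ?_
  rw [hr]
  ring

/-- a root is simple iff `W ≠ 0` -/
theorem TChart.simple_iff (h : TChart b F q x0 ε ε' T W U Inv K) {v : ℂ × ℂ} {x : ℂ}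
    (hv : v ∈ ball (F x0, q x0) ε) (hx : x ∈ ball x0 ε') (h0 : Mi F q v.1 v.2 x = 0) :
    deriv (Mi F q v.1 v.2) x ≠ 0 ↔ W v ≠ 0 := by
  rw [(h.hasDerivAt hv hx h0).deriv]
  have hr := (h.root_iff hv hx).1 h0
  have hU := h.une v hv x hx
  constructor
  · intro h1 h2
    rw [h2] at hr
    have : x - T v = 0 := pow_eq_zero_iff (two_ne_zero) |>.1 hr
    exact h1 (by rw [this]; ring)
  · intro h1 h2
    have h3 : x - T v = 0 := by
      rcases mul_eq_zero.1 h2 with h4 | h4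
      · exact (mul_eq_zero.1 h4).resolve_left two_ne_zero
      · exact absurd h4 hU
    rw [h3] at hr
    exact h1 (by rw [← hr]; ring)

/-- both roots -/
theorem TChart.root_of_sq (h : TChart b F q x0 ε ε' T W U Inv K) {v : ℂ × ℂ} {s : ℂ}
    (hv : v ∈ ball (F x0, q x0) ε) (hs : s ^ 2 = W v) :
    T v + s ∈ ball x0 ε' ∧ Mi F q v.1 v.2 (T v + s) = 0 ∧
      (s ≠ 0 → deriv (Mi F q v.1 v.2) (T v + s) ≠ 0) := by
  have h1 := h.rt v hv s hs
  have h2 : Mi F q v.1 v.2 (T v + s) = 0 := by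
    rw [h.root_iff hv h1, ← hs]; ring
  refine ⟨h1, h2, fun h3 => (h.simple_iff hv h1 h2).2 ?_⟩
  rw [← hs]
  exact pow_ne_zero 2 h3

/-- holomorphic square root on convex sets -/
theorem exists_sqrt {E : Type*} [NormedAddCommGroup E] [NormedSpace ℂ E] {D : Set E}
    (hD : IsOpen D) (hc : Convex ℝ D) {f : E → ℂ} (hf : DifferentiableOn ℂ f D)
    (h0 : ∀ z ∈ D, f z ≠ 0) : ∃ s : E → ℂ, DifferentiableOn ℂ s D ∧ ∀ z ∈ D, s z ^ 2 = f z := by
  obtain ⟨g, hg, hge⟩ := H264.exists_hlog hD hc hf h0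
  have hg2 : DifferentiableOn ℂ (fun z => g z / 2) D := by
    simp only [div_eq_mul_inv]
    exact hg.mul_const _
  refine ⟨fun z => Complex.exp (g z / 2), hg2.cexp, fun z hz => ?_⟩
  rw [← hge z hz, ← Complex.exp_nat_mul]
  congr 1
  push_cast
  ring

/-- **extension of a position**: if the lines stay in the chart and `W ∘ L ≠ 0` on a convex open set
`D`, a root near `x0` which is continuous on a preconnected subset `D₀` extends to all of `D` as a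
simple root near `x0` -/
theorem TChart.extend (h : TChart b F q x0 ε ε' T W U Inv K) {E : Type*} [NormedAddCommGroup E]
    [NormedSpace ℂ E] {D D₀ : Set E} (hD : IsOpen D) (hc : Convex ℝ D) {L : E → ℂ × ℂ}
    (hL : DifferentiableOn ℂ L D) (hLm : MapsTo L D (ball (F x0, q x0) ε))
    (hW : ∀ z ∈ D, W (L z) ≠ 0) (hD₀ : D₀ ⊆ D) (hpc : IsPreconnected D₀) {θ : E → ℂ}
    (hθ : ContinuousOn θ D₀) (hθm : MapsTo θ D₀ (ball x0 ε'))
    (hr : ∀ z ∈ D₀, Mi F q (L z).1 (L z).2 (θ z) = 0) :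
    ∃ θ' : E → ℂ, DifferentiableOn ℂ θ' D ∧ (∀ z ∈ D₀, θ' z = θ z) ∧ ∀ z ∈ D, θ' z ∈ ball x0 ε' ∧
      Mi F q (L z).1 (L z).2 (θ' z) = 0 ∧ deriv (Mi F q (L z).1 (L z).2) (θ' z) ≠ 0 := by
  have dTL : DifferentiableOn ℂ (fun z => T (L z)) D := h.dT.comp hL hLm
  have dWL : DifferentiableOn ℂ (fun z => W (L z)) D := h.dW.comp hL hLm
  obtain ⟨s, hs, hs2⟩ := exists_sqrt hD hc dWL hW
  have hsn : ∀ z ∈ D, s z ≠ 0 := by
    intro z hz h0
    apply hW z hz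
    rw [← hs2 z hz, h0]; ring
  -- sign
  have hsg : ∃ σ : ℂ, σ ^ 2 = 1 ∧ ∀ z ∈ D₀, θ z = T (L z) + σ * s z := by
    have hsq : EqOn ((fun z => θ z - T (L z)) ^ 2) (s ^ 2) D₀ := by
      intro z hz
      show (θ z - T (L z)) ^ 2 = s z ^ 2
      rw [hs2 z (hD₀ hz)]
      exact (h.root_iff (hLm (hD₀ hz)) (hθm hz)).1 (hr z hz)
    have hcon : ContinuousOn (fun z => θ z - T (L z)) D₀ :=
      hθ.sub (dTL.continuousOn.mono hD₀)
    rcases hpc.eq_or_eq_neg_of_sq_eq hcon (hs.continuousOn.mono hD₀) hsq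
      (fun {z} hz => hsn z (hD₀ hz)) with h1 | h1
    · refine ⟨1, by ring, fun z hz => ?_⟩
      have : θ z - T (L z) = s z := h1 hz
      linear_combination this
    · refine ⟨-1, by ring, fun z hz => ?_⟩
      have : θ z - T (L z) = -s z := h1 hz
      linear_combination this
  obtain ⟨σ, hσ, hσ'⟩ := hsg
  have hσ0 : σ ≠ 0 := by
    rintro rfl
    norm_num at hσ
  refine ⟨fun z => T (L z) + σ * s z, dTL.add (hs.const_mul σ), fun z hz => (hσ' z hz).symm,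
    fun z hz => ?_⟩
  have h1 : (σ * s z) ^ 2 = W (L z) := by rw [mul_pow, hσ, one_mul, hs2 z hz]
  obtain ⟨k1, k2, k3⟩ := h.root_of_sq (hLm hz) h1
  exact ⟨k1, k2, k3 (mul_ne_zero hσ0 (hsn z hz))⟩

/-- area identity -/
theorem TChart.area (h : TChart b F q x0 ε ε' T W U Inv K) {L : ℂ × ℂ → ℂ × ℂ} {z : ℂ × ℂ}
    (hL : DifferentiableAt ℂ L z) (hz : L z ∈ ball (F x0, q x0) ε) :
    Jac (fun y => T (L y)) (fun y => W (L y)) z =
      Jac T W (L z) * Jac (fun y => (L y).1) (fun y => (L y).2) z :=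
  Jac_comp (h.dT.differentiableAt (isOpen_ball.mem_nhds hz))
    (h.dW.differentiableAt (isOpen_ball.mem_nhds hz)) hL

/-- the Jacobian of the chart is bounded above and below on a smaller ball -/
theorem TChart.jac_bd (h : TChart b F q x0 ε ε' T W U Inv K) :
    ∃ ρ > 0, ρ ≤ ε ∧ ∃ c > 0, ∃ C > 0, ∀ v ∈ ball (F x0, q x0) ρ,
      c ≤ ‖Jac T W v‖ ∧ ‖Jac T W v‖ ≤ C := by
  have hm : (F x0, q x0) ∈ ball (F x0, q x0) ε := mem_ball_self h.ε0
  have hd := Jac_diff isOpen_ball h.dT h.dW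
  have hc : ContinuousAt (fun v => ‖Jac T W v‖) (F x0, q x0) :=
    (hd.differentiableAt (isOpen_ball.mem_nhds hm)).continuousAt.norm
  have h0 : 0 < ‖Jac T W (F x0, q x0)‖ := norm_pos_iff.2 (h.jac _ hm)
  set N := ‖Jac T W (F x0, q x0)‖ with hN
  have h1 : ∀ᶠ v in 𝓝 (F x0, q x0), N / 2 < ‖Jac T W v‖ ∧ ‖Jac T W v‖ < 2 * N :=
    (hc.eventually_const_lt (by linarith)).and (hc.eventually_lt_const (by linarith))
  obtain ⟨ρ, hρ, h2⟩ := Metric.mem_nhds_iff.1 h1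
  refine ⟨min ρ ε, lt_min hρ h.ε0, min_le_right _ _, N / 2, by positivity, 2 * N, by positivity,
    fun v hv => ?_⟩
  have := h2 (ball_subset_ball (min_le_left _ _) hv)
  exact ⟨this.1.le, this.2.le⟩

/-- **exact area chart** `(T, Wh)`, `Wh = W * k` with `k` without zeros -/
theorem TChart.exact (h : TChart b F q x0 ε ε' T W U Inv K) :
    ∃ ρ > 0, ρ ≤ ε ∧ ∃ Wh k : ℂ × ℂ → ℂ, DifferentiableOn ℂ Wh (ball (F x0, q x0) ρ) ∧
      DifferentiableOn ℂ k (ball (F x0, q x0) ρ) ∧ ∀ v ∈ ball (F x0, q x0) ρ,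
        Wh v = W v * k v ∧ k v ≠ 0 ∧ Jac T Wh v = 1 := by
  set v0 : ℂ × ℂ := (F x0, q x0) with hv0
  have hm : v0 ∈ ball v0 ε := mem_ball_self h.ε0
  set Ψ : ℂ × ℂ → ℂ × ℂ := fun v => (T v, W v) with hΨ
  have dΨ : DifferentiableOn ℂ Ψ (ball v0 ε) := h.dT.prodMk h.dW
  have hΨ0 : Ψ v0 = (x0, 0) := by rw [hΨ]; simp only [h.T0, h.W0, hv0]
  set O := Ψ '' ball v0 ε with hO
  have hOo : IsOpen O := h.op _ (Subset.refl _) isOpen_ball
  set c : ℂ × ℂ → ℂ := fun y => (Jac T W (Inv y))⁻¹ with hc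
  have hInv : MapsTo Inv O (ball v0 ε) := by
    rintro _ ⟨v, hv, rfl⟩
    rw [hΨ]
    simp only [h.inv v hv]
    exact hv
  have dc : DifferentiableOn ℂ c O :=
    ((Jac_diff isOpen_ball h.dT h.dW).comp h.dI hInv).inv fun y hy => h.jac _ (hInv hy)
  have hcΨ : ∀ v ∈ ball v0 ε, c (Ψ v) = (Jac T W v)⁻¹ := by
    intro v hv
    rw [hc, hΨ]
    simp only [h.inv v hv]
  have h0O : ((x0, 0) : ℂ × ℂ) ∈ O := ⟨v0, hm, hΨ0⟩
  obtain ⟨δ, hδ, hδO⟩ := Metric.isOpen_iff.1 hOo _ h0O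
  rw [← ball_prod_same] at hδO
  have dc' := dc.mono hδO
  have dr := rad_diff dc'
  have hBo : IsOpen (ball x0 δ ×ˢ ball (0 : ℂ) (δ / 2)) := isOpen_ball.prod isOpen_ball
  have hmr : ((x0, 0) : ℂ × ℂ) ∈ ball x0 δ ×ˢ ball (0 : ℂ) (δ / 2) :=
    ⟨mem_ball_self hδ, mem_ball_self (by positivity)⟩
  have hr0 : rad c (x0, 0) ≠ 0 := by
    have : rad c (x0, 0) = c (x0, 0) := by
      rw [rad]
      simp
    rw [this, ← hΨ0, hcΨ v0 hm]
    exact inv_ne_zero (h.jac _ hm)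
  have hne : ∀ᶠ y in 𝓝 ((x0, 0) : ℂ × ℂ), rad c y ≠ 0 :=
    ((dr.differentiableAt (hBo.mem_nhds hmr)).continuousAt).eventually_ne hr0
  have hcΨ0 : ContinuousAt Ψ v0 := (dΨ.differentiableAt (isOpen_ball.mem_nhds hm)).continuousAt
  have hev : ∀ᶠ v in 𝓝 v0, rad c (Ψ v) ≠ 0 ∧ Ψ v ∈ ball x0 δ ×ˢ ball (0 : ℂ) (δ / 2) := by
    have e1 : Tendsto Ψ (𝓝 v0) (𝓝 (x0, 0)) := by rw [← hΨ0]; exact hcΨ0
    exact e1.eventually (hne.and (hBo.mem_nhds hmr))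
  obtain ⟨ρ, hρ, h2⟩ := Metric.mem_nhds_iff.1 hev
  set ρ' := min ρ ε with hρ'
  have hb1 : ball v0 ρ' ⊆ ball v0 ρ := ball_subset_ball (min_le_left _ _)
  have hb2 : ball v0 ρ' ⊆ ball v0 ε := ball_subset_ball (min_le_right _ _)
  have dk : DifferentiableOn ℂ (fun v => rad c (Ψ v)) (ball v0 ρ') :=
    dr.comp (dΨ.mono hb2) fun v hv => (h2 (hb1 hv)).2
  refine ⟨ρ', lt_min hρ h.ε0, min_le_right _ _, fun v => W v * rad c (Ψ v),
    fun v => rad c (Ψ v), (h.dW.mono hb2).mul dk, dk, fun v hv => ⟨rfl, (h2 (hb1 hv)).1, ?_⟩⟩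
  have hvΨ := (h2 (hb1 hv)).2
  -- H (s, w) = w * rad c (s, w)
  set H : ℂ × ℂ → ℂ := fun z => z.2 * rad c z with hH
  have dH : DifferentiableAt ℂ H (Ψ v) :=
    (differentiableAt_snd).mul (dr.differentiableAt (hBo.mem_nhds hvΨ))
  have hchain := Jac_comp (f := Prod.fst) (g := H) (L := Ψ) (z := v) differentiableAt_fst dH
    (dΨ.differentiableAt (isOpen_ball.mem_nhds (hb2 hv)))
  have e1 : (fun y => (Ψ y).1) = T := rfl
  have e2 : (fun y => (Ψ y).2) = W := rfl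
  have e3 : (fun y => Prod.fst (Ψ y)) = T := rfl
  have e4 : (fun y => H (Ψ y)) = fun y => W y * rad c (Ψ y) := rfl
  rw [e3, e2, e4] at hchain
  rw [hchain]
  have e5 : Jac Prod.fst H (Ψ v) = c (Ψ v) := by
    have f1 : fderiv ℂ (Prod.fst : ℂ × ℂ → ℂ) (Ψ v) = ContinuousLinearMap.fst ℂ ℂ ℂ :=
      hasFDerivAt_fst.fderiv
    have f2 : fderiv ℂ H (Ψ v) (0, 1) = c (Ψ v) := by
      have g1 := rad_prim dc' (s := (Ψ v).1) hvΨ.1 (w := (Ψ v).2)
        (ball_subset_ball (by linarith) hvΨ.2)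
      have g2 : HasDerivAt (fun w : ℂ => (((Ψ v).1, w) : ℂ × ℂ)) (0, 1) (Ψ v).2 :=
        (hasDerivAt_const _ _).prodMk (hasDerivAt_id _)
      have g3 := (dH.hasFDerivAt).comp_hasDerivAt (Ψ v).2 g2
      exact g3.unique g1
    rw [Jac, f1, f2]
    simp
  have e6 : Jac T W v ≠ 0 := h.jac v (hb2 hv)
  rw [e5, hcΨ v (hb2 hv), inv_mul_cancel₀ e6]

end

end Vale.Agent.P097.H839.Tan
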