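import Vale.Agent.P097.H839.Tan.Br3
import Vale.Agent.P097.H190.Ult

/-!
# P097 / ST9 : slow picks are impossible, ultrafilter form
-/

set_option linter.all false

open Set Filter Metric Topology MeasureTheory

namespace Vale.Agent.P097.H839.Tan

open Vale.Agent.P097.TC
open Vale.Agent.P097.H920 (ExtM)
open Vale.Agent.P097.H845 (jac)
open Vale.Agent.P097.H100 (Wc isOpen_Wc)

section
variable {ι : Type*} {l : Filter ι} {Λ b s' : ℝ} {F q : ℂ → ℂ} {al p th χ : ι → ℂ × ℂ → ℂ}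
  {A' P' χ0 : ℂ × ℂ → ℂ} {cA cP e J : ι → ℂ}

/-- integer shifts of the normal angle and of the position -/
theorem NL9.shift (N : NL9 l b F q s' al p th χ A' P' χ0 cA cP e J)
    (hF : ∀ x ∈ Sb b, F (x + 1) = F x + 2 * Real.pi) (hq : ∀ x ∈ Sb b, q (x + 1) = q x)
    (hm : ∀ K : Set (ℂ × ℂ), IsCompact K → (∀ z ∈ K, z.1.im < 0 ∧ 0 < z.2.im) →
      ∀ᶠ n in l, ∀ z ∈ K, th n z ∈ Sb b) (M k : ι → ℤ) :
    NL9 l b F q s' (fun n z => al n z - 2 * Real.pi * M n) p (fun n z => th n z - k n) χ A' P' χ0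
      (fun n => cA n - 2 * Real.pi * M n) cP e J where
  e0 := N.e0
  J0 := N.J0
  hd := by
    intro K hK hKc
    filter_upwards [N.hd K hK hKc] with n hn z hz
    obtain ⟨h1, h2, h3⟩ := hn z hz
    refine ⟨h1.sub_const _, h2, ?_⟩
    rw [← h3]
    simp only [jac, fderiv_sub_const]
  χl := N.χl
  χc := N.χc
  χ0 := N.χ0
  dA := N.dA
  dP := N.dP
  Al := by
    refine N.Al.congr fun n z _ => ?_
    show (al n z - cA n) / e n = (al n z - 2 * Real.pi * M n - (cA n - 2 * Real.pi * M n)) / e n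
    congr 1
    ring
  Pl := N.Pl
  nc := N.nc
  rt := by
    intro K hK hKG
    filter_upwards [N.rt K hK hKG, hm K hK hKG] with n hn hn' z hz
    obtain ⟨h1, h2, h3⟩ := hn z hz
    have hs : th n z - k n ∈ Sb b := by
      have := (Sb_add_int (b := b) (x := th n z) (k := -k n)).2 (hn' z hz)
      push_cast at this
      rwa [← sub_eq_add_neg] at this
    have e1 : th n z = (th n z - k n) + k n := by ring
    have e2 : ∀ x, Mi F q (al n z - 2 * Real.pi * M n) (p n z) x = Mi F q (al n z) (p n z) x := by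
      intro x
      have := Mi_orient F q (al n z) (p n z) x (M n) 0
      simpa using this
    have e3 : Mi F q (al n z - 2 * Real.pi * M n) (p n z) = Mi F q (al n z) (p n z) := funext e2
    refine ⟨h1.sub continuousAt_const, ?_, ?_⟩
    · rw [e2, ← h2]
      conv_rhs => rw [e1]
      exact (Mi_add_int hF hq _ _ hs (k n)).symm
    · rw [e3]
      have : deriv (Mi F q (al n z) (p n z)) (th n z) =
          deriv (Mi F q (al n z) (p n z)) (th n z - k n) := by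
        conv_lhs => rw [e1]
        exact Mi_add_int_deriv hF hq _ _ hs (k n)
      rwa [this] at h3
  touch := by
    intro a w₀ h1 h2 δ hδ
    obtain ⟨ε, hε, hno⟩ := N.touch a w₀ h1 h2 δ hδ
    refine ⟨ε, hε, hno.mono fun n hn hex => hn ?_⟩
    obtain ⟨g, hg, hg2⟩ := hex
    refine ⟨fun z => g z + k n, hg.add analyticOnNhd_const, fun z hz => ?_⟩
    obtain ⟨g1, g2, g3, g4⟩ := hg2 z hz
    have e3 : Mi F q (al n z - 2 * Real.pi * M n) (p n z) = Mi F q (al n z) (p n z) := by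
      funext x
      have := Mi_orient F q (al n z) (p n z) x (M n) 0
      simpa using this
    simp only [e3] at g2 g3
    refine ⟨Sb_add_int.2 g1, ?_, ?_, fun hz' => ?_⟩
    · rw [Mi_add_int hF hq _ _ g1]; exact g2
    · rw [Mi_add_int_deriv hF hq _ _ g1]; exact g3
    · show g z + k n = th n z
      have g5 : g z = th n z - k n := g4 hz'
      rw [g5]; ring

theorem convex_G : Convex ℝ {z : ℂ × ℂ | z.1.im < 0 ∧ 0 < z.2.im} := by
  have h1 : Convex ℝ {z : ℂ × ℂ | (Complex.imLm ∘ₗ LinearMap.fst ℝ ℂ ℂ) z < 0} :=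
    convex_halfSpace_lt (LinearMap.isLinear _) _
  have h2 : Convex ℝ {z : ℂ × ℂ | 0 < (Complex.imLm ∘ₗ LinearMap.snd ℝ ℂ ℂ) z} :=
    convex_halfSpace_gt (LinearMap.isLinear _) _
  exact h1.inter h2

/-- roots of a fixed line: a continuous family of roots over a convex open set is constant -/
theorem const_of_root (hC : Cv Λ b F q) {a0 p0 : ℂ} {g : ℂ × ℂ → ℂ} {G : Set (ℂ × ℂ)}
    (hG : IsOpen G) (hc : IsPreconnected G) (hg : DifferentiableOn ℂ g G)
    (hm : ∀ z ∈ G, g z ∈ Sb b) (h0 : ∀ z ∈ G, Mi F q a0 p0 (g z) = 0) :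
    ∃ x0, ∀ z ∈ G, g z = x0 := by
  refine hG.exists_is_const_of_fderiv_eq_zero hc hg fun z hz => ?_
  have hgz := hm z hz
  have han : AnalyticAt ℂ (Mi F q a0 p0) (g z) := by
    have : DifferentiableOn ℂ (Mi F q a0 p0) (Sb b) := fun x hx =>
      (hasDerivAt_Mi hC hx a0 p0).differentiableAt.differentiableWithinAt
    exact this.analyticAt ((isOpen_Sb b).mem_nhds hgz)
  have hne : ∀ᶠ x in 𝓝[≠] (g z), Mi F q a0 p0 x ≠ 0 := by
    rcases han.eventually_eq_zero_or_eventually_ne_zero with h | h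
    · exact absurd h (H920.Mi_not_zero hC a0 p0 hgz)
    · exact h
  rw [eventually_nhdsWithin_iff] at hne
  have hcz : ContinuousAt g z := hg.continuousOn.continuousAt (hG.mem_nhds hz)
  have hloc : g =ᶠ[𝓝 z] fun _ => g z := by
    filter_upwards [hcz.eventually hne, hG.mem_nhds hz] with y hy hyG
    by_contra hcon
    exact hy hcon (h0 y hyG)
  show fderiv ℂ g z = 0
  rw [hloc.fderiv_eq]
  exact fderiv_const_apply _

/-- bounded families of complex numbers converge along an ultrafilter -/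
theorem exists_lim (𝒰 : Ultrafilter ι) {c : ι → ℂ} {C : ℝ}
    (h : ∀ᶠ n in (𝒰 : Filter ι), ‖c n‖ ≤ C) : ∃ a, Tendsto c (𝒰 : Filter ι) (𝓝 a) := by
  have h1 : ∀ᶠ n in (𝒰 : Filter ι), c n ∈ closedBall (0 : ℂ) C := by
    filter_upwards [h] with n hn
    rwa [mem_closedBall_zero_iff]
  obtain ⟨a, -, ha⟩ := (isCompact_closedBall (0 : ℂ) C).ultrafilter_le_nhds (𝒰.map c)
    (by rw [Ultrafilter.coe_map, le_principal_iff]; exact h1)
  exact ⟨a, ha⟩

/-- **ST9** : slow picks are impossible, ultrafilter form (lines and positions modulo integers). -/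
theorem st9 (𝒰 : Ultrafilter ι) (hs : 0 < s') (hC : Cv Λ b F q) (hb : 0 < b)
    (hF : ∀ x ∈ Sb b, F (x + 1) = F x + 2 * Real.pi) (hq : ∀ x ∈ Sb b, q (x + 1) = q x)
    (N : NL9 (𝒰 : Filter ι) b F q s' al p th χ A' P' χ0 cA cP e J)
    (he : Tendsto e (𝒰 : Filter ι) (𝓝 0)) {M : ι → ℤ} {C : ℝ}
    (hcA : ∀ᶠ n in (𝒰 : Filter ι), ‖cA n - 2 * Real.pi * M n‖ ≤ C)
    (hcP : ∀ᶠ n in (𝒰 : Filter ι), ‖cP n‖ ≤ C)
    (hth : ∀ K : Set (ℂ × ℂ), IsCompact K → (∀ z ∈ K, z.1.im < 0 ∧ 0 < z.2.im) →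
      ∀ᶠ n in (𝒰 : Filter ι), ∀ z ∈ K, DifferentiableAt ℂ (th n) z ∧ th n z ∈ Sb b)
    {zb : ℂ × ℂ} (hzb : zb.1.im < 0 ∧ 0 < zb.2.im) {c0 : ℝ} (hc0 : 0 < c0)
    (hmid : ∀ᶠ n in (𝒰 : Filter ι), |(th n zb).im| ≤ b - c0) {θ : ℝ} (hθ : θ < 1)
    (hgA : ∀ s'' < s', ∀ M : ℝ, ∃ A : ℝ, ∀ z ∈ Wc s', 1 ≤ z.2.im →
      z.1.im ≤ s'' * z.2.im → ‖z‖ ≤ M * z.2.im → ‖A' z‖ ≤ A * (1 + ‖z‖) ^ θ)
    (hgP : ∀ s'' < s', ∀ M : ℝ, ∃ A : ℝ, ∀ z ∈ Wc s', 1 ≤ z.2.im →
      z.1.im ≤ s'' * z.2.im → ‖z‖ ≤ M * z.2.im → ‖P' z‖ ≤ A * (1 + ‖z‖) ^ θ) : False := by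
  have hstrip : H190.Ult.LocStrip (𝒰 : Filter ι) th b {z : ℂ × ℂ | z.1.im < 0 ∧ 0 < z.2.im} := by
    intro x hx
    obtain ⟨r, hr, hrG⟩ := Metric.nhds_basis_closedBall.mem_iff.mp (isOpen_G.mem_nhds hx)
    refine ⟨r, hr, ?_⟩
    filter_upwards [hth (closedBall x r) (isCompact_closedBall _ _) fun z hz => hrG hz] with n hn
    exact ⟨fun y hy => (hn y (ball_subset_closedBall hy)).1.differentiableWithinAt,
      fun y hy => le_of_lt (hn y (ball_subset_closedBall hy)).2⟩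
  obtain ⟨k, g, -, dg, lg, hgs, -⟩ := H190.Ult.ult_strip 𝒰 isOpen_G convex_G.isPreconnected hb hc0
    hstrip (z₀ := zb) hzb hmid
  have N' := N.shift hF hq (fun K hK hKG => (hth K hK hKG).mono fun n hn z hz => (hn z hz).2) M k
  obtain ⟨a0, ha0⟩ := exists_lim 𝒰 hcA
  obtain ⟨p0, hp0⟩ := exists_lim 𝒰 hcP
  have hWo := isOpen_Wc s'
  have la : TendstoLocallyUniformlyOn (fun n z => al n z - 2 * Real.pi * M n) (fun _ => a0)
      (𝒰 : Filter ι) (Wc s') := lu_const hWo he N'.e0 ha0 N'.dA.continuousOn N'.Al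
  have lp : TendstoLocallyUniformlyOn p (fun _ => p0) (𝒰 : Filter ι) (Wc s') :=
    lu_const hWo he N'.e0 hp0 N'.dP.continuousOn N'.Pl
  have hroot : ∀ z ∈ {z : ℂ × ℂ | z.1.im < 0 ∧ 0 < z.2.im}, Mi F q a0 p0 (g z) = 0 := by
    intro z hz
    refine root_lim hC (la.tendsto_at (G_sub hs hz)) (lp.tendsto_at (G_sub hs hz))
      (lg.tendsto_at hz) (hgs z hz) ?_
    filter_upwards [N'.rt {z} isCompact_singleton (by
      intro y hy
      rw [mem_singleton_iff] at hy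
      rw [hy]; exact hz)] with n hn
    exact (hn z rfl).2.1
  obtain ⟨x0, hx0⟩ := const_of_root hC isOpen_G convex_G.isPreconnected dg
    (fun z hz => hgs z hz) hroot
  have hx0s : x0 ∈ Sb b := by
    rw [← hx0 zb hzb]
    exact hgs zb hzb
  have lg' : TendstoLocallyUniformlyOn (fun n z => th n z - (k n : ℂ)) (fun _ => x0)
      (𝒰 : Filter ι) {z : ℂ × ℂ | z.1.im < 0 ∧ 0 < z.2.im} :=
    lg.congr_right fun z hz => hx0 z hz
  exact step9 hs hC N' he ha0 hp0 hx0s lg' hθ hgA hgP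

end

end Vale.Agent.P097.H839.Tan
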