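import Vale.Agent.P097.TC.Defs5
import Vale.Agent.P097.H839.Tan.St9

/-!
# P097 / block (T) : from the world `W5` to the data `NL9` of steps 9, 10
-/

set_option linter.all false

open Set Filter Metric Topology MeasureTheory

namespace Vale.Agent.P097.H839.Tan

open Vale.Agent.P097.TC
open Vale.Agent.P097.H920 (ExtM)
open Vale.Agent.P097.H845 (jac)
open Vale.Agent.P097.H100 (Wc isOpen_Wc)
open Vale.Agent.P097.H929 (kpt kpt_eq bpt lsh lsh_im continuous_lsh Gc blow_dom ev_of)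
open Vale.Agent.P097.A5 (W5 Sq Tou Dm)

/-- the linear part of `kpt` -/
noncomputable def kD (c σ r : ℝ) : ℂ × ℂ →L[ℂ] ℂ × ℂ :=
  ((r : ℂ) • (ContinuousLinearMap.fst ℂ ℂ ℂ + (Complex.I * c + σ) • ContinuousLinearMap.snd ℂ ℂ ℂ)).prod
    ((r : ℂ) • ContinuousLinearMap.snd ℂ ℂ ℂ)

theorem kD_apply (c σ r : ℝ) (v : ℂ × ℂ) :
    kD c σ r v = ((r : ℂ) * (v.1 + (Complex.I * c + σ) * v.2), (r : ℂ) * v.2) := by
  simp only [kD, ContinuousLinearMap.prod_apply, ContinuousLinearMap.smul_apply,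
    ContinuousLinearMap.add_apply, ContinuousLinearMap.coe_fst', ContinuousLinearMap.coe_snd',
    smul_eq_mul]

theorem kpt_kD (R c σ y u r : ℝ) (z : ℂ × ℂ) :
    kpt R c σ y u r z = (((y : ℂ) + (R : ℂ) * Complex.I, (u : ℂ)) : ℂ × ℂ) + kD c σ r z := by
  rw [kpt_eq, kD_apply]
  rfl

theorem hasFDerivAt_kpt (R c σ y u r : ℝ) (z : ℂ × ℂ) :
    HasFDerivAt (kpt R c σ y u r) (kD c σ r) z := by
  have h1 : kpt R c σ y u r = fun z => (((y : ℂ) + (R : ℂ) * Complex.I, (u : ℂ)) : ℂ × ℂ) + kD c σ r z :=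
    funext fun z => kpt_kD R c σ y u r z
  rw [h1]
  exact (kD c σ r).hasFDerivAt.const_add _

theorem jac_kpt {al p : ℂ × ℂ → ℂ} (R c σ y u r : ℝ) {z : ℂ × ℂ}
    (ha : DifferentiableAt ℂ al (kpt R c σ y u r z)) (hp : DifferentiableAt ℂ p (kpt R c σ y u r z)) :
    jac (fun z => al (kpt R c σ y u r z)) (fun z => p (kpt R c σ y u r z)) z =
      (r : ℂ) ^ 2 * jac al p (kpt R c σ y u r z) := by
  have e1 : fderiv ℂ (fun z => al (kpt R c σ y u r z)) z =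
      (fderiv ℂ al (kpt R c σ y u r z)).comp (kD c σ r) :=
    (ha.hasFDerivAt.comp z (hasFDerivAt_kpt R c σ y u r z)).fderiv
  have e2 : fderiv ℂ (fun z => p (kpt R c σ y u r z)) z =
      (fderiv ℂ p (kpt R c σ y u r z)).comp (kD c σ r) :=
    (hp.hasFDerivAt.comp z (hasFDerivAt_kpt R c σ y u r z)).fderiv
  simp only [jac, e1, e2, ContinuousLinearMap.comp_apply, kD_apply]
  set L1 := fderiv ℂ al (kpt R c σ y u r z)
  set L2 := fderiv ℂ p (kpt R c σ y u r z)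
  rw [fd_apply L1 (↑r * (1 + (Complex.I * ↑c + ↑σ) * 0)) (↑r * 0),
    fd_apply L1 (↑r * (0 + (Complex.I * ↑c + ↑σ) * 1)) (↑r * 1),
    fd_apply L2 (↑r * (1 + (Complex.I * ↑c + ↑σ) * 0)) (↑r * 0),
    fd_apply L2 (↑r * (0 + (Complex.I * ↑c + ↑σ) * 1)) (↑r * 1)]
  ring

section
variable {Λ H : ℝ} {F q : ℂ → ℂ} {b m : ℝ} {Ψ : ℂ → ℂ} {Mj Mk B : Set (ℂ × ℂ)} {A : Set ℝ}
  {P : ℝ → ℂ} {c k : ℝ → ℝ} {K s y₀ u₀ σ : ℝ} {al p th : ℂ × ℂ → ℂ} {J : ℂ → ℂ}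

section
variable {ι : Type*} {l : Filter ι} {y u r : ι → ℝ}

/-- compact sets of the narrow cone are in `Mj` -/
theorem w5_wj (W : W5 Λ H F q b m Ψ Mj Mk B A P c k K y₀ u₀ σ s al p th J)
    (hy : Tendsto y l (𝓝 y₀)) (hu : Tendsto u l (𝓝 u₀)) (huA : ∀ᶠ n in l, u n ∈ A)
    (hr : Tendsto r l (𝓝[>] 0)) {X : Set (ℂ × ℂ)} (hX : IsCompact X)
    (hXG : ∀ z ∈ X, z.1.im < 0 ∧ 0 < z.2.im) :
    ∀ᶠ n in l, ∀ z ∈ X, kpt (P (u n)).im (c u₀) σ (y n) (u n) (r n) z ∈ Mj := by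
  have hX' : IsCompact (lsh (c u₀) σ '' X) := hX.image (continuous_lsh _ _)
  have hXG' : lsh (c u₀) σ '' X ⊆ Gc (c u₀) σ := by
    rintro _ ⟨z, hz, rfl⟩
    refine ⟨(hXG z hz).2, ?_⟩
    rw [lsh_im]
    have := (hXG z hz).1
    show z.1.im + c u₀ * z.2.re + σ * z.2.im < c u₀ * z.2.re + σ * z.2.im
    linarith
  obtain ⟨d, hd, r₀, hr₀, hb⟩ := blow_dom W.u0 W.cR W.cc (W.hb u₀ W.u0) W.regj hX' hXG'
  have := ev_of hy hu huA hr (Q := fun u y r => ∀ p ∈ lsh (c u₀) σ '' X,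
    bpt (P u).im y u r p ∈ Mj) hd hr₀ hb
  filter_upwards [this] with n hn z hz
  exact hn _ ⟨z, hz, rfl⟩

/-- compact sets of the wide cone are in `Mk` -/
theorem w5_wk (W : W5 Λ H F q b m Ψ Mj Mk B A P c k K y₀ u₀ σ s al p th J)
    (hy : Tendsto y l (𝓝 y₀)) (hu : Tendsto u l (𝓝 u₀)) (huA : ∀ᶠ n in l, u n ∈ A)
    (hr : Tendsto r l (𝓝[>] 0)) {X : Set (ℂ × ℂ)} (hX : IsCompact X)
    (hXG : X ⊆ Wc (s - σ)) :
    ∀ᶠ n in l, ∀ z ∈ X, kpt (P (u n)).im (c u₀) σ (y n) (u n) (r n) z ∈ Mk := by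
  have hX' : IsCompact (lsh (c u₀) σ '' X) := hX.image (continuous_lsh _ _)
  have hXG' : lsh (c u₀) σ '' X ⊆ Gc (c u₀) s := by
    rintro _ ⟨z, hz, rfl⟩
    refine ⟨(hXG hz).1, ?_⟩
    rw [lsh_im]
    have : z.1.im < (s - σ) * z.2.im := (hXG hz).2
    show z.1.im + c u₀ * z.2.re + σ * z.2.im < c u₀ * z.2.re + s * z.2.im
    linarith
  obtain ⟨d, hd, r₀, hr₀, hb⟩ := blow_dom W.u0 W.cR W.cc (W.hb u₀ W.u0) W.regk hX' hXG'
  have := ev_of hy hu huA hr (Q := fun u y r => ∀ p ∈ lsh (c u₀) σ '' X,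
    bpt (P u).im y u r p ∈ Mk) hd hr₀ hb
  filter_upwards [this] with n hn z hz
  exact hn _ ⟨z, hz, rfl⟩

theorem isOpen_Dm (W : W5 Λ H F q b m Ψ Mj Mk B A P c k K y₀ u₀ σ s al p th J) :
    IsOpen (Dm Mj Mk) :=
  (W.rhj.dn.op.inter W.rhk.dn.op).inter (isOpen_ne_fun continuous_snd continuous_const)

/-- compact sets of the narrow cone are in the domain of the position -/
theorem w5_wD (W : W5 Λ H F q b m Ψ Mj Mk B A P c k K y₀ u₀ σ s al p th J)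
    (hy : Tendsto y l (𝓝 y₀)) (hu : Tendsto u l (𝓝 u₀)) (huA : ∀ᶠ n in l, u n ∈ A)
    (hr : Tendsto r l (𝓝[>] 0)) {X : Set (ℂ × ℂ)} (hX : IsCompact X)
    (hXG : ∀ z ∈ X, z.1.im < 0 ∧ 0 < z.2.im) :
    ∀ᶠ n in l, ∀ z ∈ X, kpt (P (u n)).im (c u₀) σ (y n) (u n) (r n) z ∈ Dm Mj Mk := by
  have h1 := w5_wj W hy hu huA hr hX hXG
  have h2 := w5_wk W hy hu huA hr hX fun z hz => G_sub (sub_pos.2 W.σs) (hXG z hz)
  have h3 : ∀ᶠ n in l, 0 < r n := hr.eventually self_mem_nhdsWithin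
  filter_upwards [h1, h2, h3] with n k1 k2 k3 z hz
  refine ⟨⟨k1 z hz, k2 z hz⟩, ?_⟩
  show (kpt (P (u n)).im (c u₀) σ (y n) (u n) (r n) z).2 ≠ 0
  intro h0
  have h4 := congrArg Complex.im h0
  rw [kpt_eq] at h4
  simp only [Complex.add_im, Complex.ofReal_im, Complex.mul_im, Complex.ofReal_re, Complex.zero_im,
    zero_mul, add_zero, zero_add] at h4
  have := mul_pos k3 (hXG z hz).2
  linarith

/-- the factor of the area is almost constant -/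
theorem w5_chi (W : W5 Λ H F q b m Ψ Mj Mk B A P c k K y₀ u₀ σ s al p th J)
    (hu : Tendsto u l (𝓝 u₀)) (hr : Tendsto r l (𝓝[>] 0)) (D : Set (ℂ × ℂ)) :
    TendstoLocallyUniformlyOn (fun n (z : ℂ × ℂ) => J ((u n : ℂ) + r n * z.2) / J u₀)
      (fun _ => 1) l D := by
  rw [Metric.tendstoLocallyUniformlyOn_iff]
  intro η hη z hz
  have hc : ContinuousAt (fun v : ℂ => J v / J u₀) (u₀ : ℂ) := W.cJ.div_const _
  obtain ⟨δ, hδ, h1⟩ := Metric.continuousAt_iff.1 hc η hη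
  refine ⟨ball z 1, mem_nhdsWithin_of_mem_nhds (ball_mem_nhds _ one_pos), ?_⟩
  have h2 : ∀ᶠ n in l, |u n - u₀| < δ / 2 := by
    have := Metric.tendsto_nhds.1 hu (δ / 2) (by positivity)
    simpa [Real.dist_eq] using this
  have hr0 : Tendsto r l (𝓝 0) := hr.mono_right nhdsWithin_le_nhds
  have h3 : ∀ᶠ n in l, |r n| < δ / (2 * (‖z‖ + 1)) := by
    have := Metric.tendsto_nhds.1 hr0 (δ / (2 * (‖z‖ + 1))) (by positivity)
    simpa [Real.dist_eq] using this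
  filter_upwards [h2, h3] with n k2 k3 y' hy'
  have e1 : ‖y'.2‖ ≤ ‖z‖ + 1 := by
    have a1 : ‖y'‖ ≤ ‖z‖ + 1 := by
      have a2 := norm_sub_norm_le y' z
      rw [mem_ball, dist_eq_norm] at hy'
      linarith
    exact (norm_snd_le y').trans a1
  have e2 : dist ((u n : ℂ) + r n * y'.2) (u₀ : ℂ) < δ := by
    rw [dist_eq_norm]
    have e3 : (u n : ℂ) + r n * y'.2 - u₀ = ((u n - u₀ : ℝ) : ℂ) + (r n : ℂ) * y'.2 := by
      push_cast; ring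
    rw [e3]
    refine (norm_add_le _ _).trans_lt ?_
    rw [norm_mul, Complex.norm_real, Complex.norm_real, Real.norm_eq_abs, Real.norm_eq_abs]
    have e4 : |r n| * ‖y'.2‖ ≤ |r n| * (‖z‖ + 1) := mul_le_mul_of_nonneg_left e1 (abs_nonneg _)
    have e5 : |r n| * (‖z‖ + 1) < δ / 2 := by
      have := mul_lt_mul_of_pos_right k3 (show 0 < ‖z‖ + 1 by positivity)
      calc |r n| * (‖z‖ + 1) < δ / (2 * (‖z‖ + 1)) * (‖z‖ + 1) := this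
        _ = δ / 2 := by field_simp
    linarith
  have h4 := h1 e2
  rw [dist_comm] at h4
  have h5 : J u₀ / J u₀ = 1 := div_self W.J0
  simp only [h5] at h4
  exact h4

/-- differentiability and area on compact sets of the wide cone -/
theorem w5_hd (W : W5 Λ H F q b m Ψ Mj Mk B A P c k K y₀ u₀ σ s al p th J)
    (hy : Tendsto y l (𝓝 y₀)) (hu : Tendsto u l (𝓝 u₀)) (huA : ∀ᶠ n in l, u n ∈ A)
    (hr : Tendsto r l (𝓝[>] 0)) {X : Set (ℂ × ℂ)} (hXG : X ⊆ Wc (s - σ)) (hX : IsCompact X) :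
    ∀ᶠ n in l, ∀ z ∈ X,
      DifferentiableAt ℂ (fun z => al (kpt (P (u n)).im (c u₀) σ (y n) (u n) (r n) z)) z ∧
      DifferentiableAt ℂ (fun z => p (kpt (P (u n)).im (c u₀) σ (y n) (u n) (r n) z)) z ∧
      jac (fun z => al (kpt (P (u n)).im (c u₀) σ (y n) (u n) (r n) z))
        (fun z => p (kpt (P (u n)).im (c u₀) σ (y n) (u n) (r n) z)) z =
        (J u₀ * (r n : ℂ) ^ 2) * (J ((u n : ℂ) + r n * z.2) / J u₀) := by
  filter_upwards [w5_wk W hy hu huA hr hX hXG] with n hn z hz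
  have h1 := hn z hz
  have h2 : Mk ∈ 𝓝 (kpt (P (u n)).im (c u₀) σ (y n) (u n) (r n) z) := W.rhk.dn.op.mem_nhds h1
  have h3 : DifferentiableAt ℂ al (kpt (P (u n)).im (c u₀) σ (y n) (u n) (r n) z) :=
    W.dal.differentiableAt h2
  have h4 : DifferentiableAt ℂ p (kpt (P (u n)).im (c u₀) σ (y n) (u n) (r n) z) :=
    W.dp.differentiableAt h2
  have h5 := (hasFDerivAt_kpt (P (u n)).im (c u₀) σ (y n) (u n) (r n) z).differentiableAt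
  refine ⟨DifferentiableAt.comp z h3 h5, DifferentiableAt.comp z h4 h5, ?_⟩
  rw [jac_kpt _ _ _ _ _ _ h3 h4]
  have h6 : jac al p (kpt (P (u n)).im (c u₀) σ (y n) (u n) (r n) z) =
      J (kpt (P (u n)).im (c u₀) σ (y n) (u n) (r n) z).2 := W.area _ h1
  have h7 : (kpt (P (u n)).im (c u₀) σ (y n) (u n) (r n) z).2 = (u n : ℂ) + r n * z.2 := by
    rw [kpt_eq]
  rw [h6, h7]
  have := W.J0
  field_simp

/-- position and root on compact sets of the narrow cone -/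
theorem w5_rt (W : W5 Λ H F q b m Ψ Mj Mk B A P c k K y₀ u₀ σ s al p th J)
    (hy : Tendsto y l (𝓝 y₀)) (hu : Tendsto u l (𝓝 u₀)) (huA : ∀ᶠ n in l, u n ∈ A)
    (hr : Tendsto r l (𝓝[>] 0)) {X : Set (ℂ × ℂ)} (hX : IsCompact X)
    (hXG : ∀ z ∈ X, z.1.im < 0 ∧ 0 < z.2.im) :
    ∀ᶠ n in l, ∀ z ∈ X,
      DifferentiableAt ℂ (fun z => th (kpt (P (u n)).im (c u₀) σ (y n) (u n) (r n) z)) z ∧
      th (kpt (P (u n)).im (c u₀) σ (y n) (u n) (r n) z) ∈ Sb H ∧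
      Mi F q (al (kpt (P (u n)).im (c u₀) σ (y n) (u n) (r n) z))
        (p (kpt (P (u n)).im (c u₀) σ (y n) (u n) (r n) z))
        (th (kpt (P (u n)).im (c u₀) σ (y n) (u n) (r n) z)) = 0 ∧
      deriv (Mi F q (al (kpt (P (u n)).im (c u₀) σ (y n) (u n) (r n) z))
        (p (kpt (P (u n)).im (c u₀) σ (y n) (u n) (r n) z)))
        (th (kpt (P (u n)).im (c u₀) σ (y n) (u n) (r n) z)) ≠ 0 := by
  filter_upwards [w5_wD W hy hu huA hr hX hXG] with n hn z hz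
  have h1 := hn z hz
  have h2 : Dm Mj Mk ∈ 𝓝 (kpt (P (u n)).im (c u₀) σ (y n) (u n) (r n) z) :=
    (isOpen_Dm W).mem_nhds h1
  have h3 : DifferentiableAt ℂ th (kpt (P (u n)).im (c u₀) σ (y n) (u n) (r n) z) :=
    W.dth.differentiableAt h2
  have h5 := (hasFDerivAt_kpt (P (u n)).im (c u₀) σ (y n) (u n) (r n) z).differentiableAt
  exact ⟨DifferentiableAt.comp z h3 h5, W.mem _ h1, W.inc _ h1, W.smp _ h1⟩

end

/-- `Tou` excludes good extensions in the sense of `ExtM` -/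
theorem tou_extM {y u r : ℕ → ℝ} (T : Tou H P c u₀ σ th y u) (hr : Tendsto r atTop (𝓝[>] 0))
    {al' p' : ℕ → ℂ × ℂ → ℂ} (a : ℝ) {w₀ : ℂ} (hw : 0 < w₀.im) (hw' : |w₀.re| ≤ w₀.im / 2)
    {δ : ℝ} (hδ : 0 < δ) : ∃ ε > 0, ∀ᶠ n in atTop, ¬ ExtM H F q (al' n) (p' n)
      (fun z => th (kpt (P (u n)).im (c u₀) σ (y n) (u n) (r n) z)) w₀ a δ ε := by
  obtain ⟨ε, hε, h1⟩ := T r hr w₀ hw hw' a δ hδ
  refine ⟨ε, hε, h1.mono fun n hn hex => hn ?_⟩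
  obtain ⟨g, hg, hg2⟩ := hex
  exact ⟨g, fun z hz => (hg z hz).differentiableAt.differentiableWithinAt,
    fun z hz => ⟨(hg2 z hz).1, (hg2 z hz).2.2.2⟩⟩

/-- **the data of steps 9, 10 from the world** : everything except the normalised convergence -/
theorem nl9_of (W : W5 Λ H F q b m Ψ Mj Mk B A P c k K y₀ u₀ σ s al p th J) {y u r : ℕ → ℝ}
    (S : Sq A y₀ u₀ y u) (hr : Tendsto r atTop (𝓝[>] 0)) (T : Tou H P c u₀ σ th y u)
    {𝒰 : Ultrafilter ℕ} (hU : (𝒰 : Filter ℕ) ≤ atTop) {A' P' : ℂ × ℂ → ℂ} {cA cP e : ℕ → ℂ}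
    (he0 : ∀ᶠ n in (𝒰 : Filter ℕ), e n ≠ 0) (dA : DifferentiableOn ℂ A' (Wc (s - σ)))
    (dP : DifferentiableOn ℂ P' (Wc (s - σ)))
    (Al : TendstoLocallyUniformlyOn (fun n z =>
      (al (kpt (P (u n)).im (c u₀) σ (y n) (u n) (r n) z) - cA n) / e n) A' (𝒰 : Filter ℕ)
      (Wc (s - σ)))
    (Pl : TendstoLocallyUniformlyOn (fun n z =>
      (p (kpt (P (u n)).im (c u₀) σ (y n) (u n) (r n) z) - cP n) / e n) P' (𝒰 : Filter ℕ)
      (Wc (s - σ)))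
    (nc : ∃ z ∈ Wc (s - σ), fderiv ℂ A' z ≠ 0 ∨ fderiv ℂ P' z ≠ 0) :
    NL9 (𝒰 : Filter ℕ) H F q (s - σ)
      (fun n z => al (kpt (P (u n)).im (c u₀) σ (y n) (u n) (r n) z))
      (fun n z => p (kpt (P (u n)).im (c u₀) σ (y n) (u n) (r n) z))
      (fun n z => th (kpt (P (u n)).im (c u₀) σ (y n) (u n) (r n) z))
      (fun n z => J ((u n : ℂ) + r n * z.2) / J u₀) A' P' (fun _ => 1) cA cP e
      (fun n => J u₀ * (r n : ℂ) ^ 2) where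
  e0 := he0
  J0 := by
    have h3 : ∀ᶠ n in (𝒰 : Filter ℕ), 0 < r n := (hr.mono_left hU).eventually self_mem_nhdsWithin
    filter_upwards [h3] with n hn
    have h4 : (r n : ℂ) ≠ 0 := by exact_mod_cast hn.ne'
    exact mul_ne_zero W.J0 (pow_ne_zero 2 h4)
  hd := fun X hXG hX => w5_hd W (S.yt.mono_left hU) (S.ut.mono_left hU)
    (Eventually.of_forall S.uA) (hr.mono_left hU) hXG hX
  χl := w5_chi W (S.ut.mono_left hU) (hr.mono_left hU) _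
  χc := continuousOn_const
  χ0 := fun z _ => one_ne_zero
  dA := dA
  dP := dP
  Al := Al
  Pl := Pl
  nc := nc
  rt := by
    intro X hX hXG
    filter_upwards [w5_rt W (S.yt.mono_left hU) (S.ut.mono_left hU) (Eventually.of_forall S.uA)
      (hr.mono_left hU) hX hXG] with n hn z hz
    obtain ⟨h1, h2, h3, h4⟩ := hn z hz
    exact ⟨h1.continuousAt, h3, h4⟩
  touch := by
    intro a w₀ hw hw' δ hδ
    obtain ⟨ε, hε, h1⟩ := tou_extM (F := F) (q := q) T hr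
      (al' := fun n z => al (kpt (P (u n)).im (c u₀) σ (y n) (u n) (r n) z))
      (p' := fun n z => p (kpt (P (u n)).im (c u₀) σ (y n) (u n) (r n) z)) a hw hw' hδ
    exact ⟨ε, hε, h1.filter_mono hU⟩

/-- the hypothesis `hth` of `st9` -/
theorem hth_of (W : W5 Λ H F q b m Ψ Mj Mk B A P c k K y₀ u₀ σ s al p th J) {y u r : ℕ → ℝ}
    (S : Sq A y₀ u₀ y u) (hr : Tendsto r atTop (𝓝[>] 0)) {𝒰 : Ultrafilter ℕ}
    (hU : (𝒰 : Filter ℕ) ≤ atTop) : ∀ X : Set (ℂ × ℂ), IsCompact X →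
      (∀ z ∈ X, z.1.im < 0 ∧ 0 < z.2.im) → ∀ᶠ n in (𝒰 : Filter ℕ), ∀ z ∈ X,
      DifferentiableAt ℂ (fun z => th (kpt (P (u n)).im (c u₀) σ (y n) (u n) (r n) z)) z ∧
      th (kpt (P (u n)).im (c u₀) σ (y n) (u n) (r n) z) ∈ Sb H := by
  intro X hX hXG
  filter_upwards [w5_rt W (S.yt.mono_left hU) (S.ut.mono_left hU) (Eventually.of_forall S.uA)
    (hr.mono_left hU) hX hXG] with n hn z hz
  exact ⟨(hn z hz).1, (hn z hz).2.1⟩

/-- **ST9 over the world** -/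
theorem st9_w5 (W : W5 Λ H F q b m Ψ Mj Mk B A P c k K y₀ u₀ σ s al p th J) {y u r : ℕ → ℝ}
    (S : Sq A y₀ u₀ y u) (hr : Tendsto r atTop (𝓝[>] 0)) (T : Tou H P c u₀ σ th y u)
    {𝒰 : Ultrafilter ℕ} (hU : (𝒰 : Filter ℕ) ≤ atTop) {A' P' : ℂ × ℂ → ℂ} {cA cP e : ℕ → ℂ}
    (he0 : ∀ᶠ n in (𝒰 : Filter ℕ), e n ≠ 0) (dA : DifferentiableOn ℂ A' (Wc (s - σ)))
    (dP : DifferentiableOn ℂ P' (Wc (s - σ)))
    (Al : TendstoLocallyUniformlyOn (fun n z =>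
      (al (kpt (P (u n)).im (c u₀) σ (y n) (u n) (r n) z) - cA n) / e n) A' (𝒰 : Filter ℕ)
      (Wc (s - σ)))
    (Pl : TendstoLocallyUniformlyOn (fun n z =>
      (p (kpt (P (u n)).im (c u₀) σ (y n) (u n) (r n) z) - cP n) / e n) P' (𝒰 : Filter ℕ)
      (Wc (s - σ)))
    (nc : ∃ z ∈ Wc (s - σ), fderiv ℂ A' z ≠ 0 ∨ fderiv ℂ P' z ≠ 0)
    (he : Tendsto e (𝒰 : Filter ℕ) (𝓝 0)) {M : ℕ → ℤ} {C : ℝ}
    (hcA : ∀ᶠ n in (𝒰 : Filter ℕ), ‖cA n - 2 * Real.pi * M n‖ ≤ C)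
    (hcP : ∀ᶠ n in (𝒰 : Filter ℕ), ‖cP n‖ ≤ C)
    {zb : ℂ × ℂ} (hzb : zb.1.im < 0 ∧ 0 < zb.2.im) {c0 : ℝ} (hc0 : 0 < c0)
    (hmid : ∀ᶠ n in (𝒰 : Filter ℕ),
      |(th (kpt (P (u n)).im (c u₀) σ (y n) (u n) (r n) zb)).im| ≤ H - c0) {θ : ℝ} (hθ : θ < 1)
    (hgA : ∀ s'' < s - σ, ∀ M : ℝ, ∃ A : ℝ, ∀ z ∈ Wc (s - σ), 1 ≤ z.2.im →
      z.1.im ≤ s'' * z.2.im → ‖z‖ ≤ M * z.2.im → ‖A' z‖ ≤ A * (1 + ‖z‖) ^ θ)
    (hgP : ∀ s'' < s - σ, ∀ M : ℝ, ∃ A : ℝ, ∀ z ∈ Wc (s - σ), 1 ≤ z.2.im →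
      z.1.im ≤ s'' * z.2.im → ‖z‖ ≤ M * z.2.im → ‖P' z‖ ≤ A * (1 + ‖z‖) ^ θ) : False :=
  st9 𝒰 (sub_pos.2 W.σs) W.crv.cv W.crv.cv.b0 W.crv.Fp W.crv.qp
    (nl9_of W S hr T hU he0 dA dP Al Pl nc) he hcA hcP (hth_of W S hr hU) hzb hc0 hmid hθ hgA hgP

end

end Vale.Agent.P097.H839.Tan
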