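import Vale.Agent.P097.H839.Tan.Area

/-!
# P097 / A5.T-BR (1) : tangent lines, orientation, convergence in the tangential chart
-/

set_option linter.all false

open Set Filter Metric Topology MeasureTheory

namespace Vale.Agent.P097.H839.Tan

open Vale.Agent.P097.TC

/-! ### tangent lines -/

theorem ccos_int (m : ℤ) : Complex.cos (m * Real.pi) = (-1) ^ m := by
  have h := congrArg (fun x : ℝ => (x : ℂ)) (Real.cos_int_mul_pi m)
  push_cast at h
  exact h

theorem ccos_add (x : ℂ) (m : ℤ) : Complex.cos (x + m * Real.pi) = (-1) ^ m * Complex.cos x := by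
  rw [Complex.cos_add, ccos_int, Complex.sin_int_mul_pi]
  ring

theorem csin_add (x : ℂ) (m : ℤ) : Complex.sin (x + m * Real.pi) = (-1) ^ m * Complex.sin x := by
  rw [Complex.sin_add, ccos_int, Complex.sin_int_mul_pi]
  ring

section
variable {Λ b : ℝ} {F q : ℂ → ℂ} {x : ℂ}

/-- a line has a double root at `x` iff it is the tangent line (with one of its orientations and
angles) -/
theorem tangent_iff (hC : Cv Λ b F q) (hx : x ∈ Sb b) (a p : ℂ) :
    (Mi F q a p x = 0 ∧ deriv (Mi F q a p) x = 0) ↔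
      ∃ m : ℤ, a = F x + m * Real.pi ∧ p = (-1) ^ m * q x := by
  have hΛ : (Λ : ℂ) ≠ 0 := by exact_mod_cast hC.Λ0.ne'
  have hw := hC.wr x hx
  rw [deriv_Mi hC hx]
  constructor
  · rintro ⟨h1, h2⟩
    rw [Mi] at h1
    rw [Mx] at h2
    -- sin = 0
    have hs : Complex.sin (a - F x) = 0 := by
      have h3 : (Λ : ℂ) ^ 3 * Complex.sin (a - F x) = 0 := by
        linear_combination (-Complex.sin (a - F x)) * hw - deriv (deriv F) x * h1 + deriv F x * h2
      exact (mul_eq_zero.1 h3).resolve_left (pow_ne_zero 3 hΛ)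
    obtain ⟨m, hm⟩ := Complex.sin_eq_zero_iff.1 hs
    have ha : a = F x + m * Real.pi := by linear_combination hm
    refine ⟨m, ha, ?_⟩
    have hc : Complex.cos (a - F x) = (-1) ^ m := by
      rw [hm, ccos_int]
    rw [hs, hc] at h1 h2
    simp only [mul_zero, add_zero] at h1 h2
    -- q c - p = 0
    have h4 : q x * (-1) ^ m - p = 0 := by
      by_contra hne
      have u1 : deriv F x = 0 := (mul_eq_zero.1 h1).resolve_right hne
      have u2 : deriv (deriv F) x = 0 := (mul_eq_zero.1 h2).resolve_right hne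
      rw [u1, u2] at hw
      refine pow_ne_zero 3 hΛ ?_
      rw [← hw]; ring
    linear_combination -h4
  · rintro ⟨m, rfl, rfl⟩
    have hs : Complex.sin (F x + m * Real.pi - F x) = 0 := by
      rw [add_sub_cancel_left]; exact Complex.sin_int_mul_pi m
    have hc : Complex.cos (F x + m * Real.pi - F x) = (-1) ^ m := by
      rw [add_sub_cancel_left, ccos_int]
    rw [Mi, Mx, hs, hc]
    constructor <;> ring

theorem n1_sq (m : ℤ) : ((-1 : ℂ)) ^ m * (-1) ^ m = 1 := by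
  rw [← mul_zpow]; simp

theorem n1_neg (m : ℤ) : ((-1 : ℂ)) ^ (-m) = (-1) ^ m := by
  rw [zpow_neg]
  exact inv_eq_of_mul_eq_one_left (n1_sq m)

/-- orientation and angle mod `2 π` -/
theorem Mi_orient (F q : ℂ → ℂ) (a p x : ℂ) (N m : ℤ) :
    Mi F q (a - 2 * Real.pi * N - m * Real.pi) ((-1) ^ m * p) x = (-1) ^ m * Mi F q a p x := by
  have e : a - 2 * Real.pi * N - m * Real.pi - F x =
      (a - F x) + ((-m : ℤ) : ℂ) * Real.pi - N * (2 * Real.pi) := by push_cast; ring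
  have h1 : Complex.cos ((a - F x) + ((-m : ℤ) : ℂ) * Real.pi - N * (2 * Real.pi)) =
      (-1) ^ m * Complex.cos (a - F x) := by
    rw [Complex.cos_sub_int_mul_two_pi, ccos_add, n1_neg]
  have h2 : Complex.sin ((a - F x) + ((-m : ℤ) : ℂ) * Real.pi - N * (2 * Real.pi)) =
      (-1) ^ m * Complex.sin (a - F x) := by
    rw [Complex.sin_sub_int_mul_two_pi, csin_add, n1_neg]
  rw [Mi, Mi, e, h1, h2]
  ring

theorem neg_one_zpow_ne (m : ℤ) : ((-1 : ℂ)) ^ m ≠ 0 := zpow_ne_zero m (by norm_num)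

theorem Mi_orient_zero (F q : ℂ → ℂ) (a p x : ℂ) (N m : ℤ) :
    Mi F q (a - 2 * Real.pi * N - m * Real.pi) ((-1) ^ m * p) x = 0 ↔ Mi F q a p x = 0 := by
  rw [Mi_orient, mul_eq_zero, or_iff_right (neg_one_zpow_ne m)]

theorem Mi_orient_deriv (F q : ℂ → ℂ) (a p x : ℂ) (N m : ℤ) :
    deriv (Mi F q (a - 2 * Real.pi * N - m * Real.pi) ((-1) ^ m * p)) x =
      (-1) ^ m * deriv (Mi F q a p) x := by
  have : Mi F q (a - 2 * Real.pi * N - m * Real.pi) ((-1) ^ m * p) =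
      fun y => (-1) ^ m * Mi F q a p y := funext fun y => Mi_orient F q a p y N m
  rw [this]
  exact deriv_const_mul_field _

theorem Sb_add_int {x : ℂ} {k : ℤ} : x + k ∈ Sb b ↔ x ∈ Sb b := by simp [Sb]

theorem F_add_int (hF : ∀ x ∈ Sb b, F (x + 1) = F x + 2 * Real.pi) {x : ℂ} (hx : x ∈ Sb b) (k : ℤ) :
    F (x + k) = F x + 2 * Real.pi * k := by
  induction k using Int.induction_on with
  | zero => simp
  | succ n ih =>
    have h1 : x + ((n : ℤ) : ℂ) ∈ Sb b := Sb_add_int.2 hx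
    have := hF _ h1
    push_cast at ih this ⊢
    rw [← add_assoc, this, ih]; ring
  | pred n ih =>
    have h1 : x + ((-(n : ℤ) - 1 : ℤ) : ℂ) ∈ Sb b := Sb_add_int.2 hx
    have := hF _ h1
    push_cast at ih this h1 ⊢
    have e : x + (-(n : ℂ) - 1) + 1 = x + -(n : ℂ) := by ring
    rw [e, ih] at this
    linear_combination -this

theorem q_add_int (hq : ∀ x ∈ Sb b, q (x + 1) = q x) {x : ℂ} (hx : x ∈ Sb b) (k : ℤ) :
    q (x + k) = q x := by
  induction k using Int.induction_on with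
  | zero => simp
  | succ n ih =>
    have h1 : x + ((n : ℤ) : ℂ) ∈ Sb b := Sb_add_int.2 hx
    have := hq _ h1
    push_cast at ih this ⊢
    rw [← add_assoc, this, ih]
  | pred n ih =>
    have h1 : x + ((-(n : ℤ) - 1 : ℤ) : ℂ) ∈ Sb b := Sb_add_int.2 hx
    have := hq _ h1
    push_cast at ih this h1 ⊢
    have e : x + (-(n : ℂ) - 1) + 1 = x + -(n : ℂ) := by ring
    rw [e, ih] at this
    exact this.symm

theorem deriv_shift {f : ℂ → ℂ} {c : ℂ} (k : ℤ) (hf : ∀ x ∈ Sb b, f (x + k) = f x + c)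
    {x : ℂ} (hx : x ∈ Sb b) : deriv f (x + k) = deriv f x := by
  have h1 : deriv (fun y => f (y + k)) x = deriv f (x + k) := deriv_comp_add_const (f := f) (k : ℂ) x
  have h2 : (fun y => f (y + k)) =ᶠ[𝓝 x] fun y => f y + c := by
    filter_upwards [(isOpen_Sb b).mem_nhds hx] with y hy using hf y hy
  rw [← h1, h2.deriv_eq, deriv_add_const]

theorem Mi_add_int (hF : ∀ x ∈ Sb b, F (x + 1) = F x + 2 * Real.pi)
    (hq : ∀ x ∈ Sb b, q (x + 1) = q x) (a p : ℂ) {x : ℂ} (hx : x ∈ Sb b) (k : ℤ) :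
    Mi F q a p (x + k) = Mi F q a p x := by
  have e1 : deriv F (x + k) = deriv F x :=
    deriv_shift (c := 2 * Real.pi * k) k (fun y hy => F_add_int hF hy k) hx
  have e2 : deriv q (x + k) = deriv q x :=
    deriv_shift (c := 0) k (fun y hy => by rw [q_add_int hq hy k, add_zero]) hx
  have e3 : a - F (x + k) = (a - F x) - k * (2 * Real.pi) := by
    rw [F_add_int hF hx k]; ring
  rw [Mi, Mi, e1, e2, q_add_int hq hx k, e3, Complex.cos_sub_int_mul_two_pi,
    Complex.sin_sub_int_mul_two_pi]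

theorem Mi_add_int_deriv (hF : ∀ x ∈ Sb b, F (x + 1) = F x + 2 * Real.pi)
    (hq : ∀ x ∈ Sb b, q (x + 1) = q x) (a p : ℂ) {x : ℂ} (hx : x ∈ Sb b) (k : ℤ) :
    deriv (Mi F q a p) (x + k) = deriv (Mi F q a p) x :=
  deriv_shift (c := 0) k (fun y hy => by rw [Mi_add_int hF hq a p hy k, add_zero]) hx

end

/-! ### locally uniform convergence -/

section
variable {ι E G : Type*} [NormedAddCommGroup E] [NormedSpace ℂ E] [NormedAddCommGroup G]
  [NormedSpace ℂ G] {l : Filter ι}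

theorem lu_nhds {L : ι → E → G} {L' : E → G} {Ω : Set E}
    (hΩ : IsOpen Ω) (hL : TendstoLocallyUniformlyOn L L' l Ω) (hLc : ContinuousOn L' Ω)
    {z : E} (hz : z ∈ Ω) {V : Set G} (hV : V ∈ 𝓝 (L' z)) :
    ∃ t ∈ 𝓝 z, t ⊆ Ω ∧ (∀ y ∈ t, L' y ∈ V) ∧ ∀ᶠ n in l, ∀ y ∈ t, L n y ∈ V := by
  obtain ⟨δ, hδ, hδV⟩ := Metric.mem_nhds_iff.1 hV
  have h1 : ∀ᶠ y in 𝓝 z, L' y ∈ ball (L' z) (δ / 2) :=
    (hLc.continuousAt (hΩ.mem_nhds hz)).eventually_mem (ball_mem_nhds _ (by positivity))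
  obtain ⟨t, ht, htn⟩ := Metric.tendstoLocallyUniformlyOn_iff.1 hL (δ / 2) (by positivity) z hz
  have ht' : t ∈ 𝓝 z := by rwa [hΩ.nhdsWithin_eq hz] at ht
  refine ⟨t ∩ ({y | L' y ∈ ball (L' z) (δ / 2)} ∩ Ω),
    inter_mem ht' (inter_mem h1 (hΩ.mem_nhds hz)), fun y hy => hy.2.2, fun y hy => ?_, ?_⟩
  · exact hδV (ball_subset_ball (by linarith) hy.2.1)
  · filter_upwards [htn] with n hn y hy
    refine hδV ?_
    have h2 := hn y hy.1
    have h3 : dist (L' y) (L' z) < δ / 2 := hy.2.1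
    rw [mem_ball]
    calc dist (L n y) (L' z) ≤ dist (L n y) (L' y) + dist (L' y) (L' z) := dist_triangle _ _ _
      _ < δ := by rw [dist_comm (L n y)]; linarith

theorem ev_compact {Ω K : Set E} {P : ι → E → Prop} (hK : IsCompact K)
    (h : ∀ z ∈ K, ∃ t ∈ 𝓝 z, ∀ᶠ n in l, ∀ y ∈ t, P n y) : ∀ᶠ n in l, ∀ z ∈ K, P n z := by
  choose! t ht htn using h
  obtain ⟨s, hs, hcov⟩ := hK.elim_nhds_subcover t ht
  have : ∀ᶠ n in l, ∀ z ∈ s, ∀ y ∈ t z, P n y := by
    rw [Filter.eventually_all_finset]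
    intro z hz
    exact htn z (hs z hz)
  filter_upwards [this] with n hn z hz
  obtain ⟨y, hy, hzy⟩ := mem_iUnion₂.1 (hcov hz)
  exact hn y hy z hzy

/-- eventually the values stay in an open set, on compacts -/
theorem lu_mapsTo {L : ι → E → G} {L' : E → G} {Ω : Set E}
    (hΩ : IsOpen Ω) (hL : TendstoLocallyUniformlyOn L L' l Ω) (hLc : ContinuousOn L' Ω)
    {V : Set G} (hV : IsOpen V) (hm : MapsTo L' Ω V) {K : Set E} (hK : IsCompact K)
    (hKΩ : K ⊆ Ω) : ∀ᶠ n in l, ∀ z ∈ K, L n z ∈ V := by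
  refine ev_compact (Ω := Ω) hK fun z hz => ?_
  obtain ⟨t, ht, -, -, htn⟩ := lu_nhds hΩ hL hLc (hKΩ hz) (hV.mem_nhds (hm (hKΩ hz)))
  exact ⟨t, ht, htn⟩

/-- composition with a continuous function -/
theorem lu_comp {H : Type*} [NormedAddCommGroup H] [NormedSpace ℂ H] {L : ι → E → G} {L' : E → G}
    {Ω : Set E} (hΩ : IsOpen Ω) (hL : TendstoLocallyUniformlyOn L L' l Ω)
    (hLc : ContinuousOn L' Ω) {V : Set G} (hV : IsOpen V) (hm : MapsTo L' Ω V) {f : G → H}
    (hf : ContinuousOn f V) :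
    TendstoLocallyUniformlyOn (fun n z => f (L n z)) (fun z => f (L' z)) l Ω := by
  rw [Metric.tendstoLocallyUniformlyOn_iff]
  intro η hη z hz
  have hfz : ContinuousAt f (L' z) := hf.continuousAt (hV.mem_nhds (hm hz))
  have hN : {v | f v ∈ ball (f (L' z)) (η / 2)} ∈ 𝓝 (L' z) :=
    hfz.preimage_mem_nhds (ball_mem_nhds _ (by positivity))
  obtain ⟨t, ht, -, h1, h2⟩ := lu_nhds hΩ hL hLc hz hN
  refine ⟨t, mem_nhdsWithin_of_mem_nhds ht, ?_⟩
  filter_upwards [h2] with n hn y hy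
  have e1 : dist (f (L' y)) (f (L' z)) < η / 2 := h1 y hy
  have e2 : dist (f (L n y)) (f (L' z)) < η / 2 := hn y hy
  calc dist (f (L' y)) (f (L n y)) ≤ dist (f (L' y)) (f (L' z)) + dist (f (L' z)) (f (L n y)) :=
      dist_triangle _ _ _
    _ < η := by rw [dist_comm (f (L' z))]; linarith

/-- **normalised limits** pass through a strictly differentiable function -/
theorem norm_lim {f : G → ℂ} {f' : G →L[ℂ] ℂ} {v0 : G} (hf : HasStrictFDerivAt f f' v0)
    {c : ι → G} (hc : Tendsto c l (𝓝 v0)) {e : ι → ℂ} (he : Tendsto e l (𝓝 0))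
    (he0 : ∀ᶠ n in l, e n ≠ 0) {L : ι → E → G} {Λ : E → G} {Ω : Set E} (hΩ : IsOpen Ω)
    (hΛ : TendstoLocallyUniformlyOn (fun n z => (e n)⁻¹ • (L n z - c n)) Λ l Ω)
    (hΛc : ContinuousOn Λ Ω) :
    TendstoLocallyUniformlyOn (fun n z => (f (L n z) - f (c n)) / e n) (fun z => f' (Λ z)) l Ω := by
  rw [Metric.tendstoLocallyUniformlyOn_iff]
  intro η hη z hz
  set B : ℝ := ‖Λ z‖ + 1 with hB
  have hB0 : 0 < B := by positivity
  -- a neighbourhood where everything is bounded by B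
  have hN : ball (0 : G) B ∈ 𝓝 (Λ z) := isOpen_ball.mem_nhds (by
    rw [mem_ball_zero_iff]; linarith)
  obtain ⟨t, ht, htΩ, h1, h2⟩ := lu_nhds hΩ hΛ hΛc hz hN
  set θ : ℝ := η / (4 * B) with hθ
  have hθ0 : 0 < θ := by positivity
  have hloc := hf.isLittleO.def hθ0
  -- near v0
  obtain ⟨ρ, hρ, hρs⟩ := Metric.mem_nhds_iff.1 hloc
  have hcn : ∀ᶠ n in l, c n ∈ ball v0 (ρ / 2) := hc.eventually_mem (ball_mem_nhds _ (by positivity))
  have hen : ∀ᶠ n in l, ‖e n‖ < ρ / (2 * B) := by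
    have := he.norm
    rw [norm_zero] at this
    exact this.eventually_lt_const (by positivity)
  set ζ : ℝ := η / (4 * (‖f'‖ + 1)) with hζ
  have hζ0 : 0 < ζ := by positivity
  obtain ⟨t', ht', h3⟩ := Metric.tendstoLocallyUniformlyOn_iff.1 hΛ ζ hζ0 z hz
  refine ⟨t ∩ t', inter_mem (mem_nhdsWithin_of_mem_nhds ht) ht', ?_⟩
  filter_upwards [h2, hcn, hen, h3, he0] with n k2 k3 k4 k5 k6 y hy
  set u : G := (e n)⁻¹ • (L n y - c n) with hu
  have hub : ‖u‖ < B := by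
    have := k2 y hy.1
    rwa [mem_ball_zero_iff] at this
  have hLn : L n y = c n + e n • u := by
    rw [hu, smul_inv_smul₀ k6]; abel
  have hd1 : dist (Λ y) u < ζ := k5 y hy.2
  have hmem : (L n y, c n) ∈ ball (v0, v0) ρ := by
    rw [← ball_prod_same]
    refine ⟨?_, ball_subset_ball (by linarith) k3⟩
    rw [mem_ball, dist_eq_norm] at k3 ⊢
    rw [hLn]
    have : ‖e n • u‖ < ρ / 2 := by
      rw [norm_smul]
      calc ‖e n‖ * ‖u‖ ≤ ‖e n‖ * B := mul_le_mul_of_nonneg_left hub.le (norm_nonneg _)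
        _ < ρ / (2 * B) * B := mul_lt_mul_of_pos_right k4 hB0
        _ = ρ / 2 := by field_simp
    calc ‖c n + e n • u - v0‖ = ‖(c n - v0) + e n • u‖ := by congr 1; abel
      _ ≤ ‖c n - v0‖ + ‖e n • u‖ := norm_add_le _ _
      _ < ρ := by linarith
  have hst : ‖f (L n y) - f (c n) - f' (L n y - c n)‖ ≤ θ * ‖L n y - c n‖ := hρs hmem
  have hsub : L n y - c n = e n • u := by rw [hLn]; abel
  rw [hsub, map_smul, norm_smul] at hst
  have hen0 : 0 < ‖e n‖ := norm_pos_iff.2 k6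
  have h5 : ‖(f (L n y) - f (c n)) / e n - f' u‖ ≤ θ * ‖u‖ := by
    have e1 : (f (L n y) - f (c n)) / e n - f' u = (f (L n y) - f (c n) - e n • f' u) / e n := by
      rw [smul_eq_mul]
      field_simp
    rw [e1, norm_div, div_le_iff₀ hen0]
    calc _ ≤ θ * (‖e n‖ * ‖u‖) := hst
      _ = θ * ‖u‖ * ‖e n‖ := by ring
  have h6 : ‖f' (Λ y) - f' u‖ ≤ ‖f'‖ * ζ := by
    rw [← map_sub]
    refine (f'.le_opNorm _).trans ?_
    refine mul_le_mul_of_nonneg_left ?_ (norm_nonneg _)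
    rw [← dist_eq_norm]; exact hd1.le
  rw [dist_eq_norm]
  have h7 : θ * ‖u‖ ≤ η / 4 := by
    calc θ * ‖u‖ ≤ θ * B := mul_le_mul_of_nonneg_left hub.le hθ0.le
      _ = η / 4 := by rw [hθ]; field_simp
  have h8 : ‖f'‖ * ζ ≤ η / 4 := by
    rw [hζ]
    rw [mul_div_assoc', div_le_div_iff₀ (by positivity) (by norm_num)]
    nlinarith [norm_nonneg f']
  calc ‖f' (Λ y) - (f (L n y) - f (c n)) / e n‖ =
      ‖(f' (Λ y) - f' u) - ((f (L n y) - f (c n)) / e n - f' u)‖ := by congr 1; ring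
    _ ≤ ‖f' (Λ y) - f' u‖ + ‖(f (L n y) - f (c n)) / e n - f' u‖ := norm_sub_le _ _
    _ < η := by linarith

end

end Vale.Agent.P097.H839.Tan
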