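import Vale.Agent.P097.H839.Tan.Br1
import Vale.Agent.P097.H920.World
import Vale.Agent.P097.H845.T9

/-!
# P097 / A5.T-BR (2) : free and touch in the chart, transversal branch
-/

set_option linter.all false

open Set Filter Metric Topology MeasureTheory

namespace Vale.Agent.P097.H839.Tan

open Vale.Agent.P097.TC
open Vale.Agent.P097.H920 (ExtM)
open Vale.Agent.P097.H845 (jac)

/-! ### the incidence function as a function of three variables -/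

section
variable {Λ b : ℝ} {F q : ℂ → ℂ}

theorem dMi (hC : Cv Λ b F q) : DifferentiableOn ℂ (fun w : (ℂ × ℂ) × ℂ => Mi F q w.1.1 w.1.2 w.2)
    ((univ : Set (ℂ × ℂ)) ×ˢ Sb b) := by
  have dF' : DifferentiableOn ℂ (fun w : (ℂ × ℂ) × ℂ => F w.2) (univ ×ˢ Sb b) :=
    hC.dF.comp differentiableOn_snd fun w hw => hw.2
  have dF1 : DifferentiableOn ℂ (fun w : (ℂ × ℂ) × ℂ => deriv F w.2) (univ ×ˢ Sb b) :=
    (hC.dF.deriv (isOpen_Sb b)).comp differentiableOn_snd fun w hw => hw.2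
  have dq' : DifferentiableOn ℂ (fun w : (ℂ × ℂ) × ℂ => q w.2) (univ ×ˢ Sb b) :=
    hC.dq.comp differentiableOn_snd fun w hw => hw.2
  have dq1 : DifferentiableOn ℂ (fun w : (ℂ × ℂ) × ℂ => deriv q w.2) (univ ×ˢ Sb b) :=
    (hC.dq.deriv (isOpen_Sb b)).comp differentiableOn_snd fun w hw => hw.2
  have da : DifferentiableOn ℂ (fun w : (ℂ × ℂ) × ℂ => w.1.1 - F w.2) (univ ×ˢ Sb b) :=
    (differentiableOn_fst.fst).sub dF'
  have dp : DifferentiableOn ℂ (fun w : (ℂ × ℂ) × ℂ => w.1.2) (univ ×ˢ Sb b) :=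
    differentiableOn_fst.snd
  exact (dF1.mul ((dq'.mul da.ccos).sub dp)).add (dq1.mul da.csin)

theorem dMx (hC : Cv Λ b F q) : DifferentiableOn ℂ (fun w : (ℂ × ℂ) × ℂ => Mx F q w.1.1 w.1.2 w.2)
    ((univ : Set (ℂ × ℂ)) ×ˢ Sb b) := by
  have dF' : DifferentiableOn ℂ (fun w : (ℂ × ℂ) × ℂ => F w.2) (univ ×ˢ Sb b) :=
    hC.dF.comp differentiableOn_snd fun w hw => hw.2
  have dF1 : DifferentiableOn ℂ (fun w : (ℂ × ℂ) × ℂ => deriv F w.2) (univ ×ˢ Sb b) :=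
    (hC.dF.deriv (isOpen_Sb b)).comp differentiableOn_snd fun w hw => hw.2
  have dF2 : DifferentiableOn ℂ (fun w : (ℂ × ℂ) × ℂ => deriv (deriv F) w.2) (univ ×ˢ Sb b) :=
    ((hC.dF.deriv (isOpen_Sb b)).deriv (isOpen_Sb b)).comp differentiableOn_snd fun w hw => hw.2
  have dq' : DifferentiableOn ℂ (fun w : (ℂ × ℂ) × ℂ => q w.2) (univ ×ˢ Sb b) :=
    hC.dq.comp differentiableOn_snd fun w hw => hw.2
  have dq2 : DifferentiableOn ℂ (fun w : (ℂ × ℂ) × ℂ => deriv (deriv q) w.2) (univ ×ˢ Sb b) :=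
    ((hC.dq.deriv (isOpen_Sb b)).deriv (isOpen_Sb b)).comp differentiableOn_snd fun w hw => hw.2
  have da : DifferentiableOn ℂ (fun w : (ℂ × ℂ) × ℂ => w.1.1 - F w.2) (univ ×ˢ Sb b) :=
    (differentiableOn_fst.fst).sub dF'
  have dp : DifferentiableOn ℂ (fun w : (ℂ × ℂ) × ℂ => w.1.2) (univ ×ˢ Sb b) :=
    differentiableOn_fst.snd
  exact (dF2.mul ((dq'.mul da.ccos).sub dp)).add
    ((((dF1.pow 2).mul dq').add dq2).mul da.csin)

/-- transversal root: unique simple root function near the line -/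
theorem branch (hC : Cv Λ b F q) {x0 : ℂ} (hx : x0 ∈ Sb b) {v0 : ℂ × ℂ}
    (h0 : Mi F q v0.1 v0.2 x0 = 0) (h1 : deriv (Mi F q v0.1 v0.2) x0 ≠ 0) :
    ∃ ε > 0, ∃ ε' > 0, ∃ ξ : ℂ × ℂ → ℂ, ball x0 ε' ⊆ Sb b ∧ DifferentiableOn ℂ ξ (ball v0 ε) ∧
      ∀ v ∈ ball v0 ε, ξ v ∈ ball x0 ε' ∧ Mi F q v.1 v.2 (ξ v) = 0 ∧
        deriv (Mi F q v.1 v.2) (ξ v) ≠ 0 ∧ ∀ x ∈ ball x0 ε', Mi F q v.1 v.2 x = 0 → x = ξ v := by
  have hS : IsOpen ((univ : Set (ℂ × ℂ)) ×ˢ Sb b) := isOpen_univ.prod (isOpen_Sb b)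
  set M : (ℂ × ℂ) × ℂ → ℂ := fun w => Mi F q w.1.1 w.1.2 w.2 with hM
  have hdM : DifferentiableOn ℂ M (univ ×ˢ Sb b) := dMi hC
  set a : (ℂ × ℂ) × ℂ := (v0, x0) with ha
  have haS : a ∈ (univ : Set (ℂ × ℂ)) ×ˢ Sb b := ⟨mem_univ _, hx⟩
  have fM := (hdM.differentiableAt (hS.mem_nhds haS)).hasFDerivAt
  set Φ : (ℂ × ℂ) × ℂ → (ℂ × ℂ) × ℂ := fun w => (w.1, M w) with hΦ
  have dΦ : DifferentiableOn ℂ Φ (univ ×ˢ Sb b) := differentiableOn_fst.prodMk hdM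
  have fΦ : HasFDerivAt Φ ((ContinuousLinearMap.fst ℂ (ℂ × ℂ) ℂ).prod (fderiv ℂ M a)) a :=
    hasFDerivAt_fst.prodMk fM
  have hk : fderiv ℂ M a (0, 1) = deriv (Mi F q v0.1 v0.2) x0 := by
    have p1 : HasDerivAt (fun t : ℂ => ((v0, t) : (ℂ × ℂ) × ℂ)) (0, 1) x0 :=
      (hasDerivAt_const x0 v0).prodMk (hasDerivAt_id x0)
    exact (fM.comp_hasDerivAt x0 p1).deriv.symm
  have hinj : ∀ h, fderiv ℂ Φ a h = 0 → h = 0 := by
    rintro ⟨h, k⟩ hh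
    rw [fΦ.fderiv] at hh
    have e1 : h = 0 := congrArg Prod.fst hh
    have e2 : fderiv ℂ M a (h, k) = 0 := congrArg Prod.snd hh
    subst e1
    have e3 : ((0, k) : (ℂ × ℂ) × ℂ) = k • (0, 1) := by simp
    rw [e3, map_smul, hk, smul_eq_mul] at e2
    have e4 : k = 0 := (mul_eq_zero.1 e2).resolve_right h1
    subst e4
    rfl
  obtain ⟨e, he1, he2, he3, he4, -⟩ := exists_inv rfl hS dΦ haS hinj
  -- simple near a
  have hsim : ∀ᶠ w in 𝓝 a, Mx F q w.1.1 w.1.2 w.2 ≠ 0 := by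
    have hc : ContinuousAt (fun w : (ℂ × ℂ) × ℂ => Mx F q w.1.1 w.1.2 w.2) a :=
      ((dMx hC).differentiableAt (hS.mem_nhds haS)).continuousAt
    refine hc.eventually_ne ?_
    rw [← deriv_Mi hC hx]
    exact h1
  obtain ⟨ε', hε', hsub⟩ := Metric.mem_nhds_iff.1 (inter_mem (e.open_source.mem_nhds he1) hsim)
  rw [← ball_prod_same] at hsub
  have hΦa : Φ a = (v0, 0) := by
    rw [hΦ]
    exact Prod.ext rfl h0
  have hta : ((v0, 0) : (ℂ × ℂ) × ℂ) ∈ e.target := by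
    rw [← hΦa, ← he3]; exact e.map_source he1
  have hsa : e.symm (v0, 0) = a := by rw [← hΦa, ← he3, e.left_inv he1]
  have hcs : ContinuousAt (fun v : ℂ × ℂ => e.symm (v, 0)) v0 := by
    have c1 : ContinuousAt e.symm (v0, 0) :=
      (he4.differentiableAt (e.open_target.mem_nhds hta)).continuousAt
    exact ContinuousAt.comp (f := fun v : ℂ × ℂ => ((v, (0 : ℂ)) : (ℂ × ℂ) × ℂ)) (x := v0) c1
      (by fun_prop)
  have hev : ∀ᶠ v in 𝓝 v0, ((v, 0) : (ℂ × ℂ) × ℂ) ∈ e.target ∧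
      e.symm (v, 0) ∈ ball v0 ε' ×ˢ ball x0 ε' := by
    refine Filter.Eventually.and ?_ ?_
    · have c2 : ContinuousAt (fun v : ℂ × ℂ => ((v, (0 : ℂ)) : (ℂ × ℂ) × ℂ)) v0 := by fun_prop
      exact c2.eventually_mem (e.open_target.mem_nhds hta)
    · refine hcs.eventually_mem ?_
      show ball v0 ε' ×ˢ ball x0 ε' ∈ 𝓝 (e.symm (v0, 0))
      rw [hsa]
      exact (isOpen_ball.prod isOpen_ball).mem_nhds ⟨mem_ball_self hε', mem_ball_self hε'⟩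
  obtain ⟨ρ, hρ, hρs⟩ := Metric.mem_nhds_iff.1 hev
  set ε := min ρ ε' with hε
  have hb1 : ball v0 ε ⊆ ball v0 ρ := ball_subset_ball (min_le_left _ _)
  have hb2 : ball v0 ε ⊆ ball v0 ε' := ball_subset_ball (min_le_right _ _)
  have hsb : ball x0 ε' ⊆ Sb b := by
    intro x hx'
    have : ((v0, x) : (ℂ × ℂ) × ℂ) ∈ e.source := (hsub ⟨mem_ball_self hε', hx'⟩).1
    exact (he2 this).2
  refine ⟨ε, lt_min hρ hε', ε', hε', fun v => (e.symm (v, 0)).2, hsb, ?_, ?_⟩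
  · have : DifferentiableOn ℂ (fun v : ℂ × ℂ => e.symm (v, 0)) (ball v0 ε) :=
      he4.comp (by fun_prop) fun v hv => (hρs (hb1 hv)).1
    exact this.snd
  · intro v hv
    obtain ⟨t1, t2⟩ := hρs (hb1 hv)
    have r1 := e.right_inv t1
    rw [he3] at r1
    have r2 : (e.symm (v, 0)).1 = v := congrArg Prod.fst r1
    have r3 : M (e.symm (v, 0)) = 0 := congrArg Prod.snd r1
    have r4 : e.symm (v, 0) = (v, (e.symm (v, 0)).2) := Prod.ext r2 rfl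
    have r5 : (e.symm (v, 0)).2 ∈ ball x0 ε' := t2.2
    refine ⟨r5, ?_, ?_, ?_⟩
    · rw [r4] at r3
      exact r3
    · rw [deriv_Mi hC (hsb r5)]
      exact (hsub (mk_mem_prod (hb2 hv) r5)).2
    · intro x hx' hxr
      have s1 : ((v, x) : (ℂ × ℂ) × ℂ) ∈ e.source := (hsub (mk_mem_prod (hb2 hv) hx')).1
      have s2 : e (v, x) = (v, 0) := by
        rw [he3]
        exact Prod.ext rfl hxr
      have s3 : e.symm (v, 0) = (v, x) := by rw [← s2, e.left_inv s1]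
      show x = (e.symm (v, 0)).2
      rw [s3]

end

/-! ### extensions of a position near one root -/

section
variable {Λ b : ℝ} {F q : ℂ → ℂ} {x0 : ℂ} {ε ε' : ℝ} {T W : ℂ × ℂ → ℂ}
    {U : (ℂ × ℂ) × ℂ → ℂ} {Inv : ℂ × ℂ → ℂ × ℂ} {K : ℝ}

/-- the oriented line -/
noncomputable def ori (m : ℤ) (al p : ℂ × ℂ → ℂ) (z : ℂ × ℂ) : ℂ × ℂ :=
  (al z - m * Real.pi, (-1) ^ m * p z)

theorem ori_Mi (F q : ℂ → ℂ) (m : ℤ) (al p : ℂ × ℂ → ℂ) (z : ℂ × ℂ) (x : ℂ) :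
    Mi F q (ori m al p z).1 (ori m al p z).2 x = (-1) ^ m * Mi F q (al z) (p z) x := by
  have := Mi_orient F q (al z) (p z) x 0 m
  simpa [ori] using this

theorem ori_Mi_deriv (F q : ℂ → ℂ) (m : ℤ) (al p : ℂ × ℂ → ℂ) (z : ℂ × ℂ) (x : ℂ) :
    deriv (Mi F q (ori m al p z).1 (ori m al p z).2) x =
      (-1) ^ m * deriv (Mi F q (al z) (p z)) x := by
  have := Mi_orient_deriv F q (al z) (p z) x 0 m
  simpa [ori] using this

theorem ori_zero {F q : ℂ → ℂ} {m : ℤ} {al p : ℂ × ℂ → ℂ} {z : ℂ × ℂ} {x : ℂ} :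
    Mi F q (ori m al p z).1 (ori m al p z).2 x = 0 ↔ Mi F q (al z) (p z) x = 0 := by
  rw [ori_Mi, mul_eq_zero, or_iff_right (neg_one_zpow_ne m)]

theorem ori_simple {F q : ℂ → ℂ} {m : ℤ} {al p : ℂ × ℂ → ℂ} {z : ℂ × ℂ} {x : ℂ} :
    deriv (Mi F q (ori m al p z).1 (ori m al p z).2) x ≠ 0 ↔ deriv (Mi F q (al z) (p z)) x ≠ 0 := by
  rw [ori_Mi_deriv, mul_ne_zero_iff, and_iff_right (neg_one_zpow_ne m)]

/-- **touch**: if `W` has no zero on the ball, the position extends -/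
theorem TChart.extM (h : TChart b F q x0 ε ε' T W U Inv K) {m : ℤ} {al p th : ℂ × ℂ → ℂ}
    {w₀ : ℂ} {c δ ε₁ : ℝ} (hal : DifferentiableOn ℂ al (ball ((c : ℂ), w₀) δ))
    (hp : DifferentiableOn ℂ p (ball ((c : ℂ), w₀) δ))
    (hm : ∀ z ∈ ball ((c : ℂ), w₀) δ, ori m al p z ∈ ball (F x0, q x0) ε)
    (hW : ∀ z ∈ ball ((c : ℂ), w₀) δ, W (ori m al p z) ≠ 0)
    (hth : ∀ z ∈ ball ((c : ℂ), w₀) δ, z.1.im ≤ -ε₁ → ContinuousAt th z ∧ th z ∈ ball x0 ε' ∧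
      Mi F q (al z) (p z) (th z) = 0) :
    ExtM b F q al p th w₀ c δ ε₁ := by
  set D : Set (ℂ × ℂ) := ball ((c : ℂ), w₀) δ with hD
  set D₀ : Set (ℂ × ℂ) := D ∩ {z | z.1.im ≤ -ε₁} with hD₀
  have hconv : Convex ℝ D₀ := by
    refine (convex_ball _ _).inter ?_
    have : {z : ℂ × ℂ | z.1.im ≤ -ε₁} = {z : ℂ × ℂ | (Complex.imLm ∘ₗ LinearMap.fst ℝ ℂ ℂ) z ≤ -ε₁} := rfl
    rw [this]
    exact convex_halfSpace_le (LinearMap.isLinear _) _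
  have hL : DifferentiableOn ℂ (ori m al p) D :=
    (hal.sub_const _).prodMk (hp.const_mul _)
  obtain ⟨g, hg, hg1, hg2⟩ := h.extend (D := D) (D₀ := D₀) isOpen_ball (convex_ball _ _) hL hm hW
    inter_subset_left hconv.isPreconnected (θ := th)
    (fun z hz => (hth z hz.1 hz.2).1.continuousWithinAt) (fun z hz => (hth z hz.1 hz.2).2.1)
    (fun z hz => ori_zero.2 (hth z hz.1 hz.2).2.2)
  refine ⟨g, P268.analyticOnNhd_of_differentiableOn isOpen_ball hg, fun z hz => ?_⟩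
  obtain ⟨k1, k2, k3⟩ := hg2 z hz
  exact ⟨h.sb k1, ori_zero.1 k2, ori_simple.1 k3, fun hz' => hg1 z ⟨hz, hz'⟩⟩

/-- **free**: simple roots in the chart -/
theorem TChart.free (h : TChart b F q x0 ε ε' T W U Inv K) {m : ℤ} {al p : ℂ × ℂ → ℂ} {z : ℂ × ℂ}
    {x : ℂ} (hv : ori m al p z ∈ ball (F x0, q x0) ε) (hx : x ∈ ball x0 ε')
    (h0 : Mi F q (al z) (p z) x = 0) (h1 : deriv (Mi F q (al z) (p z)) x ≠ 0) :
    W (ori m al p z) ≠ 0 :=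
  (h.simple_iff hv hx (ori_zero.2 h0)).1 (ori_simple.2 h1)

end

end Vale.Agent.P097.H839.Tan
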