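import Vale.Agent.P097.H839.Tan.Br2
import Vale.Agent.P097.H845.T9w

/-!
# P097 / A5.T-BR (3) : step 9 of 624 (slow pick), from the normalised lines
-/

set_option linter.all false

open Set Filter Metric Topology MeasureTheory

namespace Vale.Agent.P097.H839.Tan

open Vale.Agent.P097.TC
open Vale.Agent.P097.H920 (ExtM)
open Vale.Agent.P097.H845 (jac)
open Vale.Agent.P097.H100 (Wc isOpen_Wc)

section
variable {ι : Type*} {l : Filter ι}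

/-- normalised convergence with `e → 0` implies convergence to a constant -/
theorem lu_const {E : Type*} [NormedAddCommGroup E] [NormedSpace ℂ E] {al : ι → E → ℂ}
    {A' : E → ℂ} {cA e : ι → ℂ} {a0 : ℂ} {D : Set E} (hD : IsOpen D)
    (he : Tendsto e l (𝓝 0)) (he0 : ∀ᶠ n in l, e n ≠ 0) (hcA : Tendsto cA l (𝓝 a0))
    (hA' : ContinuousOn A' D)
    (hAl : TendstoLocallyUniformlyOn (fun n z => (al n z - cA n) / e n) A' l D) :
    TendstoLocallyUniformlyOn al (fun _ => a0) l D := by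
  rw [Metric.tendstoLocallyUniformlyOn_iff]
  intro η hη z hz
  have hN : ball (0 : ℂ) (‖A' z‖ + 1) ∈ 𝓝 (A' z) := isOpen_ball.mem_nhds (by
    rw [mem_ball_zero_iff]; linarith)
  obtain ⟨t, ht, -, -, h2⟩ := lu_nhds hD hAl hA' hz hN
  refine ⟨t, mem_nhdsWithin_of_mem_nhds ht, ?_⟩
  have h3 : ∀ᶠ n in l, ‖e n‖ < η / (2 * (‖A' z‖ + 1)) := by
    have := he.norm
    rw [norm_zero] at this
    exact this.eventually_lt_const (by positivity)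
  have h4 : ∀ᶠ n in l, cA n ∈ ball a0 (η / 2) := hcA.eventually_mem (ball_mem_nhds _ (by positivity))
  filter_upwards [h2, h3, h4, he0] with n k2 k3 k4 k5 y hy
  have k6 : ‖(al n y - cA n) / e n‖ < ‖A' z‖ + 1 := by
    have := k2 y hy
    rwa [mem_ball_zero_iff] at this
  have k7 : ‖al n y - cA n‖ < η / 2 := by
    have e1 : al n y - cA n = (al n y - cA n) / e n * e n := by field_simp
    rw [e1, norm_mul]
    calc ‖(al n y - cA n) / e n‖ * ‖e n‖ ≤ (‖A' z‖ + 1) * ‖e n‖ :=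
        mul_le_mul_of_nonneg_right k6.le (norm_nonneg _)
      _ < (‖A' z‖ + 1) * (η / (2 * (‖A' z‖ + 1))) :=
        mul_lt_mul_of_pos_left k3 (by positivity)
      _ = η / 2 := by field_simp
  rw [dist_comm, dist_eq_norm]
  rw [mem_ball, dist_eq_norm] at k4
  calc ‖al n y - a0‖ = ‖(al n y - cA n) + (cA n - a0)‖ := by congr 1; ring
    _ ≤ ‖al n y - cA n‖ + ‖cA n - a0‖ := norm_add_le _ _
    _ < η := by linarith

/-- pairs -/
theorem lu_pair {E G H : Type*} [TopologicalSpace E] [NormedAddCommGroup G]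
    [NormedAddCommGroup H] {f : ι → E → G} {g : ι → E → H} {f' : E → G} {g' : E → H} {D : Set E}
    (hf : TendstoLocallyUniformlyOn f f' l D) (hg : TendstoLocallyUniformlyOn g g' l D) :
    TendstoLocallyUniformlyOn (fun n z => (f n z, g n z)) (fun z => (f' z, g' z)) l D := by
  rw [Metric.tendstoLocallyUniformlyOn_iff] at hf hg ⊢
  intro η hη z hz
  obtain ⟨t1, ht1, h1⟩ := hf η hη z hz
  obtain ⟨t2, ht2, h2⟩ := hg η hη z hz
  refine ⟨t1 ∩ t2, inter_mem ht1 ht2, ?_⟩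
  filter_upwards [h1, h2] with n k1 k2 y hy
  rw [Prod.dist_eq]
  exact max_lt (k1 y hy.1) (k2 y hy.2)

theorem jac_eq_Jac (X m : ℂ × ℂ → ℂ) (z : ℂ × ℂ) : jac X m z = Jac X m z := rfl

/-- Jacobian of the oriented line -/
theorem jac_ori (m : ℤ) {al p : ℂ × ℂ → ℂ} {z : ℂ × ℂ} (hp : DifferentiableAt ℂ p z) :
    Jac (fun y => (ori m al p y).1) (fun y => (ori m al p y).2) z = (-1) ^ m * jac al p z := by
  have e1 : fderiv ℂ (fun y => (ori m al p y).1) z = fderiv ℂ al z := by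
    show fderiv ℂ (fun y => al y - m * Real.pi) z = _
    exact fderiv_sub_const _
  have e2 : fderiv ℂ (fun y => (ori m al p y).2) z = ((-1 : ℂ) ^ m) • fderiv ℂ p z := by
    show fderiv ℂ (fun y => (-1) ^ m * p y) z = _
    exact fderiv_const_mul hp _
  rw [Jac, e1, e2, jac]
  simp only [ContinuousLinearMap.smul_apply, smul_eq_mul]
  ring

/-- the data of step 9 -/
structure NL9 (l : Filter ι) (b : ℝ) (F q : ℂ → ℂ) (s' : ℝ) (al p th χ : ι → ℂ × ℂ → ℂ)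
    (A' P' χ0 : ℂ × ℂ → ℂ) (cA cP e J : ι → ℂ) : Prop where
  e0 : ∀ᶠ n in l, e n ≠ 0
  J0 : ∀ᶠ n in l, J n ≠ 0
  hd : ∀ K ⊆ Wc s', IsCompact K → ∀ᶠ n in l, ∀ z ∈ K, DifferentiableAt ℂ (al n) z ∧
    DifferentiableAt ℂ (p n) z ∧ jac (al n) (p n) z = J n * χ n z
  χl : TendstoLocallyUniformlyOn χ χ0 l (Wc s')
  χc : ContinuousOn χ0 (Wc s')
  χ0 : ∀ z ∈ Wc s', χ0 z ≠ 0
  dA : DifferentiableOn ℂ A' (Wc s')
  dP : DifferentiableOn ℂ P' (Wc s')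
  Al : TendstoLocallyUniformlyOn (fun n z => (al n z - cA n) / e n) A' l (Wc s')
  Pl : TendstoLocallyUniformlyOn (fun n z => (p n z - cP n) / e n) P' l (Wc s')
  nc : ∃ z ∈ Wc s', fderiv ℂ A' z ≠ 0 ∨ fderiv ℂ P' z ≠ 0
  rt : ∀ K : Set (ℂ × ℂ), IsCompact K → (∀ z ∈ K, z.1.im < 0 ∧ 0 < z.2.im) →
    ∀ᶠ n in l, ∀ z ∈ K, ContinuousAt (th n) z ∧ Mi F q (al n z) (p n z) (th n z) = 0 ∧
      deriv (Mi F q (al n z) (p n z)) (th n z) ≠ 0
  touch : ∀ (a : ℝ) (w₀ : ℂ), 0 < w₀.im → |w₀.re| ≤ w₀.im / 2 → ∀ δ > 0, ∃ ε > 0,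
    ∀ᶠ n in l, ¬ ExtM b F q (al n) (p n) (th n) w₀ a δ ε

theorem lu_mem_const {E G : Type*} [NormedAddCommGroup E] [NormedSpace ℂ E]
    [NormedAddCommGroup G] [NormedSpace ℂ G] {L : ι → E → G} {v0 : G} {D : Set E} (hD : IsOpen D)
    (hL : TendstoLocallyUniformlyOn L (fun _ => v0) l D) {ρ : ℝ} (hρ : 0 < ρ) {K : Set E}
    (hK : IsCompact K) (hKD : K ⊆ D) : ∀ᶠ n in l, ∀ z ∈ K, L n z ∈ ball v0 ρ :=
  lu_mapsTo hD hL continuousOn_const isOpen_ball (fun _ _ => mem_ball_self hρ) hK hKD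

variable {Λ b s' : ℝ} {F q : ℂ → ℂ} {al p th χ : ι → ℂ × ℂ → ℂ} {A' P' χ0 : ℂ × ℂ → ℂ}
  {cA cP e J : ι → ℂ}


theorem isOpen_G : IsOpen {z : ℂ × ℂ | z.1.im < 0 ∧ 0 < z.2.im} :=
  (isOpen_lt (Complex.continuous_im.comp continuous_fst) continuous_const).inter
    (isOpen_lt continuous_const (Complex.continuous_im.comp continuous_snd))

theorem G_sub (hs : 0 < s') : {z : ℂ × ℂ | z.1.im < 0 ∧ 0 < z.2.im} ⊆ Wc s' := by
  rintro z ⟨h1, h2⟩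
  exact ⟨h2, by nlinarith⟩

theorem sig_mem (hs : 0 < s') (a : ℝ) {w₀ : ℂ} (h : 0 < w₀.im) : ((a : ℂ), w₀) ∈ Wc s' := by
  refine ⟨h, ?_⟩
  show ((a : ℂ)).im < s' * w₀.im
  rw [Complex.ofReal_im]
  positivity

/-- the root at the limit -/
theorem root_lim [NeBot l] (hC : Cv Λ b F q) {a p t : ι → ℂ} {a0 p0 x0 : ℂ}
    (ha : Tendsto a l (𝓝 a0)) (hp : Tendsto p l (𝓝 p0)) (ht : Tendsto t l (𝓝 x0))
    (hx : x0 ∈ Sb b) (h0 : ∀ᶠ n in l, Mi F q (a n) (p n) (t n) = 0) : Mi F q a0 p0 x0 = 0 := by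
  have hSo : IsOpen ((univ : Set (ℂ × ℂ)) ×ˢ Sb b) := isOpen_univ.prod (isOpen_Sb b)
  have hc : ContinuousAt (fun w : (ℂ × ℂ) × ℂ => Mi F q w.1.1 w.1.2 w.2) ((a0, p0), x0) :=
    ((dMi hC).differentiableAt (hSo.mem_nhds ⟨mem_univ _, hx⟩)).continuousAt
  have ht3 : Tendsto (fun n => ((a n, p n), t n)) l (𝓝 ((a0, p0), x0)) :=
    (ha.prodMk_nhds hp).prodMk_nhds ht
  have t4 := Tendsto.comp (g := fun w : (ℂ × ℂ) × ℂ => Mi F q w.1.1 w.1.2 w.2) hc ht3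
  have t5 : ((fun w : (ℂ × ℂ) × ℂ => Mi F q w.1.1 w.1.2 w.2) ∘ fun n => ((a n, p n), t n)) =ᶠ[l]
      fun _ => (0 : ℂ) := h0
  exact tendsto_nhds_unique (t4.congr' t5) tendsto_const_nhds

/-- transversal limit: impossible -/
theorem trans_false [NeBot l] (hs : 0 < s') (hC : Cv Λ b F q)
    (N : NL9 l b F q s' al p th χ A' P' χ0 cA cP e J) {a0 p0 x0 : ℂ}
    (la : TendstoLocallyUniformlyOn al (fun _ => a0) l (Wc s'))
    (lp : TendstoLocallyUniformlyOn p (fun _ => p0) l (Wc s')) (hx : x0 ∈ Sb b)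
    (hth : TendstoLocallyUniformlyOn th (fun _ => x0) l {z | z.1.im < 0 ∧ 0 < z.2.im})
    (hroot : Mi F q a0 p0 x0 = 0) (hder : deriv (Mi F q a0 p0) x0 ≠ 0) : False := by
  have hWo := isOpen_Wc s'
  obtain ⟨ρ, hρ, ρ', hρ', ξ, hsb, dξ, hξ⟩ := branch hC hx (v0 := (a0, p0)) hroot hder
  have h0I := sig_mem hs 0 (w₀ := Complex.I) (by simp)
  obtain ⟨δ, hδ, hδW⟩ := Metric.nhds_basis_closedBall.mem_iff.mp (hWo.mem_nhds h0I)
  obtain ⟨ε₁, hε₁, hno⟩ := N.touch 0 Complex.I (by simp) (by simp) δ hδ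
  set K1 := closedBall (((0 : ℝ) : ℂ), Complex.I) δ with hK1
  have cK1 : IsCompact K1 := isCompact_closedBall _ _
  set K2 := K1 ∩ {z : ℂ × ℂ | z.1.im ≤ -ε₁} with hK2
  have cK2 : IsCompact K2 := cK1.inter_right
    (isClosed_le (Complex.continuous_im.comp continuous_fst) continuous_const)
  have hK2G : K2 ⊆ {z : ℂ × ℂ | z.1.im < 0 ∧ 0 < z.2.im} := by
    rintro z ⟨h1, h2⟩
    have h3 : z.1.im ≤ -ε₁ := h2
    exact ⟨by linarith, (hδW h1).1⟩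
  have ev1 := lu_mem_const hWo (lu_pair la lp) hρ cK1 hδW
  have ev2 := lu_mem_const isOpen_G hth hρ' cK2 hK2G
  have ev3 := N.hd K1 hδW cK1
  have ev4 := N.rt K2 cK2 (fun z hz => hK2G hz)
  obtain ⟨n, k0, k1, k2, k3, k4⟩ := (hno.and (ev1.and (ev2.and (ev3.and ev4)))).exists
  apply k0
  have hbK : ball (((0 : ℝ) : ℂ), Complex.I) δ ⊆ K1 := ball_subset_closedBall
  refine ⟨fun z => ξ (al n z, p n z), ?_, fun z hz => ?_⟩
  · refine P268.analyticOnNhd_of_differentiableOn isOpen_ball (fun z hz => ?_)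
    have g1 := k3 z (hbK hz)
    have g2 : DifferentiableAt ℂ ξ (al n z, p n z) :=
      dξ.differentiableAt (isOpen_ball.mem_nhds (k1 z (hbK hz)))
    have g3 : DifferentiableAt ℂ (fun z => (al n z, p n z)) z := g1.1.prodMk g1.2.1
    exact (DifferentiableAt.comp z g2 g3).differentiableWithinAt
  · obtain ⟨r1, r2, r3, r4⟩ := hξ _ (k1 z (hbK hz))
    refine ⟨hsb r1, r2, r3, fun hz' => ?_⟩
    exact (r4 _ (k2 z ⟨hbK hz, hz'⟩) (k4 z ⟨hbK hz, hz'⟩).2.1).symm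

theorem inj_of_jac {A B : ℂ × ℂ →L[ℂ] ℂ}
    (hj : A (1, 0) * B (0, 1) - A (0, 1) * B (1, 0) ≠ 0) {u : ℂ × ℂ} (h1 : A u = 0)
    (h2 : B u = 0) : u = 0 := by
  obtain ⟨a, b'⟩ := u
  rw [fd_apply] at h1 h2
  have a1 : a = 0 := by
    have : a * (A (1, 0) * B (0, 1) - A (0, 1) * B (1, 0)) = 0 := by
      linear_combination B (0, 1) * h1 - A (0, 1) * h2
    exact (mul_eq_zero.1 this).resolve_right hj
  have b1 : b' = 0 := by
    have : b' * (A (1, 0) * B (0, 1) - A (0, 1) * B (1, 0)) = 0 := by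
      linear_combination A (1, 0) * h2 - B (1, 0) * h1
    exact (mul_eq_zero.1 this).resolve_right hj
  rw [a1, b1]; rfl

theorem strict_of_diff {T : ℂ × ℂ → ℂ} {v0 : ℂ × ℂ} {ε : ℝ} (hε : 0 < ε)
    (hT : DifferentiableOn ℂ T (ball v0 ε)) : HasStrictFDerivAt T (fderiv ℂ T v0) v0 := by
  have hcd : ContDiffAt ℂ 1 T v0 := by
    have := (P268.contDiffOn_of_differentiableOn isOpen_ball hT 1).contDiffAt
      (isOpen_ball.mem_nhds (mem_ball_self hε))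
    simpa using this
  exact hcd.hasStrictFDerivAt one_ne_zero

theorem ori_cont (m : ℤ) :
    Continuous (fun v : ℂ × ℂ => ((v.1 - m * Real.pi, (-1) ^ m * v.2) : ℂ × ℂ)) := by
  fun_prop

/-- convergence of the oriented line -/
theorem lu_ori {D : Set (ℂ × ℂ)} (hD : IsOpen D) {a0 p0 : ℂ} (m : ℤ)
    (la : TendstoLocallyUniformlyOn al (fun _ => a0) l D)
    (lp : TendstoLocallyUniformlyOn p (fun _ => p0) l D) :
    TendstoLocallyUniformlyOn (fun n z => ori m (al n) (p n) z)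
      (fun _ => (a0 - m * Real.pi, (-1) ^ m * p0)) l D :=
  lu_comp hD (lu_pair la lp) continuousOn_const isOpen_univ (mapsTo_univ _ _)
    (f := fun v : ℂ × ℂ => ((v.1 - m * Real.pi, (-1) ^ m * v.2) : ℂ × ℂ)) (ori_cont m).continuousOn

theorem lu_Lam {D : Set (ℂ × ℂ)} (hD : IsOpen D) (m : ℤ) (hA : ContinuousOn A' D)
    (hP : ContinuousOn P' D)
    (lA : TendstoLocallyUniformlyOn (fun n z => (al n z - cA n) / e n) A' l D)
    (lP : TendstoLocallyUniformlyOn (fun n z => (p n z - cP n) / e n) P' l D) :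
    TendstoLocallyUniformlyOn (fun n z => (e n)⁻¹ • (ori m (al n) (p n) z -
      ((cA n - m * Real.pi, (-1) ^ m * cP n) : ℂ × ℂ))) (fun z => (A' z, (-1) ^ m * P' z)) l D := by
  have cg : Continuous (fun v : ℂ × ℂ => ((v.1, (-1) ^ m * v.2) : ℂ × ℂ)) := by fun_prop
  have := lu_comp hD (lu_pair lA lP) (hA.prodMk hP) isOpen_univ (mapsTo_univ _ _)
    (f := fun v : ℂ × ℂ => ((v.1, (-1) ^ m * v.2) : ℂ × ℂ)) cg.continuousOn
  refine this.congr fun n z _ => ?_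
  refine Prod.ext ?_ ?_
  · show (al n z - cA n) / e n = (e n)⁻¹ * ((al n z - m * Real.pi) - (cA n - m * Real.pi))
    rw [div_eq_mul_inv]; ring
  · show (-1) ^ m * ((p n z - cP n) / e n) = (e n)⁻¹ * ((-1) ^ m * p n z - (-1) ^ m * cP n)
    rw [div_eq_mul_inv]; ring

section tang
variable {x0 : ℂ} {ε ε' : ℝ} {T W : ℂ × ℂ → ℂ} {U : (ℂ × ℂ) × ℂ → ℂ} {Inv : ℂ × ℂ → ℂ × ℂ} {K₀ : ℝ}
  {m : ℤ}

/-- the hypotheses `(d)` of T9 -/
theorem tc_d (h : TChart b F q x0 ε ε' T W U Inv K₀) {Ω : Set (ℂ × ℂ)}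
    (hd : ∀ K ⊆ Ω, IsCompact K → ∀ᶠ n in l, ∀ z ∈ K, DifferentiableAt ℂ (al n) z ∧
      DifferentiableAt ℂ (p n) z ∧ jac (al n) (p n) z = J n * χ n z)
    (evV : ∀ K ⊆ Ω, IsCompact K → ∀ᶠ n in l, ∀ z ∈ K,
      ori m (al n) (p n) z ∈ ball (F x0, q x0) ε) :
    ∀ K ⊆ Ω, IsCompact K → ∀ᶠ n in l, ∀ z ∈ K,
      DifferentiableAt ℂ (fun z => T (ori m (al n) (p n) z)) z ∧
      DifferentiableAt ℂ (fun z => W (ori m (al n) (p n) z)) z ∧
      jac (fun z => T (ori m (al n) (p n) z)) (fun z => W (ori m (al n) (p n) z)) z =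
        J n * ((-1) ^ m * Jac T W (ori m (al n) (p n) z) * χ n z) := by
  intro K hKΩ hK
  filter_upwards [evV K hKΩ hK, hd K hKΩ hK] with n k1 k2 z hz
  obtain ⟨d1, d2, d3⟩ := k2 z hz
  have d4 : DifferentiableAt ℂ (ori m (al n) (p n)) z := (d1.sub_const _).prodMk (d2.const_mul _)
  have d5 : DifferentiableAt ℂ T (ori m (al n) (p n) z) :=
    h.dT.differentiableAt (isOpen_ball.mem_nhds (k1 z hz))
  have d6 : DifferentiableAt ℂ W (ori m (al n) (p n) z) :=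
    h.dW.differentiableAt (isOpen_ball.mem_nhds (k1 z hz))
  refine ⟨DifferentiableAt.comp z d5 d4, DifferentiableAt.comp z d6 d4, ?_⟩
  rw [jac_eq_Jac, h.area (L := ori m (al n) (p n)) d4 (k1 z hz), jac_ori m d2, d3]
  ring

/-- the hypothesis `touch` of T9 -/
theorem tc_touch (h : TChart b F q x0 ε ε' T W U Inv K₀) {Ω : Set (ℂ × ℂ)} (hΩ : IsOpen Ω)
    (hΩw : ∀ z ∈ Ω, 0 < z.2.im)
    (hd : ∀ K ⊆ Ω, IsCompact K → ∀ᶠ n in l, ∀ z ∈ K, DifferentiableAt ℂ (al n) z ∧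
      DifferentiableAt ℂ (p n) z ∧ jac (al n) (p n) z = J n * χ n z)
    (evV : ∀ K ⊆ Ω, IsCompact K → ∀ᶠ n in l, ∀ z ∈ K,
      ori m (al n) (p n) z ∈ ball (F x0, q x0) ε)
    (evt : ∀ K ⊆ Ω, IsCompact K → (∀ z ∈ K, z.1.im < 0 ∧ 0 < z.2.im) → ∀ᶠ n in l, ∀ z ∈ K,
      th n z ∈ ball x0 ε')
    (rt : ∀ K ⊆ Ω, IsCompact K → (∀ z ∈ K, z.1.im < 0 ∧ 0 < z.2.im) → ∀ᶠ n in l, ∀ z ∈ K,
      ContinuousAt (th n) z ∧ Mi F q (al n z) (p n z) (th n z) = 0 ∧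
        deriv (Mi F q (al n z) (p n z)) (th n z) ≠ 0)
    (touch : ∀ (a : ℝ) (w₀ : ℂ), ((a : ℂ), w₀) ∈ Ω → |w₀.re| ≤ w₀.im / 2 → ∀ δ > 0, ∃ ε > 0,
      ∀ᶠ n in l, ¬ ExtM b F q (al n) (p n) (th n) w₀ a δ ε) :
    ∀ z ∈ Ω, z.1.im = 0 → |z.2.re| ≤ z.2.im / 2 → ∀ δ > 0,
      ∀ᶠ n in l, ∃ z' ∈ ball z δ, W (ori m (al n) (p n) z') = 0 := by
  rintro ⟨κ, w₀⟩ hzΩ hz1 hz3 δ hδ
  simp only at hz1 hz3
  have hκ : κ = ((κ.re : ℝ) : ℂ) := by
    apply Complex.ext <;> simp [hz1]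
  have hzW : ((κ.re : ℂ), w₀) ∈ Ω := by rw [← hκ]; exact hzΩ
  obtain ⟨δ₁, hδ₁, hδW⟩ := Metric.nhds_basis_closedBall.mem_iff.mp (hΩ.mem_nhds hzW)
  set δ' := min δ δ₁ with hδ'
  have hδ'0 : 0 < δ' := lt_min hδ hδ₁
  obtain ⟨ε₁, hε₁, hno⟩ := touch κ.re w₀ hzW hz3 δ' hδ'0
  set K1 := closedBall (((κ.re : ℝ) : ℂ), w₀) δ' with hK1
  have cK1 : IsCompact K1 := isCompact_closedBall _ _
  have hK1W : K1 ⊆ Ω := (closedBall_subset_closedBall (min_le_right _ _)).trans hδW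
  set K2 := K1 ∩ {z : ℂ × ℂ | z.1.im ≤ -ε₁} with hK2
  have cK2 : IsCompact K2 := cK1.inter_right
    (isClosed_le (Complex.continuous_im.comp continuous_fst) continuous_const)
  have hK2Ω : K2 ⊆ Ω := inter_subset_left.trans hK1W
  have hK2G : ∀ z ∈ K2, z.1.im < 0 ∧ 0 < z.2.im := by
    rintro z ⟨h1, h2⟩
    have h3 : z.1.im ≤ -ε₁ := h2
    exact ⟨by linarith, hΩw z (hK1W h1)⟩
  filter_upwards [hno, evV K1 hK1W cK1, evt K2 hK2Ω cK2 hK2G, hd K1 hK1W cK1,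
    rt K2 hK2Ω cK2 hK2G] with n k0 k1 k2 k3 k4
  by_contra hcon
  push Not at hcon
  have hbK : ball (((κ.re : ℝ) : ℂ), w₀) δ' ⊆ K1 := ball_subset_closedBall
  apply k0
  refine h.extM (m := m) (fun z hz => (k3 z (hbK hz)).1.differentiableWithinAt)
    (fun z hz => (k3 z (hbK hz)).2.1.differentiableWithinAt) (fun z hz => k1 z (hbK hz))
    (fun z hz => ?_) (fun z hz hz' => ?_)
  · refine hcon z ?_
    rw [hκ]
    exact ball_subset_ball (min_le_left _ _) hz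
  · have hz2' : z ∈ K2 := ⟨hbK hz, hz'⟩
    exact ⟨(k4 z hz2').1, k2 z hz2', (k4 z hz2').2.1⟩

end tang

/-- tangential limit: impossible -/
theorem tang_false [NeBot l] (hs : 0 < s') (hC : Cv Λ b F q)
    (N : NL9 l b F q s' al p th χ A' P' χ0 cA cP e J) (he : Tendsto e l (𝓝 0)) {a0 p0 x0 : ℂ}
    (hcA : Tendsto cA l (𝓝 a0)) (hcP : Tendsto cP l (𝓝 p0))
    (la : TendstoLocallyUniformlyOn al (fun _ => a0) l (Wc s'))
    (lp : TendstoLocallyUniformlyOn p (fun _ => p0) l (Wc s')) (hx : x0 ∈ Sb b)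
    (hth : TendstoLocallyUniformlyOn th (fun _ => x0) l {z | z.1.im < 0 ∧ 0 < z.2.im})
    (hroot : Mi F q a0 p0 x0 = 0) (hder : deriv (Mi F q a0 p0) x0 = 0)
    {θ : ℝ} (hθ : θ < 1)
    (hgA : ∀ s'' < s', ∀ M : ℝ, ∃ A : ℝ, ∀ z ∈ Wc s', 1 ≤ z.2.im →
      z.1.im ≤ s'' * z.2.im → ‖z‖ ≤ M * z.2.im → ‖A' z‖ ≤ A * (1 + ‖z‖) ^ θ)
    (hgP : ∀ s'' < s', ∀ M : ℝ, ∃ A : ℝ, ∀ z ∈ Wc s', 1 ≤ z.2.im →
      z.1.im ≤ s'' * z.2.im → ‖z‖ ≤ M * z.2.im → ‖P' z‖ ≤ A * (1 + ‖z‖) ^ θ) : False := by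
  have hWo := isOpen_Wc s'
  obtain ⟨m, hm1, hm2⟩ := (tangent_iff hC hx a0 p0).1 ⟨hroot, hder⟩
  obtain ⟨ε, ε', T, W, U, Inv, K₀, h, -⟩ := exists_chart hC hx
  set v0 : ℂ × ℂ := (F x0, q x0) with hv0
  have hv0m : v0 ∈ ball v0 ε := mem_ball_self h.ε0
  have hori : ((a0 - m * Real.pi, (-1) ^ m * p0) : ℂ × ℂ) = v0 := by
    rw [hm1, hm2, ← mul_assoc, n1_sq, one_mul, add_sub_cancel_right]
  have lV : TendstoLocallyUniformlyOn (fun n z => ori m (al n) (p n) z) (fun _ => v0) l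
      (Wc s') := by
    rw [← hori]
    exact lu_ori hWo m la lp
  have tc : Tendsto (fun n => ((cA n - m * Real.pi, (-1) ^ m * cP n) : ℂ × ℂ)) l (𝓝 v0) := by
    rw [← hori]
    exact ((ori_cont m).tendsto (a0, p0)).comp (hcA.prodMk_nhds hcP)
  have dΛ : DifferentiableOn ℂ (fun z => ((A' z, (-1) ^ m * P' z) : ℂ × ℂ)) (Wc s') :=
    N.dA.prodMk (N.dP.const_mul _)
  have lΛ := lu_Lam hWo m N.dA.continuousOn N.dP.continuousOn N.Al N.Pl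
  have sT := strict_of_diff h.ε0 h.dT
  have sW := strict_of_diff h.ε0 h.dW
  have evV : ∀ K ⊆ Wc s', IsCompact K → ∀ᶠ n in l, ∀ z ∈ K,
      ori m (al n) (p n) z ∈ ball v0 ε := fun K hKW hK => lu_mem_const hWo lV h.ε0 hK hKW
  have evt : ∀ K ⊆ Wc s', IsCompact K → (∀ z ∈ K, z.1.im < 0 ∧ 0 < z.2.im) → ∀ᶠ n in l, ∀ z ∈ K,
      th n z ∈ ball x0 ε' := fun K _ hK hKG =>
    lu_mem_const isOpen_G hth h.ε1 hK (fun z hz => hKG z hz)
  have hJn : Jac T W v0 ≠ 0 := h.jac v0 hv0m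
  have cJ : ContinuousOn (Jac T W) (ball v0 ε) := (Jac_diff isOpen_ball h.dT h.dW).continuousOn
  have Hd := tc_d (m := m) h N.hd evV
  have Ht := tc_touch (m := m) h hWo (fun z hz => hz.1) N.hd evV evt
    (fun K _ hK hKG => N.rt K hK hKG) (fun a w₀ hm' hw => N.touch a w₀ hm'.1 hw)
  have Hχ : TendstoLocallyUniformlyOn
      (fun n z => (-1) ^ m * Jac T W (ori m (al n) (p n) z) * χ n z)
      (fun z => (-1) ^ m * Jac T W v0 * χ0 z) l (Wc s') := by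
    have hop : IsOpen (ball v0 ε ×ˢ (univ : Set ℂ)) := isOpen_ball.prod isOpen_univ
    exact lu_comp hWo (lu_pair lV N.χl) (continuousOn_const.prodMk N.χc) hop
      (fun z _ => ⟨hv0m, mem_univ _⟩)
      (f := fun w : (ℂ × ℂ) × ℂ => (-1) ^ m * Jac T W w.1 * w.2)
      ((continuousOn_const.mul (cJ.comp continuousOn_fst fun w hw => hw.1)).mul
        continuousOn_snd)
  have Hχ0 : ∀ z ∈ Wc s', (-1) ^ m * Jac T W v0 * χ0 z ≠ 0 := fun z hz =>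
    mul_ne_zero (mul_ne_zero (neg_one_zpow_ne m) hJn) (N.χ0 z hz)
  have HX := norm_lim sT tc he N.e0 hWo lΛ dΛ.continuousOn
  have HM := norm_lim sW tc he N.e0 hWo lΛ dΛ.continuousOn
  have Hnc : ∃ z ∈ Wc s', fderiv ℂ (fun z => fderiv ℂ T v0 (A' z, (-1) ^ m * P' z)) z ≠ 0 ∨
      fderiv ℂ (fun z => fderiv ℂ W v0 (A' z, (-1) ^ m * P' z)) z ≠ 0 := by
    obtain ⟨z, hz, hz'⟩ := N.nc
    refine ⟨z, hz, ?_⟩
    by_contra hcon
    push Not at hcon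
    obtain ⟨c1, c2⟩ := hcon
    have hA : DifferentiableAt ℂ A' z := N.dA.differentiableAt (hWo.mem_nhds hz)
    have hP : DifferentiableAt ℂ P' z := N.dP.differentiableAt (hWo.mem_nhds hz)
    have hΛd : HasFDerivAt (fun z => ((A' z, (-1) ^ m * P' z) : ℂ × ℂ))
        ((fderiv ℂ A' z).prod (((-1 : ℂ) ^ m) • fderiv ℂ P' z)) z :=
      hA.hasFDerivAt.prodMk (hP.hasFDerivAt.const_mul _)
    have g1 := ((fderiv ℂ T v0).hasFDerivAt.comp z hΛd).fderiv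
    have g2 := ((fderiv ℂ W v0).hasFDerivAt.comp z hΛd).fderiv
    have f3 : ∀ u, (fderiv ℂ A' z u, (-1 : ℂ) ^ m * fderiv ℂ P' z u) = (0 : ℂ × ℂ) := by
      intro u
      refine inj_of_jac (A := fderiv ℂ T v0) (B := fderiv ℂ W v0) hJn ?_ ?_
      · have := congrArg (fun L : ℂ × ℂ →L[ℂ] ℂ => L u) (g1.symm.trans c1)
        exact this
      · have := congrArg (fun L : ℂ × ℂ →L[ℂ] ℂ => L u) (g2.symm.trans c2)
        exact this
    rcases hz' with hz' | hz'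
    · apply hz'
      refine ContinuousLinearMap.ext fun u => ?_
      exact congrArg Prod.fst (f3 u)
    · apply hz'
      refine ContinuousLinearMap.ext fun u => ?_
      exact (mul_eq_zero.1 (congrArg Prod.snd (f3 u))).resolve_left (neg_one_zpow_ne m)
  have Hfree : ∀ K : Set (ℂ × ℂ), IsCompact K → (∀ z ∈ K, z.1.im < 0 ∧ 0 < z.2.im) →
      ∀ᶠ n in l, ∀ z ∈ K, W (ori m (al n) (p n) z) ≠ 0 := by
    intro K hK hKG
    have hKW : K ⊆ Wc s' := fun z hz => G_sub hs (hKG z hz)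
    filter_upwards [evV K hKW hK, evt K hKW hK hKG, N.rt K hK hKG] with n k1 k2 k3 z hz
    exact h.free (k1 z hz) (k2 z hz) (k3 z hz).2.1 (k3 z hz).2.2
  have Hg : ∀ s'' < s', ∀ M : ℝ, ∃ A : ℝ, ∀ z ∈ Wc s', 1 ≤ z.2.im → z.1.im ≤ s'' * z.2.im →
      ‖z‖ ≤ M * z.2.im → ‖fderiv ℂ T v0 (A' z, (-1) ^ m * P' z)‖ ≤ A * (1 + ‖z‖) ^ θ := by
    intro s'' hs'' M
    obtain ⟨A1, hA1⟩ := hgA s'' hs'' M
    obtain ⟨A2, hA2⟩ := hgP s'' hs'' M
    refine ⟨‖fderiv ℂ T v0‖ * (A1 + A2), fun z hz h0 h1 h2 => ?_⟩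
    have e1 := hA1 z hz h0 h1 h2
    have e2 := hA2 z hz h0 h1 h2
    have e3 : ‖((A' z, (-1) ^ m * P' z) : ℂ × ℂ)‖ ≤ ‖A' z‖ + ‖P' z‖ := by
      rw [Prod.norm_def]
      have : ‖(-1 : ℂ) ^ m * P' z‖ = ‖P' z‖ := by
        rw [norm_mul, norm_zpow]; simp
      simp only [this]
      exact max_le (by linarith [norm_nonneg (P' z)]) (by linarith [norm_nonneg (A' z)])
    calc ‖fderiv ℂ T v0 (A' z, (-1) ^ m * P' z)‖ ≤
        ‖fderiv ℂ T v0‖ * ‖((A' z, (-1) ^ m * P' z) : ℂ × ℂ)‖ := (fderiv ℂ T v0).le_opNorm _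
      _ ≤ ‖fderiv ℂ T v0‖ * (A1 * (1 + ‖z‖) ^ θ + A2 * (1 + ‖z‖) ^ θ) :=
        mul_le_mul_of_nonneg_left (e3.trans (add_le_add e1 e2)) (norm_nonneg _)
      _ = ‖fderiv ℂ T v0‖ * (A1 + A2) * (1 + ‖z‖) ^ θ := by ring
  exact H845.tan_slow1 (l := l) hs N.e0 N.J0 Hd Hχ (continuousOn_const.mul N.χc) Hχ0
    ((fderiv ℂ T v0).differentiable.comp_differentiableOn dΛ)
    ((fderiv ℂ W v0).differentiable.comp_differentiableOn dΛ) HX HM Hnc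
    (fun K hKW hK hKG => Hfree K hK fun z hz => ⟨hKG z hz, (hKW hz).1⟩)
    (fun z hz h1 h3 δ hδ => Ht z hz h1 h3.le δ hδ) hθ Hg

/-- **step 9**: slow picks are impossible. -/
theorem step9 [NeBot l] (hs : 0 < s') (hC : Cv Λ b F q)
    (N : NL9 l b F q s' al p th χ A' P' χ0 cA cP e J) (he : Tendsto e l (𝓝 0)) {a0 p0 x0 : ℂ}
    (hcA : Tendsto cA l (𝓝 a0)) (hcP : Tendsto cP l (𝓝 p0)) (hx : x0 ∈ Sb b)
    (hth : TendstoLocallyUniformlyOn th (fun _ => x0) l {z | z.1.im < 0 ∧ 0 < z.2.im})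
    {θ : ℝ} (hθ : θ < 1)
    (hgA : ∀ s'' < s', ∀ M : ℝ, ∃ A : ℝ, ∀ z ∈ Wc s', 1 ≤ z.2.im →
      z.1.im ≤ s'' * z.2.im → ‖z‖ ≤ M * z.2.im → ‖A' z‖ ≤ A * (1 + ‖z‖) ^ θ)
    (hgP : ∀ s'' < s', ∀ M : ℝ, ∃ A : ℝ, ∀ z ∈ Wc s', 1 ≤ z.2.im →
      z.1.im ≤ s'' * z.2.im → ‖z‖ ≤ M * z.2.im → ‖P' z‖ ≤ A * (1 + ‖z‖) ^ θ) : False := by
  have hWo := isOpen_Wc s'
  have la : TendstoLocallyUniformlyOn al (fun _ => a0) l (Wc s') :=
    lu_const hWo he N.e0 hcA N.dA.continuousOn N.Al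
  have lp : TendstoLocallyUniformlyOn p (fun _ => p0) l (Wc s') :=
    lu_const hWo he N.e0 hcP N.dP.continuousOn N.Pl
  have hroot : Mi F q a0 p0 x0 = 0 := by
    have hz₁G : ((-Complex.I, Complex.I) : ℂ × ℂ) ∈ {z : ℂ × ℂ | z.1.im < 0 ∧ 0 < z.2.im} := by
      simp
    refine root_lim hC (la.tendsto_at (G_sub hs hz₁G)) (lp.tendsto_at (G_sub hs hz₁G))
      (hth.tendsto_at hz₁G) hx ?_
    filter_upwards [N.rt {(-Complex.I, Complex.I)} isCompact_singleton (by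
        intro z hz
        rw [mem_singleton_iff] at hz
        rw [hz]; exact hz₁G)] with n hn
    exact (hn _ rfl).2.1
  by_cases hder : deriv (Mi F q a0 p0) x0 = 0
  · exact tang_false hs hC N he hcA hcP la lp hx hth hroot hder hθ hgA hgP
  · exact trans_false hs hC N la lp hx hth hroot hder

end

end Vale.Agent.P097.H839.Tan
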