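import Vale.Agent.P097.H839.Tan.Weier
import Vale.Agent.P097.TC.Defs

/-!
# P097 / A5.TANC (3) : the tangential chart of the space of lines

Near every tangent line (also at R2 points) the incidence function `Mi` is a unit times
`(x - T)^2 - W`, where `(T, W)` is a local biholomorphism of the space of lines.
-/

set_option linter.all false

open Set Filter Metric Topology

namespace Vale.Agent.P097.H839.Tan

open Vale.Agent.P097.TC

theorem isOpen_Sb (b : ℝ) : IsOpen (Sb b) :=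
  isOpen_lt (continuous_abs.comp Complex.continuous_im) continuous_const

/-- first derivative of the incidence function -/
noncomputable def Mx (F q : ℂ → ℂ) (a p x : ℂ) : ℂ :=
  deriv (deriv F) x * (q x * Complex.cos (a - F x) - p) +
    (deriv F x ^ 2 * q x + deriv (deriv q) x) * Complex.sin (a - F x)

section
variable {Λ b : ℝ} {F q : ℂ → ℂ} {x : ℂ}

theorem hF0 (hC : Cv Λ b F q) (hx : x ∈ Sb b) : HasDerivAt F (deriv F x) x :=
  (hC.dF.differentiableAt ((isOpen_Sb b).mem_nhds hx)).hasDerivAt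
theorem hF1 (hC : Cv Λ b F q) (hx : x ∈ Sb b) : HasDerivAt (deriv F) (deriv (deriv F) x) x :=
  ((hC.dF.deriv (isOpen_Sb b)).differentiableAt ((isOpen_Sb b).mem_nhds hx)).hasDerivAt
theorem hF2 (hC : Cv Λ b F q) (hx : x ∈ Sb b) :
    HasDerivAt (deriv (deriv F)) (deriv (deriv (deriv F)) x) x :=
  (((hC.dF.deriv (isOpen_Sb b)).deriv (isOpen_Sb b)).differentiableAt
    ((isOpen_Sb b).mem_nhds hx)).hasDerivAt
theorem hq0 (hC : Cv Λ b F q) (hx : x ∈ Sb b) : HasDerivAt q (deriv q x) x :=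
  (hC.dq.differentiableAt ((isOpen_Sb b).mem_nhds hx)).hasDerivAt
theorem hq1 (hC : Cv Λ b F q) (hx : x ∈ Sb b) : HasDerivAt (deriv q) (deriv (deriv q) x) x :=
  ((hC.dq.deriv (isOpen_Sb b)).differentiableAt ((isOpen_Sb b).mem_nhds hx)).hasDerivAt
theorem hq2 (hC : Cv Λ b F q) (hx : x ∈ Sb b) :
    HasDerivAt (deriv (deriv q)) (deriv (deriv (deriv q)) x) x :=
  (((hC.dq.deriv (isOpen_Sb b)).deriv (isOpen_Sb b)).differentiableAt
    ((isOpen_Sb b).mem_nhds hx)).hasDerivAt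

theorem hcos (hC : Cv Λ b F q) (hx : x ∈ Sb b) (a : ℂ) :
    HasDerivAt (fun y => Complex.cos (a - F y)) (Complex.sin (a - F x) * deriv F x) x := by
  have := ((hF0 hC hx).const_sub a).ccos
  refine this.congr_deriv ?_
  ring

theorem hsin (hC : Cv Λ b F q) (hx : x ∈ Sb b) (a : ℂ) :
    HasDerivAt (fun y => Complex.sin (a - F y)) (-(Complex.cos (a - F x) * deriv F x)) x := by
  have := ((hF0 hC hx).const_sub a).csin
  refine this.congr_deriv ?_
  ring

theorem hasDerivAt_Mi (hC : Cv Λ b F q) (hx : x ∈ Sb b) (a p : ℂ) :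
    HasDerivAt (Mi F q a p) (Mx F q a p x) x := by
  have h1 := (hF1 hC hx).fun_mul (((hq0 hC hx).fun_mul (hcos hC hx a)).sub_const p)
  have h2 := (hq1 hC hx).fun_mul (hsin hC hx a)
  refine (h1.fun_add h2).congr_deriv ?_
  rw [Mx]
  ring

theorem deriv_Mi (hC : Cv Λ b F q) (hx : x ∈ Sb b) (a p : ℂ) :
    deriv (Mi F q a p) x = Mx F q a p x := (hasDerivAt_Mi hC hx a p).deriv

/-- the second derivative at a tangency is `- Λ ^ 3` (also at R2 points) -/
theorem deriv2_Mi (hC : Cv Λ b F q) (hx : x ∈ Sb b) :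
    deriv (deriv (Mi F q (F x) (q x))) x = -(Λ : ℂ) ^ 3 := by
  have e : deriv (Mi F q (F x) (q x)) =ᶠ[𝓝 x] Mx F q (F x) (q x) := by
    filter_upwards [(isOpen_Sb b).mem_nhds hx] with y hy using deriv_Mi hC hy _ _
  rw [e.deriv_eq]
  have h1 := (hF2 hC hx).fun_mul (((hq0 hC hx).fun_mul (hcos hC hx (F x))).sub_const (q x))
  have h2 := ((((hF1 hC hx).fun_pow 2).fun_mul (hq0 hC hx)).fun_add (hq2 hC hx)).fun_mul
    (hsin hC hx (F x))
  have h3 := (h1.fun_add h2).deriv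
  refine h3.trans ?_
  have hw := hC.wr x hx
  simp only [sub_self, Complex.cos_zero, Complex.sin_zero]
  linear_combination -hw

theorem Mi_base (F q : ℂ → ℂ) (x : ℂ) : Mi F q (F x) (q x) x = 0 := by
  simp [Mi]

theorem Mx_base (F q : ℂ → ℂ) (x : ℂ) : Mx F q (F x) (q x) x = 0 := by
  simp [Mx]

/-- the same line with the opposite orientation -/
theorem Mi_add_pi (F q : ℂ → ℂ) (a p x : ℂ) :
    Mi F q (a + Real.pi) (-p) x = -Mi F q a p x := by
  have e : a + Real.pi - F x = (a - F x) + Real.pi := by ring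
  rw [Mi, Mi, e, Complex.cos_add_pi, Complex.sin_add_pi]
  ring

theorem Mi_add_two_pi (F q : ℂ → ℂ) (a p x : ℂ) (n : ℤ) :
    Mi F q (a + 2 * Real.pi * n) p x = Mi F q a p x := by
  have e : a + 2 * Real.pi * n - F x = (a - F x) + n * (2 * Real.pi) := by ring
  rw [Mi, Mi, e, Complex.cos_add_int_mul_two_pi, Complex.sin_add_int_mul_two_pi]

end

/-- **the tangential chart** at the tangent line of parameter `x0` -/
structure TChart (b : ℝ) (F q : ℂ → ℂ) (x0 : ℂ) (ε ε' : ℝ) (T W : ℂ × ℂ → ℂ)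
    (U : (ℂ × ℂ) × ℂ → ℂ) (Inv : ℂ × ℂ → ℂ × ℂ) (K : ℝ) : Prop where
  ε0 : 0 < ε
  ε1 : 0 < ε'
  sb : ball x0 ε' ⊆ Sb b
  dT : DifferentiableOn ℂ T (ball (F x0, q x0) ε)
  dW : DifferentiableOn ℂ W (ball (F x0, q x0) ε)
  dU : DifferentiableOn ℂ U (ball (F x0, q x0) ε ×ˢ ball x0 ε')
  T0 : T (F x0, q x0) = x0
  W0 : W (F x0, q x0) = 0
  fac : ∀ v ∈ ball (F x0, q x0) ε, ∀ x ∈ ball x0 ε',
    Mi F q v.1 v.2 x = U (v, x) * ((x - T v) ^ 2 - W v)
  une : ∀ v ∈ ball (F x0, q x0) ε, ∀ x ∈ ball x0 ε', U (v, x) ≠ 0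
  rt : ∀ v ∈ ball (F x0, q x0) ε, ∀ s : ℂ, s ^ 2 = W v → T v + s ∈ ball x0 ε'
  op : ∀ O ⊆ ball (F x0, q x0) ε, IsOpen O → IsOpen ((fun v => (T v, W v)) '' O)
  dI : DifferentiableOn ℂ Inv ((fun v => (T v, W v)) '' ball (F x0, q x0) ε)
  inv : ∀ v ∈ ball (F x0, q x0) ε, Inv (T v, W v) = v
  jac : ∀ v ∈ ball (F x0, q x0) ε,
    fderiv ℂ T v (1, 0) * fderiv ℂ W v (0, 1) - fderiv ℂ T v (0, 1) * fderiv ℂ W v (1, 0) ≠ 0
  K0 : 0 < K
  lip : ∀ v ∈ ball (F x0, q x0) ε, ∀ v' ∈ ball (F x0, q x0) ε,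
    ‖(T v, W v) - (T v', W v')‖ ≤ K * ‖v - v'‖
  alip : ∀ v ∈ ball (F x0, q x0) ε, ∀ v' ∈ ball (F x0, q x0) ε,
    ‖v - v'‖ ≤ K * ‖(T v, W v) - (T v', W v')‖

theorem TChart.shrink {b : ℝ} {F q : ℂ → ℂ} {x0 : ℂ} {ε ε' : ℝ} {T W : ℂ × ℂ → ℂ}
    {U : (ℂ × ℂ) × ℂ → ℂ} {Inv : ℂ × ℂ → ℂ × ℂ} {K : ℝ} (h : TChart b F q x0 ε ε' T W U Inv K)
    {δ : ℝ} (hδ : 0 < δ) : ∃ ε₂ ε₂' : ℝ, ε₂ ≤ ε ∧ ε₂ ≤ δ ∧ ε₂' ≤ ε' ∧ ε₂' ≤ δ ∧
      TChart b F q x0 ε₂ ε₂' T W U Inv K := by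
  set η := min ε' δ with hη
  have hη0 : 0 < η := lt_min h.ε1 hδ
  have hm : (F x0, q x0) ∈ ball (F x0, q x0) ε := mem_ball_self h.ε0
  have c1 : ContinuousAt T (F x0, q x0) :=
    (h.dT.differentiableAt (isOpen_ball.mem_nhds hm)).continuousAt
  have c2 : ContinuousAt W (F x0, q x0) :=
    (h.dW.differentiableAt (isOpen_ball.mem_nhds hm)).continuousAt
  have n1 : {v | T v ∈ ball x0 (η / 2)} ∈ 𝓝 (F x0, q x0) := by
    refine c1.preimage_mem_nhds ?_
    rw [h.T0]; exact ball_mem_nhds _ (by positivity)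
  have n2 : {v | W v ∈ ball (0 : ℂ) ((η / 2) ^ 2)} ∈ 𝓝 (F x0, q x0) := by
    refine c2.preimage_mem_nhds ?_
    rw [h.W0]; exact ball_mem_nhds _ (by positivity)
  obtain ⟨ρ, hρ, hsub2⟩ := Metric.mem_nhds_iff.1 (Filter.inter_mem n1 n2)
  set ε₂ := min (min ε δ) ρ with hε₂
  have hε₂0 : 0 < ε₂ := lt_min (lt_min h.ε0 hδ) hρ
  have l1 : ε₂ ≤ ε := (min_le_left _ _).trans (min_le_left _ _)
  have hb : ball (F x0, q x0) ε₂ ⊆ ball (F x0, q x0) ε := ball_subset_ball l1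
  have hb' : ball x0 η ⊆ ball x0 ε' := ball_subset_ball (min_le_left _ _)
  refine ⟨ε₂, η, l1, (min_le_left _ _).trans (min_le_right _ _), min_le_left _ _, min_le_right _ _,
    ⟨hε₂0, hη0, hb'.trans h.sb, h.dT.mono hb, h.dW.mono hb, h.dU.mono (Set.prod_mono hb hb'), h.T0,
    h.W0, fun v hv x hx => h.fac v (hb hv) x (hb' hx), fun v hv x hx => h.une v (hb hv) x (hb' hx),
    ?_, fun O hO hO' => h.op O (hO.trans hb) hO', h.dI.mono (image_mono hb),
    fun v hv => h.inv v (hb hv), fun v hv => h.jac v (hb hv), h.K0,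
    fun v hv v' hv' => h.lip v (hb hv) v' (hb hv'), fun v hv v' hv' => h.alip v (hb hv) v' (hb hv')⟩⟩
  intro v hv s hs
  have hv' : v ∈ ball (F x0, q x0) ρ := ball_subset_ball (min_le_right _ _) hv
  have h1 : T v ∈ ball x0 (η / 2) := (hsub2 hv').1
  have h2 : W v ∈ ball (0 : ℂ) ((η / 2) ^ 2) := (hsub2 hv').2
  rw [mem_ball, dist_eq_norm] at h1 h2 ⊢
  rw [sub_zero, ← hs, norm_pow] at h2
  have h3 : ‖s‖ < η / 2 := lt_of_pow_lt_pow_left₀ 2 (by positivity) h2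
  calc ‖T v + s - x0‖ = ‖(T v - x0) + s‖ := by congr 1; ring
    _ ≤ ‖T v - x0‖ + ‖s‖ := norm_add_le _ _
    _ < η := by linarith

theorem exists_chart {Λ b : ℝ} {F q : ℂ → ℂ} (hC : Cv Λ b F q) {x0 : ℂ} (hx : x0 ∈ Sb b) :
    ∃ (ε ε' : ℝ) (T W : ℂ × ℂ → ℂ) (U : (ℂ × ℂ) × ℂ → ℂ) (Inv : ℂ × ℂ → ℂ × ℂ) (K : ℝ),
      TChart b F q x0 ε ε' T W U Inv K ∧ U ((F x0, q x0), x0) = -(Λ : ℂ) ^ 3 / 2 := by
  have hΛ : (Λ : ℂ) ≠ 0 := by exact_mod_cast hC.Λ0.ne'
  have hS : IsOpen ((univ : Set (ℂ × ℂ)) ×ˢ Sb b) := isOpen_univ.prod (isOpen_Sb b)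
  set M : (ℂ × ℂ) × ℂ → ℂ := fun w => Mi F q w.1.1 w.1.2 w.2 with hMd
  have dF' : DifferentiableOn ℂ (fun w : (ℂ × ℂ) × ℂ => F w.2) (univ ×ˢ Sb b) :=
    hC.dF.comp differentiableOn_snd fun w hw => hw.2
  have dF1 : DifferentiableOn ℂ (fun w : (ℂ × ℂ) × ℂ => deriv F w.2) (univ ×ˢ Sb b) :=
    (hC.dF.deriv (isOpen_Sb b)).comp differentiableOn_snd fun w hw => hw.2
  have dq' : DifferentiableOn ℂ (fun w : (ℂ × ℂ) × ℂ => q w.2) (univ ×ˢ Sb b) :=
    hC.dq.comp differentiableOn_snd fun w hw => hw.2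
  have dq1 : DifferentiableOn ℂ (fun w : (ℂ × ℂ) × ℂ => deriv q w.2) (univ ×ˢ Sb b) :=
    (hC.dq.deriv (isOpen_Sb b)).comp differentiableOn_snd fun w hw => hw.2
  have da : DifferentiableOn ℂ (fun w : (ℂ × ℂ) × ℂ => w.1.1 - F w.2) (univ ×ˢ Sb b) :=
    (differentiableOn_fst.fst).sub dF'
  have dp : DifferentiableOn ℂ (fun w : (ℂ × ℂ) × ℂ => w.1.2) (univ ×ˢ Sb b) :=
    differentiableOn_fst.snd
  have hM : DifferentiableOn ℂ M (univ ×ˢ Sb b) :=
    (dF1.mul ((dq'.mul da.ccos).sub dp)).add (dq1.mul da.csin)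
  have hsl : (fun x => M ((F x0, q x0), x)) = Mi F q (F x0) (q x0) := rfl
  obtain ⟨ε, hε, ε', hε', T, W, U, s1, s2, s3, s4, T0, W0, U0, fc, rt⟩ :=
    weier2 hS hM (v0 := (F x0, q x0)) (x0 := x0) ⟨mem_univ _, hx⟩ (Mi_base F q x0)
      (by rw [hsl, deriv_Mi hC hx, Mx_base]) (by
        rw [hsl, deriv2_Mi hC hx]
        exact neg_ne_zero.2 (pow_ne_zero _ hΛ))
  rw [hsl, deriv2_Mi hC hx] at U0
  set v0 : ℂ × ℂ := (F x0, q x0) with hv0
  have hv0m : v0 ∈ ball v0 ε := mem_ball_self hε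
  have hx0m : x0 ∈ ball x0 ε' := mem_ball_self hε'
  have hBo : IsOpen (ball v0 ε ×ˢ ball x0 ε') := isOpen_ball.prod isOpen_ball
  set Ψ : ℂ × ℂ → ℂ × ℂ := fun v => (T v, W v) with hΨ
  have dΨ : DifferentiableOn ℂ Ψ (ball v0 ε) := s2.prodMk s3
  have tT := (s2.differentiableAt (isOpen_ball.mem_nhds hv0m)).hasFDerivAt
  have tW := (s3.differentiableAt (isOpen_ball.mem_nhds hv0m)).hasFDerivAt
  have hΨ0 : HasFDerivAt Ψ ((fderiv ℂ T v0).prod (fderiv ℂ W v0)) v0 := tT.prodMk tW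
  have hsb : ball x0 ε' ⊆ Sb b := by
    intro x hx'
    have : ((v0, x) : (ℂ × ℂ) × ℂ) ∈ (univ : Set (ℂ × ℂ)) ×ˢ Sb b := s1 ⟨hv0m, hx'⟩
    exact this.2
  have hinj : ∀ h, fderiv ℂ Ψ v0 h = 0 → h = 0 := by
    rintro ⟨ha, hp⟩ hh
    rw [hΨ0.fderiv] at hh
    have hT : fderiv ℂ T v0 (ha, hp) = 0 := congrArg Prod.fst hh
    have hW : fderiv ℂ W v0 (ha, hp) = 0 := congrArg Prod.snd hh
    set k : ℂ → ℂ := fun x => fderiv ℂ U (v0, x) ((ha, hp), 0) with hk
    have dk : DifferentiableOn ℂ k (ball x0 ε') :=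
      (P268.differentiableOn_fderiv_apply hBo s4 ((ha, hp), 0)).comp
        (differentiableOn_const v0 |>.prodMk differentiableOn_id) fun x hx' => ⟨hv0m, hx'⟩
    -- the path
    have pth : HasDerivAt (fun t : ℂ => v0 + t • ((ha, hp) : ℂ × ℂ)) (ha, hp) 0 := by
      simpa using ((hasDerivAt_id (0 : ℂ)).smul_const ((ha, hp) : ℂ × ℂ)).const_add v0
    have pth0 : v0 + (0 : ℂ) • ((ha, hp) : ℂ × ℂ) = v0 := by simp
    have hNk : ∀ x ∈ ball x0 ε', (ha * (-(deriv F x * q x * Complex.sin (F x0 - F x)) +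
        deriv q x * Complex.cos (F x0 - F x)) - deriv F x * hp) = (x - x0) ^ 2 * k x := by
      intro x hx'
      have hxb := hsb hx'
      have lhs : HasDerivAt (fun t : ℂ => Mi F q (v0 + t • ((ha, hp) : ℂ × ℂ)).1
          (v0 + t • ((ha, hp) : ℂ × ℂ)).2 x) (ha * (-(deriv F x * q x * Complex.sin (F x0 - F x)) +
        deriv q x * Complex.cos (F x0 - F x)) - deriv F x * hp) 0 := by
        have e1 : HasDerivAt (fun t : ℂ => F x0 + t * ha - F x) ha 0 := by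
          simpa using (((hasDerivAt_id (0 : ℂ)).mul_const ha).const_add (F x0)).sub_const (F x)
        have e2 : HasDerivAt (fun t : ℂ => q x0 + t * hp) hp 0 := by
          simpa using ((hasDerivAt_id (0 : ℂ)).mul_const hp).const_add (q x0)
        have e3 := ((((e1.ccos).const_mul (q x)).fun_sub e2).const_mul (deriv F x)).fun_add
          ((e1.csin).const_mul (deriv q x))
        refine (e3.congr_deriv ?_)
        simp only [zero_mul, add_zero]
        ring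
      have rhs : HasDerivAt (fun t : ℂ => U (v0 + t • ((ha, hp) : ℂ × ℂ), x) *
          ((x - T (v0 + t • ((ha, hp) : ℂ × ℂ))) ^ 2 - W (v0 + t • ((ha, hp) : ℂ × ℂ))))
          ((x - x0) ^ 2 * k x) 0 := by
        have f1 : HasDerivAt (fun t : ℂ => U (v0 + t • ((ha, hp) : ℂ × ℂ), x)) (k x) 0 := by
          have g1 : HasFDerivAt U (fderiv ℂ U (v0, x)) (v0, x) :=
            (s4.differentiableAt (hBo.mem_nhds ⟨hv0m, hx'⟩)).hasFDerivAt
          have g2 : HasDerivAt (fun t : ℂ => ((v0 + t • ((ha, hp) : ℂ × ℂ), x) : (ℂ × ℂ) × ℂ))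
              ((ha, hp), 0) 0 := pth.prodMk (hasDerivAt_const 0 x)
          have g3 : HasFDerivAt U (fderiv ℂ U (v0, x)) (v0 + (0 : ℂ) • ((ha, hp) : ℂ × ℂ), x) := by
            rw [pth0]; exact g1
          exact g3.comp_hasDerivAt (0 : ℂ) g2
        have f2 : HasDerivAt (fun t : ℂ => T (v0 + t • ((ha, hp) : ℂ × ℂ))) 0 0 := by
          have g3 : HasFDerivAt T (fderiv ℂ T v0) (v0 + (0 : ℂ) • ((ha, hp) : ℂ × ℂ)) := by
            rw [pth0]; exact tT
          have := g3.comp_hasDerivAt (0 : ℂ) pth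
          rw [hT] at this
          exact this
        have f3 : HasDerivAt (fun t : ℂ => W (v0 + t • ((ha, hp) : ℂ × ℂ))) 0 0 := by
          have g3 : HasFDerivAt W (fderiv ℂ W v0) (v0 + (0 : ℂ) • ((ha, hp) : ℂ × ℂ)) := by
            rw [pth0]; exact tW
          have := g3.comp_hasDerivAt (0 : ℂ) pth
          rw [hW] at this
          exact this
        have f4 := f1.fun_mul (((f2.const_sub x).fun_pow 2).fun_sub f3)
        refine f4.congr_deriv ?_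
        simp only [zero_smul, add_zero, T0, W0, neg_zero, mul_zero, sub_zero]
        ring
      have heq : (fun t : ℂ => Mi F q (v0 + t • ((ha, hp) : ℂ × ℂ)).1
          (v0 + t • ((ha, hp) : ℂ × ℂ)).2 x) =ᶠ[𝓝 0]
          (fun t : ℂ => U (v0 + t • ((ha, hp) : ℂ × ℂ), x) *
          ((x - T (v0 + t • ((ha, hp) : ℂ × ℂ))) ^ 2 - W (v0 + t • ((ha, hp) : ℂ × ℂ)))) := by
        have hcn : ContinuousAt (fun t : ℂ => v0 + t • ((ha, hp) : ℂ × ℂ)) 0 := pth.continuousAt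
        have : ∀ᶠ t : ℂ in 𝓝 0, v0 + t • ((ha, hp) : ℂ × ℂ) ∈ ball v0 ε := by
          refine hcn.eventually_mem ?_
          rw [pth0]; exact isOpen_ball.mem_nhds hv0m
        filter_upwards [this] with t ht
        exact (fc _ ht x hx').1
      exact (lhs.congr_of_eventuallyEq heq.symm).unique rhs
    have hw := hC.wr x0 hx
    -- value at x0
    have z0 := hNk x0 hx0m
    simp only [sub_self, Complex.sin_zero, Complex.cos_zero, mul_zero, neg_zero, zero_add, mul_one,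
      ne_eq, OfNat.ofNat_ne_zero, not_false_eq_true, zero_pow, zero_mul] at z0
    -- derivative at x0
    have z1 : ha * (deriv F x0 ^ 2 * q x0 + deriv (deriv q) x0) - deriv (deriv F) x0 * hp = 0 := by
      have a1 := (((((hF1 hC hx).fun_mul (hq0 hC hx)).fun_mul (hsin hC hx (F x0))).fun_neg).fun_add
        ((hq1 hC hx).fun_mul (hcos hC hx (F x0)))).const_mul ha
      have a2 := a1.fun_sub ((hF1 hC hx).mul_const hp)
      have a3 : HasDerivAt (fun x => (x - x0) ^ 2 * k x) 0 x0 := by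
        have c1 : HasDerivAt (fun y : ℂ => (y - x0) ^ 2) 0 x0 := by
          have := ((hasDerivAt_id x0).sub_const x0).fun_pow 2
          refine this.congr_deriv ?_
          simp
        have := c1.fun_mul ((dk.differentiableAt (isOpen_ball.mem_nhds hx0m)).hasDerivAt)
        refine this.congr_deriv ?_
        simp
      have heq : (fun x => ha * (-(deriv F x * q x * Complex.sin (F x0 - F x)) +
          deriv q x * Complex.cos (F x0 - F x)) - deriv F x * hp) =ᶠ[𝓝 x0]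
          fun x => (x - x0) ^ 2 * k x := by
        filter_upwards [isOpen_ball.mem_nhds hx0m] with y hy using hNk y hy
      have a4 := (a2.congr_of_eventuallyEq heq.symm).unique a3
      simp only [sub_self, Complex.sin_zero, Complex.cos_zero, mul_zero, neg_zero, zero_add,
        mul_one, zero_mul, add_zero] at a4
      rw [← a4]
      ring
    have y1 : ha * (Λ : ℂ) ^ 3 = 0 := by
      linear_combination (-ha) * hw - deriv (deriv F) x0 * z0 + deriv F x0 * z1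
    have y2 : ha = 0 := (mul_eq_zero.1 y1).resolve_right (pow_ne_zero _ hΛ)
    rw [y2] at z0 z1
    have y3 : deriv F x0 * hp = 0 := by linear_combination -z0
    have y4 : deriv (deriv F) x0 * hp = 0 := by linear_combination -z1
    have y5 : hp = 0 := by
      by_contra hne
      have u1 : deriv F x0 = 0 := (mul_eq_zero.1 y3).resolve_right hne
      have u2 : deriv (deriv F) x0 = 0 := (mul_eq_zero.1 y4).resolve_right hne
      rw [u1, u2] at hw
      refine pow_ne_zero 3 hΛ ?_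
      rw [← hw]; ring
    rw [y2, y5]
    rfl
  obtain ⟨e, he1, he2, he3, he4, he5⟩ := exists_inv rfl isOpen_ball dΨ hv0m hinj
  -- bi-Lipschitz
  have hinj' : Function.Injective (fderiv ℂ Ψ v0 : ℂ × ℂ →ₗ[ℂ] ℂ × ℂ) := by
    rw [← LinearMap.ker_eq_bot, LinearMap.ker_eq_bot']
    exact hinj
  set L : (ℂ × ℂ) ≃L[ℂ] (ℂ × ℂ) :=
    (LinearMap.linearEquivOfInjective (fderiv ℂ Ψ v0 : ℂ × ℂ →ₗ[ℂ] ℂ × ℂ) hinj'
      rfl).toContinuousLinearEquiv with hL
  have hLf : (L : ℂ × ℂ →L[ℂ] ℂ × ℂ) = fderiv ℂ Ψ v0 := by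
    ext <;> simp [hL]
  have hst : HasStrictFDerivAt Ψ (L : ℂ × ℂ →L[ℂ] ℂ × ℂ) v0 := by
    rw [hLf]
    have hc : ContDiffAt ℂ 1 Ψ v0 := by
      have := (P268.contDiffOn_of_differentiableOn isOpen_ball dΨ 1).contDiffAt
        (isOpen_ball.mem_nhds hv0m)
      simpa using this
    exact hc.hasStrictFDerivAt one_ne_zero
  obtain ⟨s, hs1, hs2, hs3⟩ := hst.approximates_deriv_on_open_nhds
  have hN0 : 0 < ‖(L.symm : ℂ × ℂ →L[ℂ] ℂ × ℂ)‖ := by
    rw [norm_pos_iff]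
    intro h
    have h1 : L.symm (1, 0) = 0 := by
      have := congrArg (fun f : ℂ × ℂ →L[ℂ] ℂ × ℂ => f (1, 0)) h
      simpa using this
    have h2 : ((1 : ℂ), (0 : ℂ)) = 0 := by
      rw [← L.apply_symm_apply (1, 0), h1, map_zero]
    exact one_ne_zero (congrArg Prod.fst h2)
  set N := ‖(L.symm : ℂ × ℂ →L[ℂ] ℂ × ℂ)‖ with hN
  set NL := ‖(L : ℂ × ℂ →L[ℂ] ℂ × ℂ)‖ with hNL
  have happ : ∀ v ∈ s, ∀ v' ∈ s, ‖Ψ v - Ψ v' - L (v - v')‖ ≤ N⁻¹ / 2 * ‖v - v'‖ := by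
    intro v hv v' hv'
    have := hs3 v hv v' hv'
    simpa [hN] using this
  set K := 2 * N + (NL + N⁻¹ / 2) + 1 with hK
  have hK0 : 0 < K := by positivity
  obtain ⟨ε₂, hε₂, hsub⟩ := Metric.mem_nhds_iff.1
    (Filter.inter_mem (hs2.mem_nhds hs1) (e.open_source.mem_nhds he1))
  set ε₃ := min ε ε₂ with hε₃
  have hb : ball v0 ε₃ ⊆ ball v0 ε := ball_subset_ball (min_le_left _ _)
  have hbs : ball v0 ε₃ ⊆ s := fun v hv => (hsub (ball_subset_ball (min_le_right _ _) hv)).1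
  have hbe : ball v0 ε₃ ⊆ e.source := fun v hv => (hsub (ball_subset_ball (min_le_right _ _) hv)).2
  have hee : ∀ v, e v = (T v, W v) := he3
  refine ⟨ε₃, ε', T, W, U, e.symm, K, ⟨lt_min hε hε₂, hε', hsb, s2.mono hb, s3.mono hb,
    s4.mono (Set.prod_mono hb (Subset.refl _)), T0, W0, fun v hv x hx' => (fc v (hb hv) x hx').1,
    fun v hv x hx' => (fc v (hb hv) x hx').2, fun v hv s hs => rt v (hb hv) s hs, ?_, ?_, ?_, ?_,
    hK0, ?_, ?_⟩, U0⟩
  · intro O hO hO'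
    have : (fun v => (T v, W v)) '' O = e '' O := by
      refine image_congr fun v _ => ?_
      rw [hee]
    rw [this]
    exact e.isOpen_image_of_subset_source hO' (hO.trans hbe)
  · refine he4.mono ?_
    rintro y ⟨v, hv, rfl⟩
    show (T v, W v) ∈ e.target
    rw [← hee]
    exact e.map_source (hbe hv)
  · intro v hv
    rw [← hee, e.left_inv (hbe hv)]
  · intro v hv hzero
    have tT' := (s2.differentiableAt (isOpen_ball.mem_nhds (hb hv))).hasFDerivAt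
    have tW' := (s3.differentiableAt (isOpen_ball.mem_nhds (hb hv))).hasFDerivAt
    have hΨ' : HasFDerivAt Ψ ((fderiv ℂ T v).prod (fderiv ℂ W v)) v := tT'.prodMk tW'
    have hi := he5 v (hbe hv)
    rw [hΨ'.fderiv] at hi
    set A := fderiv ℂ T v (1, 0) with hA
    set B := fderiv ℂ T v (0, 1) with hB
    set C := fderiv ℂ W v (1, 0) with hC'
    set D := fderiv ℂ W v (0, 1) with hD
    have eT : ∀ x y : ℂ, fderiv ℂ T v (x, y) = x * A + y * B := by
      intro x y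
      have : ((x, y) : ℂ × ℂ) = x • (1, 0) + y • (0, 1) := by simp
      rw [this, map_add, map_smul, map_smul]
      simp [hA, hB]
    have eW : ∀ x y : ℂ, fderiv ℂ W v (x, y) = x * C + y * D := by
      intro x y
      have : ((x, y) : ℂ × ℂ) = x • (1, 0) + y • (0, 1) := by simp
      rw [this, map_add, map_smul, map_smul]
      simp [hC', hD]
    have i1 : ((D, -C) : ℂ × ℂ) = 0 := by
      refine hi _ ?_
      refine Prod.ext ?_ ?_
      · show fderiv ℂ T v (D, -C) = 0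
        rw [eT]; linear_combination hzero
      · show fderiv ℂ W v (D, -C) = 0
        rw [eW]; ring
    have i2 : ((B, -A) : ℂ × ℂ) = 0 := by
      refine hi _ ?_
      refine Prod.ext ?_ ?_
      · show fderiv ℂ T v (B, -A) = 0
        rw [eT]; ring
      · show fderiv ℂ W v (B, -A) = 0
        rw [eW]; linear_combination -hzero
    have j1 : D = 0 := congrArg Prod.fst i1
    have j2 : C = 0 := neg_eq_zero.1 (congrArg Prod.snd i1)
    have j3 : B = 0 := congrArg Prod.fst i2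
    have j4 : A = 0 := neg_eq_zero.1 (congrArg Prod.snd i2)
    have i3 : ((1, 0) : ℂ × ℂ) = 0 := by
      refine hi _ ?_
      refine Prod.ext ?_ ?_
      · show fderiv ℂ T v (1, 0) = 0
        exact j4
      · show fderiv ℂ W v (1, 0) = 0
        exact j2
    exact one_ne_zero (congrArg Prod.fst i3)
  · intro v hv v' hv'
    have h1 := happ v (hbs hv) v' (hbs hv')
    have h2 : ‖L (v - v')‖ ≤ NL * ‖v - v'‖ := (L : ℂ × ℂ →L[ℂ] ℂ × ℂ).le_opNorm _
    have h3 : ‖Ψ v - Ψ v'‖ ≤ ‖Ψ v - Ψ v' - L (v - v')‖ + ‖L (v - v')‖ := by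
      calc ‖Ψ v - Ψ v'‖ = ‖(Ψ v - Ψ v' - L (v - v')) + L (v - v')‖ := by congr 1; abel
        _ ≤ _ := norm_add_le _ _
    have h4 : ‖Ψ v - Ψ v'‖ ≤ (NL + N⁻¹ / 2) * ‖v - v'‖ := by nlinarith
    refine h4.trans ?_
    have : NL + N⁻¹ / 2 ≤ K := by rw [hK]; nlinarith
    exact mul_le_mul_of_nonneg_right this (norm_nonneg _)
  · intro v hv v' hv'
    have h1 := happ v (hbs hv) v' (hbs hv')
    have h2 : ‖v - v'‖ ≤ N * ‖L (v - v')‖ := by
      have := (L.symm : ℂ × ℂ →L[ℂ] ℂ × ℂ).le_opNorm (L (v - v'))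
      simpa using this
    have h3 : ‖L (v - v')‖ ≤ ‖Ψ v - Ψ v' - L (v - v')‖ + ‖Ψ v - Ψ v'‖ := by
      calc ‖L (v - v')‖ = ‖-(Ψ v - Ψ v' - L (v - v')) + (Ψ v - Ψ v')‖ := by congr 1; abel
        _ ≤ ‖-(Ψ v - Ψ v' - L (v - v'))‖ + ‖Ψ v - Ψ v'‖ := norm_add_le _ _
        _ = _ := by rw [norm_neg]
    have h4 : N * (N⁻¹ / 2 * ‖v - v'‖) = ‖v - v'‖ / 2 := by field_simp
    have h5 : ‖v - v'‖ ≤ 2 * N * ‖Ψ v - Ψ v'‖ := by nlinarith
    refine h5.trans ?_
    have : 2 * N ≤ K := by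
      rw [hK]
      have : 0 ≤ NL + N⁻¹ / 2 := by positivity
      linarith
    exact mul_le_mul_of_nonneg_right this (norm_nonneg _)

end Vale.Agent.P097.H839.Tan
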