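import Vale.Agent.P268.Hol

/-!
# P097 / A5.TANC (1) : holomorphic inverse function theorem (finite dimension)
-/

set_option linter.all false

open Set Filter Metric Topology

namespace Vale.Agent.P097.H839.Tan

variable {X Y : Type*} [NormedAddCommGroup X] [NormedSpace ℂ X] [FiniteDimensional ℂ X]
  [NormedAddCommGroup Y] [NormedSpace ℂ Y] [FiniteDimensional ℂ Y]

/-- holomorphic inverse function theorem: an open partial homeomorphism with holomorphic inverse -/
theorem exists_inv (hd : Module.finrank ℂ X = Module.finrank ℂ Y) {f : X → Y} {S : Set X}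
    (hS : IsOpen S) (hf : DifferentiableOn ℂ f S) {a : X} (ha : a ∈ S)
    (hi : ∀ h, fderiv ℂ f a h = 0 → h = 0) :
    ∃ e : OpenPartialHomeomorph X Y, a ∈ e.source ∧ e.source ⊆ S ∧ (∀ x, e x = f x) ∧
      DifferentiableOn ℂ e.symm e.target ∧ ∀ x ∈ e.source, ∀ h, fderiv ℂ f x h = 0 → h = 0 := by
  have : CompleteSpace X := FiniteDimensional.complete ℂ X
  have : CompleteSpace Y := FiniteDimensional.complete ℂ Y
  have hinj : Function.Injective (fderiv ℂ f a : X →ₗ[ℂ] Y) := by
    rw [← LinearMap.ker_eq_bot, LinearMap.ker_eq_bot']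
    exact hi
  set L : X ≃L[ℂ] Y :=
    (LinearMap.linearEquivOfInjective (fderiv ℂ f a : X →ₗ[ℂ] Y) hinj hd).toContinuousLinearEquiv
    with hL
  have hLf : (L : X →L[ℂ] Y) = fderiv ℂ f a := by
    ext h
    simp [hL]
  have hc : ContDiffAt ℂ 1 f a := by
    have := (P268.contDiffOn_of_differentiableOn hS hf 1).contDiffAt (hS.mem_nhds ha)
    simpa using this
  have hfd : HasFDerivAt f (L : X →L[ℂ] Y) a := by
    rw [hLf]; exact (hf.differentiableAt (hS.mem_nhds ha)).hasFDerivAt
  set e0 := hc.toOpenPartialHomeomorph f hfd one_ne_zero with he0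
  set V : Set X := S ∩ fderiv ℂ f ⁻¹' range ((↑) : (X ≃L[ℂ] Y) → X →L[ℂ] Y) with hV
  have hVo : IsOpen V := by
    have h1 : ContinuousOn (fderiv ℂ f) S := P268.continuousOn_fderiv_of_differentiableOn hS hf
    exact h1.isOpen_inter_preimage hS ContinuousLinearEquiv.isOpen
  refine ⟨e0.restrOpen V hVo, ?_, ?_, ?_, ?_, ?_⟩
  · exact ⟨hc.mem_toOpenPartialHomeomorph_source hfd one_ne_zero, ha, ⟨L, hLf⟩⟩
  · intro x hx
    exact hx.2.1
  · intro x
    rfl
  · intro y hy
    have hy' := (e0.restrOpen V hVo).map_target hy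
    obtain ⟨L', hL'⟩ := hy'.2.2
    have h3 : HasFDerivAt (e0.restrOpen V hVo) (L' : X →L[ℂ] Y)
        ((e0.restrOpen V hVo).symm y) := by
      rw [hL']
      exact (hf.differentiableAt (hS.mem_nhds hy'.2.1)).hasFDerivAt
    exact (OpenPartialHomeomorph.hasFDerivAt_symm _ hy h3).differentiableAt.differentiableWithinAt
  · intro x hx h hh
    obtain ⟨L', hL'⟩ := hx.2.2
    rw [← hL'] at hh
    have : L' h = 0 := hh
    simpa using this

end Vale.Agent.P097.H839.Tan
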