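import Vale.Agent.P097.H839.Tan.W5N
import Vale.Agent.P097.H830.NC

/-!
# P097 / block (T) : from bounds of the normalised lines along picks to the data `NL9`
-/

set_option linter.all false

open Set Filter Metric Topology MeasureTheory

namespace Vale.Agent.P097.H839.Tan

open Vale.Agent.P097.TC
open Vale.Agent.P097.H920 (ExtM)
open Vale.Agent.P097.H845 (jac)
open Vale.Agent.P097.H100 (Wc isOpen_Wc)
open Vale.Agent.P097.H929 (kpt kpt_eq bpt lsh lsh_im continuous_lsh Gc blow_dom ev_of)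
open Vale.Agent.P097.A5 (W5 Sq Tou Dm)

/-- the small two-sided cone -/
def SC (K₁ : ℝ) : Set (ℂ × ℂ) := {z | z.1.im < -(K₁ * ‖z.2‖)}

theorem isOpen_SC (K₁ : ℝ) : IsOpen (SC K₁) :=
  isOpen_lt (Complex.continuous_im.comp continuous_fst) (by fun_prop)

theorem convex_SC {K₁ : ℝ} (hK : 0 ≤ K₁) : Convex ℝ (SC K₁) := by
  intro x hx y hy a b ha hb hab
  have hx' : x.1.im < -(K₁ * ‖x.2‖) := hx
  have hy' : y.1.im < -(K₁ * ‖y.2‖) := hy
  show (a • x + b • y).1.im < -(K₁ * ‖(a • x + b • y).2‖)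
  have e1 : (a • x + b • y).1.im = a * x.1.im + b * y.1.im := by simp
  have e2 : ‖(a • x + b • y).2‖ ≤ a * ‖x.2‖ + b * ‖y.2‖ := by
    have : (a • x + b • y).2 = a • x.2 + b • y.2 := by simp
    rw [this]
    refine (norm_add_le _ _).trans ?_
    rw [norm_smul, norm_smul, Real.norm_of_nonneg ha, Real.norm_of_nonneg hb]
  have e3 := mul_le_mul_of_nonneg_left e2 hK
  rw [e1]
  rcases ha.eq_or_lt with h0 | h0
  · have hb1 : b = 1 := by linarith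
    subst hb1
    rw [← h0] at e3 ⊢
    nlinarith
  · have := mul_lt_mul_of_pos_left hx' h0
    have := mul_le_mul_of_nonneg_left hy'.le hb
    nlinarith

theorem convex_Wc (s : ℝ) : Convex ℝ (Wc s) := by
  intro x hx y hy a b ha hb hab
  obtain ⟨x1, x2⟩ := hx
  obtain ⟨y1, y2⟩ := hy
  have x1' : 0 < x.2.im := x1
  have x2' : x.1.im < s * x.2.im := x2
  have y1' : 0 < y.2.im := y1
  have y2' : y.1.im < s * y.2.im := y2
  have e1 : (a • x + b • y).1.im = a * x.1.im + b * y.1.im := by simp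
  have e2 : (a • x + b • y).2.im = a * x.2.im + b * y.2.im := by simp
  constructor
  · show 0 < (a • x + b • y).2.im
    rw [e2]
    rcases ha.eq_or_lt with h0 | h0
    · have hb1 : b = 1 := by linarith
      subst hb1
      rw [← h0]; linarith
    · have := mul_pos h0 x1'
      have := mul_nonneg hb y1'.le
      linarith
  · show (a • x + b • y).1.im < s * (a • x + b • y).2.im
    rw [e1, e2]
    rcases ha.eq_or_lt with h0 | h0
    · have hb1 : b = 1 := by linarith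
      subst hb1
      rw [← h0]; linarith
    · have := mul_lt_mul_of_pos_left x2' h0
      have := mul_le_mul_of_nonneg_left y2'.le hb
      nlinarith

theorem SC_meet {K₁ s : ℝ} (hK : 0 ≤ K₁) (hs : 0 < s) : (Wc s ∩ SC K₁).Nonempty := by
  refine ⟨(-(((K₁ + 1 : ℝ)) : ℂ) * Complex.I, Complex.I), ⟨?_, ?_⟩, ?_⟩
  · show 0 < (Complex.I).im
    simp
  · show (-(((K₁ + 1 : ℝ)) : ℂ) * Complex.I).im < s * (Complex.I).im
    simp; linarith
  · show (-(((K₁ + 1 : ℝ)) : ℂ) * Complex.I).im < -(K₁ * ‖Complex.I‖)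
    simp

section
variable {Λ H : ℝ} {F q : ℂ → ℂ} {b m : ℝ} {Ψ : ℂ → ℂ} {Mj Mk B : Set (ℂ × ℂ)} {A : Set ℝ}
  {P : ℝ → ℂ} {c k : ℝ → ℝ} {K s y₀ u₀ σ : ℝ} {al p th : ℂ × ℂ → ℂ} {J : ℂ → ℂ}

/-- compact sets of the small cone are in the native domain -/
theorem w5_sc {ι : Type*} {l : Filter ι} {y u r : ι → ℝ}
    (W : W5 Λ H F q b m Ψ Mj Mk B A P c k K y₀ u₀ σ s al p th J)
    (hy : Tendsto y l (𝓝 y₀)) (hu : Tendsto u l (𝓝 u₀)) (huA : ∀ᶠ n in l, u n ∈ A)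
    (hr : Tendsto r l (𝓝[>] 0)) {X : Set (ℂ × ℂ)} (hX : IsCompact X)
    (hXG : X ⊆ SC (K + |σ| + 1)) :
    ∀ᶠ n in l, ∀ z ∈ X, kpt (P (u n)).im (c u₀) σ (y n) (u n) (r n) z ∈ B := by
  obtain ⟨C₀, hC₀⟩ := hX.isBounded.exists_norm_le
  set C : ℝ := max 1 C₀ with hC
  have hC1 : 1 ≤ C := le_max_left _ _
  have hCz : ∀ z ∈ X, ‖z‖ ≤ C := fun z hz => (hC₀ z hz).trans (le_max_right _ _)
  obtain ⟨δ, hδ, hcone⟩ := W.coneU (1 / 4) (by norm_num)
  have hR0 := W.hb u₀ W.u0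
  have hub : Tendsto u l (𝓝[A] u₀) := tendsto_nhdsWithin_iff.2 ⟨hu, huA⟩
  have hRt : Tendsto (fun n => (P (u n)).im) l (𝓝 (P u₀).im) :=
    ((W.cR u₀ W.u0).tendsto).comp hub
  have hct : Tendsto (fun n => c (u n)) l (𝓝 (c u₀)) := ((W.cc u₀ W.u0).tendsto).comp hub
  set g₀ : ℝ := ((P u₀).im - b) / 2 with hg₀
  have hg0 : 0 < g₀ := by rw [hg₀]; linarith
  have h1 : ∀ᶠ n in l, b + g₀ < (P (u n)).im := by
    have : b + g₀ < (P u₀).im := by rw [hg₀]; linarith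
    exact hRt.eventually_const_lt this
  have h2 : ∀ᶠ n in l, |c (u n) - c u₀| < 1 / 4 := by
    have := Metric.tendsto_nhds.1 hct (1 / 4) (by norm_num)
    simpa [Real.dist_eq] using this
  have hr0 : Tendsto r l (𝓝 0) := hr.mono_right nhdsWithin_le_nhds
  set M₀ : ℝ := (1 + |c u₀| + |σ|) * C with hM₀
  have hM0 : 0 < M₀ := by positivity
  have h3 : ∀ᶠ n in l, 0 < r n ∧ r n < δ / (2 * C) ∧ r n < g₀ / (2 * M₀) := by
    have a1 : ∀ᶠ n in l, 0 < r n := hr.eventually self_mem_nhdsWithin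
    have a2 : ∀ᶠ n in l, r n < δ / (2 * C) := hr0.eventually_lt_const (by positivity)
    have a3 : ∀ᶠ n in l, r n < g₀ / (2 * M₀) := hr0.eventually_lt_const (by positivity)
    exact a1.and (a2.and a3)
  filter_upwards [h1, h2, h3, huA] with n k1 k2 k3 k4 z hz
  obtain ⟨r0, r1, r2⟩ := k3
  have z1 : ‖z.1‖ ≤ C := (norm_fst_le z).trans (hCz z hz)
  have z2 : ‖z.2‖ ≤ C := (norm_snd_le z).trans (hCz z hz)
  have hsc : z.1.im < -((K + |σ| + 1) * ‖z.2‖) := hXG hz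
  rw [kpt_eq]
  have hv : ‖(r n : ℂ) * z.2‖ < δ := by
    rw [norm_mul, Complex.norm_real, Real.norm_of_nonneg r0.le]
    calc r n * ‖z.2‖ ≤ r n * C := mul_le_mul_of_nonneg_left z2 r0.le
      _ < δ / (2 * C) * C := mul_lt_mul_of_pos_right r1 (by linarith)
      _ = δ / 2 := by field_simp
      _ < δ := by linarith
  have him : ((y n : ℂ) + ((P (u n)).im : ℂ) * Complex.I +
      (r n : ℂ) * (z.1 + (Complex.I * (c u₀ : ℂ) + (σ : ℂ)) * z.2)).im =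
      (P (u n)).im + r n * (z.1.im + c u₀ * z.2.re + σ * z.2.im) := by
    simp only [Complex.add_im, Complex.mul_im, Complex.ofReal_re, Complex.ofReal_im, Complex.I_im,
      Complex.I_re, Complex.add_re, Complex.mul_re]
    ring
  refine hcone (u n) k4 _ hv _ ?_ ?_
  · rw [him]
    have e1 : |z.1.im + c u₀ * z.2.re + σ * z.2.im| ≤ M₀ := by
      have a1 := (Complex.abs_im_le_norm z.1).trans z1
      have a2 := (Complex.abs_re_le_norm z.2).trans z2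
      have a3 := (Complex.abs_im_le_norm z.2).trans z2
      have a4 : |c u₀ * z.2.re| ≤ |c u₀| * C := by
        rw [abs_mul]; exact mul_le_mul_of_nonneg_left a2 (abs_nonneg _)
      have a5 : |σ * z.2.im| ≤ |σ| * C := by
        rw [abs_mul]; exact mul_le_mul_of_nonneg_left a3 (abs_nonneg _)
      refine (abs_add_three _ _ _).trans ?_
      rw [hM₀]
      linarith
    have e2 : -(g₀ / 2) ≤ r n * (z.1.im + c u₀ * z.2.re + σ * z.2.im) := by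
      have e3 : |r n * (z.1.im + c u₀ * z.2.re + σ * z.2.im)| ≤ g₀ / 2 := by
        rw [abs_mul, abs_of_pos r0]
        calc r n * |z.1.im + c u₀ * z.2.re + σ * z.2.im| ≤ r n * M₀ :=
            mul_le_mul_of_nonneg_left e1 r0.le
          _ ≤ g₀ / (2 * M₀) * M₀ := mul_le_mul_of_nonneg_right r2.le hM0.le
          _ = g₀ / 2 := by field_simp
      exact (abs_le.1 e3).1
    linarith
  · rw [him]
    have f1 : ((r n : ℂ) * z.2).re = r n * z.2.re := by simp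
    have f2 : ((r n : ℂ) * z.2).im = r n * z.2.im := by simp
    have f3 : ‖(r n : ℂ) * z.2‖ = r n * ‖z.2‖ := by
      rw [norm_mul, Complex.norm_real, Real.norm_of_nonneg r0.le]
    rw [f1, f2, f3, abs_mul, abs_of_pos r0]
    have a2 := Complex.abs_re_le_norm z.2
    have a3 := Complex.abs_im_le_norm z.2
    have hn := norm_nonneg z.2
    have g1 : |(c (u n) - c u₀) * z.2.re| ≤ 1 / 4 * ‖z.2‖ := by
      rw [abs_mul]
      exact mul_le_mul k2.le a2 (abs_nonneg _) (by norm_num)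
    have g2 : |σ * z.2.im| ≤ |σ| * ‖z.2‖ := by
      rw [abs_mul]; exact mul_le_mul_of_nonneg_left a3 (abs_nonneg _)
    have g3 : K * |z.2.im| ≤ K * ‖z.2‖ := mul_le_mul_of_nonneg_left a3 W.K0.le
    have g4 := (abs_le.1 g1).1
    have g5 := (abs_le.1 g2).2
    have key : z.1.im + c u₀ * z.2.re + σ * z.2.im <
        c (u n) * z.2.re - K * |z.2.im| - 1 / 4 * ‖z.2‖ := by
      by_cases h0 : ‖z.2‖ = 0
      · have h00 : z.2 = 0 := norm_eq_zero.1 h0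
        have : z.1.im < 0 := by
          rw [h0] at hsc; linarith
        rw [h00]; simp; linarith
      · have hp : 0 < ‖z.2‖ := lt_of_le_of_ne hn (Ne.symm h0)
        nlinarith
    have := mul_lt_mul_of_pos_left key r0
    nlinarith

/-- **the data of steps 9, 10 from bounds** : `cA`, `cP` are the values of the lines at the pick,
`E` the oscillation at the pick; `hb1` = the bounds on the wide cone (discs), `hb2` = the bounds on
the small two-sided cone, `hnc` = the oscillation at the pick, `hgr` = growth. -/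
theorem nl9_data (W : W5 Λ H F q b m Ψ Mj Mk B A P c k K y₀ u₀ σ s al p th J) {y u r : ℕ → ℝ}
    (S : Sq A y₀ u₀ y u) (hr : Tendsto r atTop (𝓝[>] 0)) (T : Tou H P c u₀ σ th y u)
    {𝒰 : Ultrafilter ℕ} (hU : (𝒰 : Filter ℕ) ≤ atTop) {cA cP : ℕ → ℂ} {E : ℕ → ℝ}
    (hE : ∀ᶠ n in (𝒰 : Filter ℕ), 0 < E n)
    (hb1 : ∀ X ⊆ Wc (s - σ), IsCompact X → ∃ C : ℝ, ∀ᶠ n in (𝒰 : Filter ℕ), ∀ z ∈ X,
      ‖al (kpt (P (u n)).im (c u₀) σ (y n) (u n) (r n) z) - cA n‖ ≤ C * E n ∧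
      ‖p (kpt (P (u n)).im (c u₀) σ (y n) (u n) (r n) z) - cP n‖ ≤ C * E n)
    (hb2 : ∀ X ⊆ SC (K + |σ| + 1), IsCompact X → ∃ C : ℝ, ∀ᶠ n in (𝒰 : Filter ℕ), ∀ z ∈ X,
      ‖al (kpt (P (u n)).im (c u₀) σ (y n) (u n) (r n) z) - cA n‖ ≤ C * E n ∧
      ‖p (kpt (P (u n)).im (c u₀) σ (y n) (u n) (r n) z) - cP n‖ ≤ C * E n)
    {x₁ x₂ : ℂ × ℂ} (hx₁ : x₁ ∈ SC (K + |σ| + 1)) (hx₂ : x₂ ∈ SC (K + |σ| + 1))
    {v₁ v₂ : ℕ → ℂ × ℂ} (hv₁ : Tendsto v₁ 𝒰 (𝓝 x₁)) (hv₂ : Tendsto v₂ 𝒰 (𝓝 x₂)) {c' : ℝ}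
    (hc' : 0 < c') (hnc : ∀ᶠ n in (𝒰 : Filter ℕ), c' * E n ≤
      ‖al (kpt (P (u n)).im (c u₀) σ (y n) (u n) (r n) (v₁ n)) -
        al (kpt (P (u n)).im (c u₀) σ (y n) (u n) (r n) (v₂ n))‖ +
      ‖p (kpt (P (u n)).im (c u₀) σ (y n) (u n) (r n) (v₁ n)) -
        p (kpt (P (u n)).im (c u₀) σ (y n) (u n) (r n) (v₂ n))‖) {θ : ℝ}
    (hgr : ∀ s'' < s - σ, ∀ M : ℝ, ∃ A₁ : ℝ, ∀ z ∈ Wc (s - σ), 1 ≤ z.2.im →
      z.1.im ≤ s'' * z.2.im → ‖z‖ ≤ M * z.2.im → ∀ᶠ n in (𝒰 : Filter ℕ),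
      ‖al (kpt (P (u n)).im (c u₀) σ (y n) (u n) (r n) z) - cA n‖ ≤ A₁ * (1 + ‖z‖) ^ θ * E n ∧
      ‖p (kpt (P (u n)).im (c u₀) σ (y n) (u n) (r n) z) - cP n‖ ≤ A₁ * (1 + ‖z‖) ^ θ * E n) :
    ∃ A' P' : ℂ × ℂ → ℂ, NL9 (𝒰 : Filter ℕ) H F q (s - σ)
      (fun n z => al (kpt (P (u n)).im (c u₀) σ (y n) (u n) (r n) z))
      (fun n z => p (kpt (P (u n)).im (c u₀) σ (y n) (u n) (r n) z))
      (fun n z => th (kpt (P (u n)).im (c u₀) σ (y n) (u n) (r n) z))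
      (fun n z => J ((u n : ℂ) + r n * z.2) / J u₀) A' P' (fun _ => 1) cA cP (fun n => (E n : ℂ))
      (fun n => J u₀ * (r n : ℂ) ^ 2) ∧
      (∀ s'' < s - σ, ∀ M : ℝ, ∃ A : ℝ, ∀ z ∈ Wc (s - σ), 1 ≤ z.2.im →
        z.1.im ≤ s'' * z.2.im → ‖z‖ ≤ M * z.2.im → ‖A' z‖ ≤ A * (1 + ‖z‖) ^ θ) ∧
      (∀ s'' < s - σ, ∀ M : ℝ, ∃ A : ℝ, ∀ z ∈ Wc (s - σ), 1 ≤ z.2.im →
        z.1.im ≤ s'' * z.2.im → ‖z‖ ≤ M * z.2.im → ‖P' z‖ ≤ A * (1 + ‖z‖) ^ θ) := by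
  have hy := S.yt.mono_left hU
  have hu := S.ut.mono_left hU
  have huA : ∀ᶠ n in (𝒰 : Filter ℕ), u n ∈ A := Eventually.of_forall S.uA
  have hr' := hr.mono_left hU
  have hK1 : 0 ≤ K + |σ| + 1 := by have := W.K0; positivity
  obtain ⟨A', P', dA, dP, tA, tP, nc, gr⟩ := H830.NC.nc_transfer (𝒰 := 𝒰) (D₁ := Wc (s - σ))
    (D₂ := SC (K + |σ| + 1)) (isOpen_Wc _) (convex_Wc _) (isOpen_SC _) (convex_SC hK1)
    (SC_meet hK1 (sub_pos.2 W.σs))
    (a := fun n z => al (kpt (P (u n)).im (c u₀) σ (y n) (u n) (r n) z))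
    (p := fun n z => p (kpt (P (u n)).im (c u₀) σ (y n) (u n) (r n) z)) (ca := cA) (cp := cP)
    (ε := E) hE
    (by
      intro X hX hXc
      obtain ⟨C, hC⟩ := hb1 X hX hXc
      refine ⟨C, ?_⟩
      filter_upwards [hC, w5_hd W hy hu huA hr' hX hXc] with n h1 h2 z hz
      exact ⟨(h2 z hz).1, (h2 z hz).2.1, h1 z hz⟩)
    (by
      intro X hX hXc
      obtain ⟨C, hC⟩ := hb2 X hX hXc
      refine ⟨C, ?_⟩
      filter_upwards [hC, w5_sc W hy hu huA hr' hXc hX] with n h1 h2 z hz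
      have h3 : Mk ∈ 𝓝 (kpt (P (u n)).im (c u₀) σ (y n) (u n) (r n) z) :=
        W.rhk.dn.op.mem_nhds (W.Bk (h2 z hz))
      have h5 := (hasFDerivAt_kpt (P (u n)).im (c u₀) σ (y n) (u n) (r n) z).differentiableAt
      exact ⟨DifferentiableAt.comp z (W.dal.differentiableAt h3) h5,
        DifferentiableAt.comp z (W.dp.differentiableAt h3) h5, h1 z hz⟩)
    hx₁ hx₂ hv₁ hv₂ hc' hnc
  refine ⟨A', P', nl9_of W S hr T hU ?_ (dA.mono subset_union_left) (dP.mono subset_union_left)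
    (tA.mono subset_union_left) (tP.mono subset_union_left) nc, ?_, ?_⟩
  · filter_upwards [hE] with n hn
    exact_mod_cast hn.ne'
  · intro s'' hs'' M
    obtain ⟨A₁, hA₁⟩ := hgr s'' hs'' M
    exact ⟨A₁, fun z hz h1 h2 h3 => (gr z (Or.inl hz) _ (hA₁ z hz h1 h2 h3)).1⟩
  · intro s'' hs'' M
    obtain ⟨A₁, hA₁⟩ := hgr s'' hs'' M
    exact ⟨A₁, fun z hz h1 h2 h3 => (gr z (Or.inl hz) _ (hA₁ z hz h1 h2 h3)).2⟩

end

end Vale.Agent.P097.H839.Tan
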