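import Vale.Agent.P097.H839.Tan.TEnd
import Vale.Agent.P097.H330.TC.St10

/-!
# P097 / block (T) : bounds of the normalised lines along picks are impossible (over `W5`)
-/

set_option linter.all false

open Set Filter Metric Topology MeasureTheory

namespace Vale.Agent.P097.H839.Tan

open Vale.Agent.P097.TC
open Vale.Agent.P097.H920 (ExtM)
open Vale.Agent.P097.H845 (jac)
open Vale.Agent.P097.H100 (Wc isOpen_Wc)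
open Vale.Agent.P097.H929 (kpt kpt_eq bpt lsh lsh_im continuous_lsh Gc blow_dom ev_of)
open Vale.Agent.P097.A5 (W5 Sq Tou Dm)

section
variable {Λ H : ℝ} {F q : ℂ → ℂ} {b m : ℝ} {Ψ : ℂ → ℂ} {Mj Mk B : Set (ℂ × ℂ)} {A : Set ℝ}
  {P : ℝ → ℂ} {c k : ℝ → ℝ} {K s y₀ u₀ σ : ℝ} {al p th : ℂ × ℂ → ℂ} {J : ℂ → ℂ}

/-- steps 9 and 10 over the world, from convergence of the normalised lines -/
theorem no_w5 (W : W5 Λ H F q b m Ψ Mj Mk B A P c k K y₀ u₀ σ s al p th J) {y u r : ℕ → ℝ}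
    (S : Sq A y₀ u₀ y u) (hr : Tendsto r atTop (𝓝[>] 0)) (T : Tou H P c u₀ σ th y u)
    {𝒰 : Ultrafilter ℕ} (hU : (𝒰 : Filter ℕ) ≤ atTop) {A' P' : ℂ × ℂ → ℂ} {cA cP e : ℕ → ℂ}
    (he0 : ∀ᶠ n in (𝒰 : Filter ℕ), e n ≠ 0) (dA : DifferentiableOn ℂ A' (Wc (s - σ)))
    (dP : DifferentiableOn ℂ P' (Wc (s - σ)))
    (Al : TendstoLocallyUniformlyOn (fun n z =>
      (al (kpt (P (u n)).im (c u₀) σ (y n) (u n) (r n) z) - cA n) / e n) A' (𝒰 : Filter ℕ)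
      (Wc (s - σ)))
    (Pl : TendstoLocallyUniformlyOn (fun n z =>
      (p (kpt (P (u n)).im (c u₀) σ (y n) (u n) (r n) z) - cP n) / e n) P' (𝒰 : Filter ℕ)
      (Wc (s - σ)))
    (nc : ∃ z ∈ Wc (s - σ), fderiv ℂ A' z ≠ 0 ∨ fderiv ℂ P' z ≠ 0) {M : ℕ → ℤ} {C : ℝ}
    (he : ∀ᶠ n in (𝒰 : Filter ℕ), ‖e n‖ ≤ C)
    (hcA : ∀ᶠ n in (𝒰 : Filter ℕ), ‖cA n - 2 * Real.pi * M n‖ ≤ C)
    (hcP : ∀ᶠ n in (𝒰 : Filter ℕ), ‖cP n‖ ≤ C)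
    {zb : ℂ × ℂ} (hzb : zb.1.im < 0 ∧ 0 < zb.2.im) {c0 : ℝ} (hc0 : 0 < c0)
    (hmid : ∀ᶠ n in (𝒰 : Filter ℕ),
      |(th (kpt (P (u n)).im (c u₀) σ (y n) (u n) (r n) zb)).im| ≤ H - c0) {θ : ℝ} (hθ : θ < 1)
    (hgA : ∀ s'' < s - σ, ∀ M : ℝ, ∃ A : ℝ, ∀ z ∈ Wc (s - σ), 1 ≤ z.2.im →
      z.1.im ≤ s'' * z.2.im → ‖z‖ ≤ M * z.2.im → ‖A' z‖ ≤ A * (1 + ‖z‖) ^ θ)
    (hgP : ∀ s'' < s - σ, ∀ M : ℝ, ∃ A : ℝ, ∀ z ∈ Wc (s - σ), 1 ≤ z.2.im →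
      z.1.im ≤ s'' * z.2.im → ‖z‖ ≤ M * z.2.im → ‖P' z‖ ≤ A * (1 + ‖z‖) ^ θ) : False :=
  Vale.Agent.P097.H330.T10.no_NL9 𝒰 (sub_pos.2 W.σs) W.crv.cv W.crv.cv.b0 W.crv.Fp W.crv.qp
    (nl9_of W S hr T hU he0 dA dP Al Pl nc) he hcA hcP (hth_of W S hr hU) hzb hc0 hmid hθ hgA hgP

/-- **block (T), end** : with bounds of the normalised lines on the wide cone, growth of exponent
less than 1, and oscillation of size `E n` on a compact of the wide cone: contradiction -/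
theorem t_end (W : W5 Λ H F q b m Ψ Mj Mk B A P c k K y₀ u₀ σ s al p th J) {y u r : ℕ → ℝ}
    (S : Sq A y₀ u₀ y u) (hr : Tendsto r atTop (𝓝[>] 0)) (T : Tou H P c u₀ σ th y u)
    {𝒰 : Ultrafilter ℕ} (hU : (𝒰 : Filter ℕ) ≤ atTop) {cA cP : ℕ → ℂ} {E : ℕ → ℝ}
    (hE : ∀ᶠ n in (𝒰 : Filter ℕ), 0 < E n) {M : ℕ → ℤ} {C : ℝ}
    (hE1 : ∀ᶠ n in (𝒰 : Filter ℕ), E n ≤ C)
    (hcA : ∀ᶠ n in (𝒰 : Filter ℕ), ‖cA n - 2 * Real.pi * M n‖ ≤ C)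
    (hcP : ∀ᶠ n in (𝒰 : Filter ℕ), ‖cP n‖ ≤ C)
    (hb1 : ∀ X ⊆ Wc (s - σ), IsCompact X → ∃ C : ℝ, ∀ᶠ n in (𝒰 : Filter ℕ), ∀ z ∈ X,
      ‖al (kpt (P (u n)).im (c u₀) σ (y n) (u n) (r n) z) - cA n‖ ≤ C * E n ∧
      ‖p (kpt (P (u n)).im (c u₀) σ (y n) (u n) (r n) z) - cP n‖ ≤ C * E n)
    {X₀ : Set (ℂ × ℂ)} (hX₀ : IsCompact X₀) (hX₀W : X₀ ⊆ Wc (s - σ)) {c' : ℝ}
    (hc' : 0 < c') (hnc : ∀ᶠ n in (𝒰 : Filter ℕ), ∃ v₁ ∈ X₀, ∃ v₂ ∈ X₀, c' * E n ≤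
      ‖al (kpt (P (u n)).im (c u₀) σ (y n) (u n) (r n) v₁) -
        al (kpt (P (u n)).im (c u₀) σ (y n) (u n) (r n) v₂)‖ +
      ‖p (kpt (P (u n)).im (c u₀) σ (y n) (u n) (r n) v₁) -
        p (kpt (P (u n)).im (c u₀) σ (y n) (u n) (r n) v₂)‖)
    {zb : ℂ × ℂ} (hzb : zb.1.im < 0 ∧ 0 < zb.2.im) {c0 : ℝ} (hc0 : 0 < c0)
    (hmid : ∀ᶠ n in (𝒰 : Filter ℕ),
      |(th (kpt (P (u n)).im (c u₀) σ (y n) (u n) (r n) zb)).im| ≤ H - c0) {θ : ℝ} (hθ : θ < 1)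
    (hgr : ∀ s'' < s - σ, ∀ M : ℝ, ∃ A₁ : ℝ, ∀ z ∈ Wc (s - σ), 1 ≤ z.2.im →
      z.1.im ≤ s'' * z.2.im → ‖z‖ ≤ M * z.2.im → ∀ᶠ n in (𝒰 : Filter ℕ),
      ‖al (kpt (P (u n)).im (c u₀) σ (y n) (u n) (r n) z) - cA n‖ ≤ A₁ * (1 + ‖z‖) ^ θ * E n ∧
      ‖p (kpt (P (u n)).im (c u₀) σ (y n) (u n) (r n) z) - cP n‖ ≤ A₁ * (1 + ‖z‖) ^ θ * E n) :
    False := by
  have hy := S.yt.mono_left hU
  have hu := S.ut.mono_left hU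
  have huA : ∀ᶠ n in (𝒰 : Filter ℕ), u n ∈ A := Eventually.of_forall S.uA
  have hr' := hr.mono_left hU
  -- the points of oscillation converge
  have hch : ∃ v₁ v₂ : ℕ → ℂ × ℂ, ∀ᶠ n in (𝒰 : Filter ℕ), v₁ n ∈ X₀ ∧ v₂ n ∈ X₀ ∧ c' * E n ≤
      ‖al (kpt (P (u n)).im (c u₀) σ (y n) (u n) (r n) (v₁ n)) -
        al (kpt (P (u n)).im (c u₀) σ (y n) (u n) (r n) (v₂ n))‖ +
      ‖p (kpt (P (u n)).im (c u₀) σ (y n) (u n) (r n) (v₁ n)) -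
        p (kpt (P (u n)).im (c u₀) σ (y n) (u n) (r n) (v₂ n))‖ := by
    obtain ⟨v, hv⟩ := hnc.choice
    obtain ⟨w, hw⟩ := (hv.mono fun n hn => hn.2).choice
    refine ⟨v, w, ?_⟩
    filter_upwards [hv, hw] with n h1 h2
    exact ⟨h1.1, h2.1, h2.2⟩
  obtain ⟨v₁, v₂, hv⟩ := hch
  obtain ⟨x₁, hx₁, hl₁⟩ := hX₀.ultrafilter_le_nhds (𝒰.map v₁)
    (by rw [Ultrafilter.coe_map, le_principal_iff]; exact hv.mono fun n hn => hn.1)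
  obtain ⟨x₂, hx₂, hl₂⟩ := hX₀.ultrafilter_le_nhds (𝒰.map v₂)
    (by rw [Ultrafilter.coe_map, le_principal_iff]; exact hv.mono fun n hn => hn.2.1)
  have hbd : ∀ X ⊆ Wc (s - σ), IsCompact X → ∃ C : ℝ, ∀ᶠ n in (𝒰 : Filter ℕ), ∀ z ∈ X,
      DifferentiableAt ℂ (fun z => al (kpt (P (u n)).im (c u₀) σ (y n) (u n) (r n) z)) z ∧
      DifferentiableAt ℂ (fun z => p (kpt (P (u n)).im (c u₀) σ (y n) (u n) (r n) z)) z ∧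
      ‖al (kpt (P (u n)).im (c u₀) σ (y n) (u n) (r n) z) - cA n‖ ≤ C * E n ∧
      ‖p (kpt (P (u n)).im (c u₀) σ (y n) (u n) (r n) z) - cP n‖ ≤ C * E n := by
    intro X hX hXc
    obtain ⟨C, hC⟩ := hb1 X hX hXc
    refine ⟨C, ?_⟩
    filter_upwards [hC, w5_hd W hy hu huA hr' hX hXc] with n h1 h2 z hz
    exact ⟨(h2 z hz).1, (h2 z hz).2.1, h1 z hz⟩
  have hsσ := sub_pos.2 W.σs
  have hne : (Wc (s - σ) ∩ Wc (s - σ)).Nonempty := by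
    rw [inter_self]
    exact ⟨_, sig_mem hsσ 0 (w₀ := Complex.I) (by simp)⟩
  obtain ⟨A', P', dA, dP, tA, tP, nc, gr⟩ := H830.NC.nc_transfer (𝒰 := 𝒰) (D₁ := Wc (s - σ))
    (D₂ := Wc (s - σ)) (isOpen_Wc _) (convex_Wc _) (isOpen_Wc _) (convex_Wc _) hne
    (a := fun n z => al (kpt (P (u n)).im (c u₀) σ (y n) (u n) (r n) z))
    (p := fun n z => p (kpt (P (u n)).im (c u₀) σ (y n) (u n) (r n) z)) (ca := cA) (cp := cP)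
    (ε := E) hE hbd hbd (hX₀W hx₁) (hX₀W hx₂) (u := v₁) (v := v₂) hl₁ hl₂ hc'
    (hv.mono fun n hn => hn.2.2)
  rw [union_self] at dA dP tA tP
  refine no_w5 W S hr T hU (cA := cA) (cP := cP) (e := fun n => (E n : ℂ)) ?_ dA dP tA tP nc
    (M := M) (C := C) ?_ hcA hcP hzb hc0 hmid hθ ?_ ?_
  · filter_upwards [hE] with n hn
    exact_mod_cast hn.ne'
  · filter_upwards [hE, hE1] with n h1 h2
    rw [Complex.norm_real, Real.norm_of_nonneg h1.le]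
    exact h2
  · intro s'' hs'' M
    obtain ⟨A₁, hA₁⟩ := hgr s'' hs'' M
    exact ⟨A₁, fun z hz h1 h2 h3 => (gr z (Or.inl hz) _ (hA₁ z hz h1 h2 h3)).1⟩
  · intro s'' hs'' M
    obtain ⟨A₁, hA₁⟩ := hgr s'' hs'' M
    exact ⟨A₁, fun z hz h1 h2 h3 => (gr z (Or.inl hz) _ (hA₁ z hz h1 h2 h3)).2⟩

end

end Vale.Agent.P097.H839.Tan
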