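import Vale.Agent.P097.H839.Tan.TFin
import Vale.Agent.P097.H560.Back2
import Vale.Agent.P097.H624.T.Mid

/-!
# P097 / block (T) : the end of the proof in straight coordinates at the pick
-/

set_option linter.all false

open Set Filter Metric Topology MeasureTheory

namespace Vale.Agent.P097.H839.Tan

open Vale.Agent.P097.TC
open Vale.Agent.P097.H100 (Wc isOpen_Wc)
open Vale.Agent.P097.H929 (kpt kpt_eq)
open Vale.Agent.P097.A5 (W5 Sq Tou Dm)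
open Vale.Agent.P097.H560 (Sx Zt Tl back_close Sx_Zt' Sx_mem cmpU_cont continuous_Tl)
open Vale.Agent.P097.H226.W (Bx Qu Md)

/-- composition of locally uniform limits -/
theorem lu_move {ι E E' : Type*} {l : Filter ι} [PseudoMetricSpace E] [PseudoMetricSpace E']
    {f : ι → E → ℂ} {f' : E → ℂ} {D : Set E} (hD : IsOpen D)
    (hf : TendstoLocallyUniformlyOn f f' l D) (hf' : ContinuousOn f' D) {g : ι → E' → E}
    {g' : E' → E} {D' : Set E'} (hD' : IsOpen D') (hg : TendstoLocallyUniformlyOn g g' l D')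
    (hg' : ContinuousOn g' D') (hm : MapsTo g' D' D) :
    TendstoLocallyUniformlyOn (fun n z => f n (g n z)) (fun z => f' (g' z)) l D' := by
  rw [Metric.tendstoLocallyUniformlyOn_iff] at hf hg ⊢
  intro η hη z hz
  have hp := hm hz
  obtain ⟨t, ht, h1⟩ := hf (η / 2) (half_pos hη) (g' z) hp
  rw [nhdsWithin_eq_nhds.2 (hD.mem_nhds hp)] at ht
  have hc : ContinuousAt f' (g' z) := hf'.continuousAt (hD.mem_nhds hp)
  have h2 : {y | dist (f' y) (f' (g' z)) < η / 4} ∈ 𝓝 (g' z) :=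
    Metric.tendsto_nhds.1 hc (η / 4) (by positivity)
  obtain ⟨ρ, hρ, h3⟩ := Metric.nhds_basis_ball.mem_iff.1 (inter_mem ht h2)
  have hcg : ContinuousAt g' z := hg'.continuousAt (hD'.mem_nhds hz)
  have h4 : {y | dist (g' y) (g' z) < ρ / 2} ∈ 𝓝 z :=
    Metric.tendsto_nhds.1 hcg (ρ / 2) (half_pos hρ)
  obtain ⟨t', ht', h5⟩ := hg (ρ / 2) (half_pos hρ) z hz
  refine ⟨t' ∩ {y | dist (g' y) (g' z) < ρ / 2}, inter_mem ht' (mem_nhdsWithin_of_mem_nhds h4), ?_⟩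
  filter_upwards [h1, h5] with n k1 k2 y hy
  have e1 : dist (g' y) (g n y) < ρ / 2 := k2 y hy.1
  have e2 : dist (g' y) (g' z) < ρ / 2 := hy.2
  have e3 : g n y ∈ ball (g' z) ρ := by
    rw [mem_ball]
    refine (dist_triangle _ (g' y) _).trans_lt ?_
    rw [dist_comm (g n y)]
    linarith
  have e4 : g' y ∈ ball (g' z) ρ := by
    rw [mem_ball]; linarith
  have e5 := k1 (g n y) (h3 e3).1
  have e6 : dist (f' (g n y)) (f' (g' z)) < η / 4 := (h3 e3).2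
  have e7 : dist (f' (g' y)) (f' (g' z)) < η / 4 := (h3 e4).2
  calc dist (f' (g' y)) (f n (g n y)) ≤ dist (f' (g' y)) (f' (g' z)) + dist (f' (g' z)) (f' (g n y)) +
        dist (f' (g n y)) (f n (g n y)) := dist_triangle4 _ _ _ _
    _ < η := by rw [dist_comm (f' (g' z))]; linarith

section
variable {Λ H : ℝ} {F q : ℂ → ℂ} {b m : ℝ} {Ψ : ℂ → ℂ} {Mj Mk B : Set (ℂ × ℂ)} {A : Set ℝ}
  {P : ℝ → ℂ} {c k : ℝ → ℝ} {K s y₀ u₀ σ : ℝ} {al p th : ℂ × ℂ → ℂ} {J : ℂ → ℂ}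

/-- steps 9 and 10 over the world, on a smaller cone -/
theorem no_w5' (W : W5 Λ H F q b m Ψ Mj Mk B A P c k K y₀ u₀ σ s al p th J) {y u r : ℕ → ℝ}
    (S : Sq A y₀ u₀ y u) (hr : Tendsto r atTop (𝓝[>] 0)) (T : Tou H P c u₀ σ th y u)
    {𝒰 : Ultrafilter ℕ} (hU : (𝒰 : Filter ℕ) ≤ atTop) {s' : ℝ} (hs0 : 0 < s') (hs' : s' ≤ s - σ)
    {A' P' : ℂ × ℂ → ℂ} {cA cP e : ℕ → ℂ}
    (he0 : ∀ᶠ n in (𝒰 : Filter ℕ), e n ≠ 0) (dA : DifferentiableOn ℂ A' (Wc s'))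
    (dP : DifferentiableOn ℂ P' (Wc s'))
    (Al : TendstoLocallyUniformlyOn (fun n z =>
      (al (kpt (P (u n)).im (c u₀) σ (y n) (u n) (r n) z) - cA n) / e n) A' (𝒰 : Filter ℕ) (Wc s'))
    (Pl : TendstoLocallyUniformlyOn (fun n z =>
      (p (kpt (P (u n)).im (c u₀) σ (y n) (u n) (r n) z) - cP n) / e n) P' (𝒰 : Filter ℕ) (Wc s'))
    (nc : ∃ z ∈ Wc s', fderiv ℂ A' z ≠ 0 ∨ fderiv ℂ P' z ≠ 0) {M : ℕ → ℤ} {C : ℝ}
    (he : ∀ᶠ n in (𝒰 : Filter ℕ), ‖e n‖ ≤ C)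
    (hcA : ∀ᶠ n in (𝒰 : Filter ℕ), ‖cA n - 2 * Real.pi * M n‖ ≤ C)
    (hcP : ∀ᶠ n in (𝒰 : Filter ℕ), ‖cP n‖ ≤ C)
    {zb : ℂ × ℂ} (hzb : zb.1.im < 0 ∧ 0 < zb.2.im) {c0 : ℝ} (hc0 : 0 < c0)
    (hmid : ∀ᶠ n in (𝒰 : Filter ℕ),
      |(th (kpt (P (u n)).im (c u₀) σ (y n) (u n) (r n) zb)).im| ≤ H - c0) {θ : ℝ} (hθ : θ < 1)
    (hgA : ∀ s'' < s', ∀ M : ℝ, ∃ A : ℝ, ∀ z ∈ Wc s', 1 ≤ z.2.im →
      z.1.im ≤ s'' * z.2.im → ‖z‖ ≤ M * z.2.im → ‖A' z‖ ≤ A * (1 + ‖z‖) ^ θ)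
    (hgP : ∀ s'' < s', ∀ M : ℝ, ∃ A : ℝ, ∀ z ∈ Wc s', 1 ≤ z.2.im →
      z.1.im ≤ s'' * z.2.im → ‖z‖ ≤ M * z.2.im → ‖P' z‖ ≤ A * (1 + ‖z‖) ^ θ) : False := by
  have hsub : Wc s' ⊆ Wc (s - σ) := fun z hz =>
    ⟨hz.1, lt_of_lt_of_le hz.2 (mul_le_mul_of_nonneg_right hs' hz.1.le)⟩
  have N : NL9 (𝒰 : Filter ℕ) H F q s'
      (fun n z => al (kpt (P (u n)).im (c u₀) σ (y n) (u n) (r n) z))
      (fun n z => p (kpt (P (u n)).im (c u₀) σ (y n) (u n) (r n) z))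
      (fun n z => th (kpt (P (u n)).im (c u₀) σ (y n) (u n) (r n) z))
      (fun n z => J ((u n : ℂ) + r n * z.2) / J u₀) A' P' (fun _ => 1) cA cP e
      (fun n => J u₀ * (r n : ℂ) ^ 2) :=
    { e0 := he0
      J0 := by
        have h3 : ∀ᶠ n in (𝒰 : Filter ℕ), 0 < r n :=
          (hr.mono_left hU).eventually self_mem_nhdsWithin
        filter_upwards [h3] with n hn
        have h4 : (r n : ℂ) ≠ 0 := by exact_mod_cast hn.ne'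
        exact mul_ne_zero W.J0 (pow_ne_zero 2 h4)
      hd := fun X hXG hX => w5_hd W (S.yt.mono_left hU) (S.ut.mono_left hU)
        (Eventually.of_forall S.uA) (hr.mono_left hU) (hXG.trans hsub) hX
      χl := w5_chi W (S.ut.mono_left hU) (hr.mono_left hU) _
      χc := continuousOn_const
      χ0 := fun z _ => one_ne_zero
      dA := dA
      dP := dP
      Al := Al
      Pl := Pl
      nc := nc
      rt := by
        intro X hX hXG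
        filter_upwards [w5_rt W (S.yt.mono_left hU) (S.ut.mono_left hU)
          (Eventually.of_forall S.uA) (hr.mono_left hU) hX hXG] with n hn z hz
        obtain ⟨h1, h2, h3, h4⟩ := hn z hz
        exact ⟨h1.continuousAt, h3, h4⟩
      touch := by
        intro a w₀ hw hw' δ hδ
        obtain ⟨ε, hε, h1⟩ := tou_extM (F := F) (q := q) T hr
          (al' := fun n z => al (kpt (P (u n)).im (c u₀) σ (y n) (u n) (r n) z))
          (p' := fun n z => p (kpt (P (u n)).im (c u₀) σ (y n) (u n) (r n) z)) a hw hw' hδ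
        exact ⟨ε, hε, h1.filter_mono hU⟩ }
  exact Vale.Agent.P097.H330.T10.no_NL9 𝒰 hs0 W.crv.cv W.crv.cv.b0 W.crv.Fp W.crv.qp
    N he hcA hcP (hth_of W S hr hU) hzb hc0 hmid hθ hgA hgP

/-- the chart change converges -/
theorem zt_tlu {l : Filter ℕ} (W : W5 Λ H F q b m Ψ Mj Mk B A P c k K y₀ u₀ σ s al p th J)
    {x v y a r : ℕ → ℝ} (haA : ∀ᶠ n in l, a n ∈ A) (hat : Tendsto a l (𝓝 u₀))
    (hr : Tendsto r l (𝓝[>] 0))
    (hx : Tendsto (fun n => (y n - (P (a n)).re - x n) / r n) l (𝓝 0))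
    (hv : Tendsto (fun n => (a n - v n) / r n) l (𝓝 0)) :
    TendstoLocallyUniformlyOn (fun n z =>
      Zt Ψ (P (a n)).im (c u₀) σ (y n) (a n) (r n) (x n) (v n) z) (Tl (σ - k u₀)) l
      {z : ℂ × ℂ | 0 < z.2.im} := by
  have hO : IsOpen {z : ℂ × ℂ | 0 < z.2.im} :=
    isOpen_lt continuous_const (Complex.continuous_im.comp continuous_snd)
  rw [Metric.tendstoLocallyUniformlyOn_iff]
  intro η hη z hz
  obtain ⟨ρ, hρ, h1⟩ := Metric.nhds_basis_closedBall.mem_iff.1 (hO.mem_nhds hz)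
  obtain ⟨d, hd, r₀, hr₀, hb⟩ := back_close W.Uk W.u0 σ (isCompact_closedBall z ρ) h1
    (half_pos hη)
  refine ⟨closedBall z ρ, mem_nhdsWithin_of_mem_nhds (closedBall_mem_nhds z hρ), ?_⟩
  have e1 : ∀ᶠ n in l, |a n - u₀| < d := by
    have := Metric.tendsto_nhds.1 hat d hd
    simpa [Real.dist_eq] using this
  have e2 : ∀ᶠ n in l, 0 < r n ∧ r n < r₀ := hr.eventually (Ioo_mem_nhdsGT hr₀)
  have e3 : ∀ᶠ n in l, |(y n - (P (a n)).re - x n) / r n| < d := by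
    have := Metric.tendsto_nhds.1 hx d hd
    simpa only [Real.dist_eq, sub_zero] using this
  have e4 : ∀ᶠ n in l, |(a n - v n) / r n| < d := by
    have := Metric.tendsto_nhds.1 hv d hd
    simpa only [Real.dist_eq, sub_zero] using this
  filter_upwards [e1, e2, e3, e4, haA] with n k1 k2 k3 k4 k5 z' hz'
  have k6 : |y n - (P (a n)).re - x n| ≤ d * r n := by
    rw [abs_div, abs_of_pos k2.1, div_lt_iff₀ k2.1] at k3
    exact k3.le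
  have k7 : |a n - v n| ≤ d * r n := by
    rw [abs_div, abs_of_pos k2.1, div_lt_iff₀ k2.1] at k4
    exact k4.le
  have := hb (a n) k5 k1 (y n) (x n) (v n) (r n) k2.1 k2.2 k6 k7 z' hz'
  rw [dist_comm, dist_eq_norm]
  linarith

/-- a compact set of the straight tube is in the domain of the line -/
theorem st_wk {l : Filter ℕ} (W : W5 Λ H F q b m Ψ Mj Mk B A P c k K y₀ u₀ σ s al p th J)
    {x v r : ℕ → ℝ} (hvt : Tendsto v l (𝓝 u₀)) (hxt : Tendsto x l (𝓝 (y₀ - (P u₀).re)))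
    (hr : Tendsto r l (𝓝[>] 0)) {δ : ℝ} (hδ' : δ ≤ s - k u₀) {X : Set (ℂ × ℂ)}
    (hX : IsCompact X) (hXW : X ⊆ Wc δ) :
    ∀ᶠ n in l, ∀ z ∈ X, DifferentiableAt ℂ (Sx Ψ (x n) (v n) (r n)) z ∧
      Sx Ψ (x n) (v n) (r n) z ∈ Mk := by
  -- the gap
  obtain ⟨γ, hγ, hsub2⟩ : ∃ γ > 0, X ⊆ Wc (δ - 2 * γ) := by
    rcases X.eq_empty_or_nonempty with h | h
    · exact ⟨1, one_pos, by simp [h]⟩
    have hcont : ContinuousOn (fun z : ℂ × ℂ => (δ * z.2.im - z.1.im) / z.2.im) X := by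
      refine ContinuousOn.div ?_ ?_ fun z hz => (hXW hz).1.ne'
      · fun_prop
      · fun_prop
    obtain ⟨z₁, hz₁, hmin⟩ := hX.exists_isMinOn h hcont
    have hpos : 0 < (δ * z₁.2.im - z₁.1.im) / z₁.2.im :=
      div_pos (by have : z₁.1.im < δ * z₁.2.im := (hXW hz₁).2
                  linarith) (hXW hz₁).1
    refine ⟨(δ * z₁.2.im - z₁.1.im) / z₁.2.im / 4, by positivity, fun z hz => ?_⟩
    have h1 : (δ * z₁.2.im - z₁.1.im) / z₁.2.im ≤ (δ * z.2.im - z.1.im) / z.2.im := hmin hz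
    have h2 : 0 < z.2.im := (hXW hz).1
    refine ⟨h2, ?_⟩
    have h3 : 2 * ((δ * z₁.2.im - z₁.1.im) / z₁.2.im / 4) < (δ * z.2.im - z.1.im) / z.2.im :=
      by linarith
    rw [lt_div_iff₀ h2] at h3
    show z.1.im < (δ - 2 * _) * z.2.im
    linarith
  obtain ⟨d, hd, ρ₀, hρ₀, h⟩ := Sx_mem W.rhk W.Uj W.Uk W.bm W.u0 (W.regk γ hγ) (γ := γ) hγ
  obtain ⟨N₀, hN₀⟩ := hX.isBounded.exists_norm_le
  set N : ℝ := max 1 N₀ + 1 with hN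
  have hN1 : 1 < N := by
    have := le_max_left 1 N₀
    rw [hN]; linarith
  have hN0 : 0 < N := by linarith
  have hNz : ∀ z ∈ X, ‖z‖ < N := fun z hz => by
    have := (hN₀ z hz).trans (le_max_right 1 N₀)
    rw [hN]; linarith
  have e1 : ∀ᶠ n in l, |v n - u₀| < d := by
    have := Metric.tendsto_nhds.1 hvt d hd
    simpa [Real.dist_eq] using this
  have e2 : ∀ᶠ n in l, |x n - (y₀ - (P u₀).re)| < d := by
    have := Metric.tendsto_nhds.1 hxt d hd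
    simpa only [Real.dist_eq] using this
  have e3 : ∀ᶠ n in l, 0 < r n ∧ r n < ρ₀ / N := hr.eventually (Ioo_mem_nhdsGT (by positivity))
  filter_upwards [e1, e2, e3] with n k1 k2 k3 z hz
  have k4 : r n * N ≤ ρ₀ := by
    have := k3.2
    rw [lt_div_iff₀ hN0] at this
    exact this.le
  obtain ⟨g1, g2, -⟩ := h (v n) k1 (x n) k2 (r n * N) (mul_pos k3.1 hN0) k4
  have hfun : Sx Ψ (x n) (v n) (r n) =
      fun z => Sx Ψ (x n) (v n) (r n * N) (((1 / N : ℝ) : ℂ) • z) := by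
    funext z'
    rw [Vale.Agent.P097.H560.Sx_smul]
    congr 1
    field_simp
  have hz' : ((1 / N : ℝ) : ℂ) • z ∈ Bx 1 := by
    have a1 : ∀ t : ℂ, ‖t‖ ≤ ‖z‖ → |((((1 / N : ℝ)) : ℂ) * t).re| < 1 ∧
        |((((1 / N : ℝ)) : ℂ) * t).im| < 1 := by
      intro t ht
      have a2 : ‖(((1 / N : ℝ)) : ℂ) * t‖ < 1 := by
        rw [norm_mul, Complex.norm_real, Real.norm_of_nonneg (by positivity), one_div,
          inv_mul_lt_iff₀ hN0, mul_one]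
        exact ht.trans_lt (hNz z hz)
      exact ⟨(Complex.abs_re_le_norm _).trans_lt a2, (Complex.abs_im_le_norm _).trans_lt a2⟩
    exact ⟨(a1 _ (norm_fst_le z)).1, (a1 _ (norm_fst_le z)).2, (a1 _ (norm_snd_le z)).1,
      (a1 _ (norm_snd_le z)).2⟩
  obtain ⟨m1, m2⟩ := hsub2 hz
  have m3 : (((1 / N : ℝ) : ℂ) • z).2.im = (1 / N) * z.2.im := by
    show ((((1 / N : ℝ)) : ℂ) * z.2).im = _
    rw [Complex.im_ofReal_mul]
  have m4 : (((1 / N : ℝ) : ℂ) • z).1.im = (1 / N) * z.1.im := by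
    show ((((1 / N : ℝ)) : ℂ) * z.1).im = _
    rw [Complex.im_ofReal_mul]
  have m5 : 0 < (((1 / N : ℝ) : ℂ) • z).2.im := by
    rw [m3]
    exact mul_pos (by positivity) m1
  constructor
  · rw [hfun]
    have h1 : DifferentiableAt ℂ (fun z : ℂ × ℂ => ((1 / N : ℝ) : ℂ) • z) z := by fun_prop
    exact DifferentiableAt.comp z (g1 _ hz' m5).1 h1
  · rw [hfun]
    refine g2 (δ - 2 * γ) (by linarith) _ ⟨hz', m5, ?_⟩
    rw [m3, m4]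
    have m6 : z.1.im < (δ - 2 * γ) * z.2.im := m2
    have := mul_lt_mul_of_pos_left m6 (show 0 < 1 / N by positivity)
    linarith

theorem Tl_im (τ : ℝ) (z : ℂ × ℂ) : (Tl τ z).1.im = z.1.im + τ * z.2.im := by
  show (z.1 + (τ : ℂ) * z.2).im = _
  rw [Complex.add_im, Complex.im_ofReal_mul]

/-- the linear chart change -/
noncomputable def TlL (τ : ℝ) : ℂ × ℂ →L[ℂ] ℂ × ℂ :=
  (ContinuousLinearMap.fst ℂ ℂ ℂ + (τ : ℂ) • ContinuousLinearMap.snd ℂ ℂ ℂ).prod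
    (ContinuousLinearMap.snd ℂ ℂ ℂ)

theorem TlL_apply (τ : ℝ) (z : ℂ × ℂ) : TlL τ z = Tl τ z := by
  simp only [TlL, ContinuousLinearMap.prod_apply, ContinuousLinearMap.smul_apply,
    ContinuousLinearMap.add_apply, ContinuousLinearMap.coe_fst', ContinuousLinearMap.coe_snd',
    smul_eq_mul]
  rfl

theorem Tl_diff (τ : ℝ) (z : ℂ × ℂ) : HasFDerivAt (Tl τ) (TlL τ) z := by
  have : Tl τ = TlL τ := funext fun z => (TlL_apply τ z).symm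
  rw [this]
  exact (TlL τ).hasFDerivAt

theorem Tl_inv (τ : ℝ) (z : ℂ × ℂ) : Tl τ (Tl (-τ) z) = z := by
  refine Prod.ext ?_ rfl
  show z.1 + ((-τ : ℝ) : ℂ) * z.2 + (τ : ℂ) * z.2 = z.1
  push_cast; ring

/-- **the end of block (T) in straight coordinates**, real centre `(x n, v n)`, unit `r n`;
`a n` = label at distance `o(r n)` from `v n` -/
theorem t_end_st (W : W5 Λ H F q b m Ψ Mj Mk B A P c k K y₀ u₀ σ s al p th J)
    {x v y a r : ℕ → ℝ} (S : Sq A y₀ u₀ y a) (hr : Tendsto r atTop (𝓝[>] 0))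
    (T : Tou H P c u₀ σ th y a) {𝒰 : Ultrafilter ℕ} (hU : (𝒰 : Filter ℕ) ≤ atTop)
    (hx : Tendsto (fun n => (y n - (P (a n)).re - x n) / r n) (𝒰 : Filter ℕ) (𝓝 0))
    (hv : Tendsto (fun n => (a n - v n) / r n) (𝒰 : Filter ℕ) (𝓝 0)) {δ : ℝ}
    (hδ : σ - k u₀ < δ) (hδ' : δ ≤ s - k u₀) {cA cP : ℕ → ℂ} {E : ℕ → ℝ}
    (hE : ∀ᶠ n in (𝒰 : Filter ℕ), 0 < E n) {M : ℕ → ℤ} {C : ℝ}
    (hE1 : ∀ᶠ n in (𝒰 : Filter ℕ), E n ≤ C)
    (hcA : ∀ᶠ n in (𝒰 : Filter ℕ), ‖cA n - 2 * Real.pi * M n‖ ≤ C)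
    (hcP : ∀ᶠ n in (𝒰 : Filter ℕ), ‖cP n‖ ≤ C)
    (hb : ∀ X ⊆ H226.W.Wd δ, IsCompact X → ∃ C : ℝ, ∀ᶠ n in (𝒰 : Filter ℕ), ∀ z ∈ X,
      ‖al (Sx Ψ (x n) (v n) (r n) z) - cA n‖ ≤ C * E n ∧
      ‖p (Sx Ψ (x n) (v n) (r n) z) - cP n‖ ≤ C * E n)
    {X₀ : Set (ℂ × ℂ)} (hX₀ : IsCompact X₀) (hX₀W : X₀ ⊆ H226.W.Wd δ) {c' : ℝ}
    (hc' : 0 < c') (hnc : ∀ᶠ n in (𝒰 : Filter ℕ), ∃ v₁ ∈ X₀, ∃ v₂ ∈ X₀, c' * E n ≤
      ‖al (Sx Ψ (x n) (v n) (r n) v₁) - al (Sx Ψ (x n) (v n) (r n) v₂)‖ +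
      ‖p (Sx Ψ (x n) (v n) (r n) v₁) - p (Sx Ψ (x n) (v n) (r n) v₂)‖)
    {zb : ℂ × ℂ} (hzb : zb.1.im < 0 ∧ 0 < zb.2.im) {c0 : ℝ} (hc0 : 0 < c0)
    (hmid : ∀ᶠ n in (𝒰 : Filter ℕ),
      |(th (kpt (P (a n)).im (c u₀) σ (y n) (a n) (r n) zb)).im| ≤ H - c0)
    {θ : ℝ} (hθ0 : 0 ≤ θ) (hθ : θ < 1)
    (hgr : ∀ s'' < δ, ∀ M : ℝ, ∃ A₁ : ℝ, ∀ z ∈ H226.W.Wd δ, 1 ≤ z.2.im →
      z.1.im ≤ s'' * z.2.im → ‖z‖ ≤ M * z.2.im → ∀ᶠ n in (𝒰 : Filter ℕ),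
      ‖al (Sx Ψ (x n) (v n) (r n) z) - cA n‖ ≤ A₁ * (1 + ‖z‖) ^ θ * E n ∧
      ‖p (Sx Ψ (x n) (v n) (r n) z) - cP n‖ ≤ A₁ * (1 + ‖z‖) ^ θ * E n) : False := by
  set τ : ℝ := σ - k u₀ with hτ
  set s' : ℝ := δ - τ with hs'
  have hs0 : 0 < s' := by rw [hs']; linarith
  have hs1 : s' ≤ s - σ := by rw [hs', hτ]; linarith
  have hat : Tendsto a (𝒰 : Filter ℕ) (𝓝 u₀) := S.ut.mono_left hU
  have hyt : Tendsto y (𝒰 : Filter ℕ) (𝓝 y₀) := S.yt.mono_left hU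
  have haA : ∀ᶠ n in (𝒰 : Filter ℕ), a n ∈ A := Eventually.of_forall S.uA
  have hr' : Tendsto r (𝒰 : Filter ℕ) (𝓝[>] 0) := hr.mono_left hU
  have hrt : Tendsto r (𝒰 : Filter ℕ) (𝓝 0) := hr'.mono_right nhdsWithin_le_nhds
  have hrp : ∀ᶠ n in (𝒰 : Filter ℕ), 0 < r n := hr'.eventually self_mem_nhdsWithin
  -- the feet
  have hvt : Tendsto v (𝒰 : Filter ℕ) (𝓝 u₀) := by
    have h1 := hv.mul hrt
    rw [zero_mul] at h1
    have h2 := hat.sub h1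
    rw [sub_zero] at h2
    refine h2.congr' ?_
    filter_upwards [hrp] with n hn
    have := hn.ne'
    field_simp
    ring
  have hxt : Tendsto x (𝒰 : Filter ℕ) (𝓝 (y₀ - (P u₀).re)) := by
    obtain ⟨hPc, -, -⟩ := cmpU_cont W.Uk
    have haw : Tendsto a (𝒰 : Filter ℕ) (𝓝[A] u₀) := tendsto_nhdsWithin_iff.2 ⟨hat, haA⟩
    have h0 : Tendsto (fun n => (P (a n)).re) (𝒰 : Filter ℕ) (𝓝 (P u₀).re) :=
      (Complex.continuous_re.tendsto _).comp ((hPc u₀ W.u0).tendsto.comp haw)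
    have h1 := hx.mul hrt
    rw [zero_mul] at h1
    have h2 := (hyt.sub h0).sub h1
    rw [sub_zero] at h2
    refine h2.congr' ?_
    filter_upwards [hrp] with n hn
    have := hn.ne'
    field_simp
    ring
  -- the points of oscillation
  have hch : ∃ v₁ v₂ : ℕ → ℂ × ℂ, ∀ᶠ n in (𝒰 : Filter ℕ), v₁ n ∈ X₀ ∧ v₂ n ∈ X₀ ∧ c' * E n ≤
      ‖al (Sx Ψ (x n) (v n) (r n) (v₁ n)) - al (Sx Ψ (x n) (v n) (r n) (v₂ n))‖ +
      ‖p (Sx Ψ (x n) (v n) (r n) (v₁ n)) - p (Sx Ψ (x n) (v n) (r n) (v₂ n))‖ := by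
    obtain ⟨f, hf⟩ := hnc.choice
    obtain ⟨g, hg⟩ := (hf.mono fun n hn => hn.2).choice
    refine ⟨f, g, ?_⟩
    filter_upwards [hf, hg] with n h1 h2
    exact ⟨h1.1, h2.1, h2.2⟩
  obtain ⟨v₁, v₂, hvv⟩ := hch
  obtain ⟨x₁, hx₁, hl₁⟩ := hX₀.ultrafilter_le_nhds (𝒰.map v₁)
    (by rw [Ultrafilter.coe_map, le_principal_iff]; exact hvv.mono fun n hn => hn.1)
  obtain ⟨x₂, hx₂, hl₂⟩ := hX₀.ultrafilter_le_nhds (𝒰.map v₂)
    (by rw [Ultrafilter.coe_map, le_principal_iff]; exact hvv.mono fun n hn => hn.2.1)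
  have hbd : ∀ X ⊆ Wc δ, IsCompact X → ∃ C : ℝ, ∀ᶠ n in (𝒰 : Filter ℕ), ∀ z ∈ X,
      DifferentiableAt ℂ (fun z => al (Sx Ψ (x n) (v n) (r n) z)) z ∧
      DifferentiableAt ℂ (fun z => p (Sx Ψ (x n) (v n) (r n) z)) z ∧
      ‖al (Sx Ψ (x n) (v n) (r n) z) - cA n‖ ≤ C * E n ∧
      ‖p (Sx Ψ (x n) (v n) (r n) z) - cP n‖ ≤ C * E n := by
    intro X hX hXc
    obtain ⟨C, hC⟩ := hb X hX hXc
    refine ⟨C, ?_⟩
    filter_upwards [hC, st_wk W hvt hxt hr' hδ' hXc hX] with n h1 h2 z hz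
    obtain ⟨h3, h4⟩ := h2 z hz
    have h5 := W.rhk.dn.op.mem_nhds h4
    exact ⟨DifferentiableAt.comp z (W.dal.differentiableAt h5) h3,
      DifferentiableAt.comp z (W.dp.differentiableAt h5) h3, h1 z hz⟩
  obtain ⟨A', P', dA, dP, tA, tP, nc, gr⟩ := H830.NC.nc_transfer (𝒰 := 𝒰) (D₁ := Wc δ)
    (D₂ := Wc δ) (isOpen_Wc _) (convex_Wc _) (isOpen_Wc _) (convex_Wc _)
    (by rw [inter_self]; exact ⟨_, hX₀W hx₁⟩)
    (a := fun n z => al (Sx Ψ (x n) (v n) (r n) z))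
    (p := fun n z => p (Sx Ψ (x n) (v n) (r n) z)) (ca := cA) (cp := cP)
    (ε := E) hE hbd hbd (hX₀W hx₁) (hX₀W hx₂) (u := v₁) (v := v₂) hl₁ hl₂ hc'
    (hvv.mono fun n hn => hn.2.2)
  rw [union_self] at dA dP tA tP
  -- the chart change
  have hmap : MapsTo (Tl τ) (Wc s') (Wc δ) := by
    intro z hz
    refine ⟨hz.1, ?_⟩
    have h1 : z.1.im < s' * z.2.im := hz.2
    show (Tl τ z).1.im < δ * z.2.im
    rw [Tl_im]
    have : s' = δ - τ := hs'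
    rw [this] at h1
    linarith
  have hW0 : Wc s' ⊆ {z : ℂ × ℂ | 0 < z.2.im} := fun z hz => hz.1
  have hZ := (zt_tlu W haA hat hr' hx hv).mono hW0
  have key : ∀ {f : ℂ × ℂ → ℂ} {cf : ℕ → ℂ} {f' : ℂ × ℂ → ℂ},
      TendstoLocallyUniformlyOn (fun n z => (f (Sx Ψ (x n) (v n) (r n) z) - cf n) / (E n : ℂ)) f'
        (𝒰 : Filter ℕ) (Wc δ) → DifferentiableOn ℂ f' (Wc δ) →
      TendstoLocallyUniformlyOn (fun n z =>
        (f (kpt (P (a n)).im (c u₀) σ (y n) (a n) (r n) z) - cf n) / (E n : ℂ))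
        (fun z => f' (Tl τ z)) (𝒰 : Filter ℕ) (Wc s') := by
    intro f cf f' ht hd
    have h1 := lu_move (isOpen_Wc δ) ht hd.continuousOn (isOpen_Wc s') hZ
      (continuous_Tl τ).continuousOn hmap
    rw [Metric.tendstoLocallyUniformlyOn_iff] at h1 ⊢
    intro η hη z hz
    obtain ⟨t, ht, h2⟩ := h1 η hη z hz
    refine ⟨t, ht, ?_⟩
    filter_upwards [h2, hrp] with n k1 k2 y' hy'
    have := k1 y' hy'
    rwa [Sx_Zt' k2.ne'] at this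
  have dcomp : ∀ {f' : ℂ × ℂ → ℂ}, DifferentiableOn ℂ f' (Wc δ) →
      DifferentiableOn ℂ (fun z => f' (Tl τ z)) (Wc s') := by
    intro f' hd z hz
    exact (DifferentiableAt.comp z (hd.differentiableAt ((isOpen_Wc δ).mem_nhds (hmap hz)))
      (Tl_diff τ z).differentiableAt).differentiableWithinAt
  have grow : ∀ {f' : ℂ × ℂ → ℂ}, (∀ s'' < δ, ∀ M : ℝ, ∃ A₁ : ℝ, ∀ z ∈ Wc δ, 1 ≤ z.2.im →
      z.1.im ≤ s'' * z.2.im → ‖z‖ ≤ M * z.2.im → ‖f' z‖ ≤ A₁ * (1 + ‖z‖) ^ θ) →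
      ∀ s'' < s', ∀ M : ℝ, ∃ A : ℝ, ∀ z ∈ Wc s', 1 ≤ z.2.im →
      z.1.im ≤ s'' * z.2.im → ‖z‖ ≤ M * z.2.im → ‖f' (Tl τ z)‖ ≤ A * (1 + ‖z‖) ^ θ := by
    intro f' hf s'' hs'' M
    obtain ⟨A₁, hA₁⟩ := hf (s'' + τ) (by rw [hs'] at hs''; linarith) ((1 + |τ|) * M)
    refine ⟨|A₁| * (1 + |τ|) ^ θ, fun z hz h1 h2 h3 => ?_⟩
    have hn : ‖Tl τ z‖ ≤ (1 + |τ|) * ‖z‖ := by
      rw [Prod.norm_def]
      have a1 : ‖(Tl τ z).1‖ ≤ (1 + |τ|) * ‖z‖ := by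
        show ‖z.1 + (τ : ℂ) * z.2‖ ≤ _
        refine (norm_add_le _ _).trans ?_
        rw [norm_mul, Complex.norm_real, Real.norm_eq_abs]
        have b1 := norm_fst_le z
        have b2 := mul_le_mul_of_nonneg_left (norm_snd_le z) (abs_nonneg τ)
        linarith
      have a2 : ‖(Tl τ z).2‖ ≤ (1 + |τ|) * ‖z‖ := by
        show ‖z.2‖ ≤ _
        have b1 := norm_snd_le z
        have b2 := mul_nonneg (abs_nonneg τ) (norm_nonneg z)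
        linarith
      exact max_le a1 a2
    have g1 := hA₁ (Tl τ z) (hmap hz) h1
      (by rw [Tl_im]
          show z.1.im + τ * z.2.im ≤ (s'' + τ) * z.2.im
          linarith)
      (by
        refine hn.trans ?_
        have := mul_le_mul_of_nonneg_left h3 (show 0 ≤ 1 + |τ| by positivity)
        show _ ≤ (1 + |τ|) * M * z.2.im
        linarith)
    refine g1.trans ?_
    have g2 : (1 + ‖Tl τ z‖) ^ θ ≤ (1 + |τ|) ^ θ * (1 + ‖z‖) ^ θ := by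
      rw [← Real.mul_rpow (by positivity) (by positivity)]
      refine Real.rpow_le_rpow (by positivity) ?_ hθ0
      have := abs_nonneg τ
      nlinarith [norm_nonneg z]
    calc A₁ * (1 + ‖Tl τ z‖) ^ θ ≤ |A₁| * (1 + ‖Tl τ z‖) ^ θ :=
        mul_le_mul_of_nonneg_right (le_abs_self _) (by positivity)
      _ ≤ |A₁| * ((1 + |τ|) ^ θ * (1 + ‖z‖) ^ θ) := mul_le_mul_of_nonneg_left g2 (abs_nonneg _)
      _ = |A₁| * (1 + |τ|) ^ θ * (1 + ‖z‖) ^ θ := by ring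
  have hnc' : ∃ z ∈ Wc s', fderiv ℂ (fun z => A' (Tl τ z)) z ≠ 0 ∨
      fderiv ℂ (fun z => P' (Tl τ z)) z ≠ 0 := by
    obtain ⟨z, hz, hz'⟩ := nc
    have hzs : Tl (-τ) z ∈ Wc s' := by
      refine ⟨hz.1, ?_⟩
      show (Tl (-τ) z).1.im < s' * z.2.im
      have h1 : z.1.im < δ * z.2.im := hz.2
      rw [Tl_im, hs']
      linarith
    have sc : ∀ {f' : ℂ × ℂ → ℂ}, DifferentiableOn ℂ f' (Wc δ) → fderiv ℂ f' z ≠ 0 →
        fderiv ℂ (fun z => f' (Tl τ z)) (Tl (-τ) z) ≠ 0 := by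
      intro f' hd hne h0
      apply hne
      have h1 : f' = fun w => (fun z => f' (Tl τ z)) (Tl (-τ) w) := by
        funext w
        simp only [Tl_inv]
      have h2 : HasFDerivAt (fun z => f' (Tl τ z)) (fderiv ℂ (fun z => f' (Tl τ z)) (Tl (-τ) z))
          (Tl (-τ) z) :=
        ((dcomp hd).differentiableAt ((isOpen_Wc s').mem_nhds hzs)).hasFDerivAt
      rw [h0] at h2
      have h3 := h2.comp z (Tl_diff (-τ) z)
      rw [ContinuousLinearMap.zero_comp] at h3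
      have h4 : HasFDerivAt f' (0 : ℂ × ℂ →L[ℂ] ℂ) z := by
        rw [h1]; exact h3
      exact h4.fderiv
    refine ⟨Tl (-τ) z, hzs, ?_⟩
    rcases hz' with hz' | hz'
    · exact Or.inl (sc dA hz')
    · exact Or.inr (sc dP hz')
  refine no_w5' W S hr T hU hs0 hs1 (cA := cA) (cP := cP) (e := fun n => (E n : ℂ))
    (A' := fun z => A' (Tl τ z)) (P' := fun z => P' (Tl τ z)) ?_ (dcomp dA) (dcomp dP)
    (key tA dA) (key tP dP) hnc' (M := M) (C := C) ?_ hcA hcP hzb hc0 hmid hθ (grow ?_) (grow ?_)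
  · filter_upwards [hE] with n hn
    exact_mod_cast hn.ne'
  · filter_upwards [hE, hE1] with n h1 h2
    rw [Complex.norm_real, Real.norm_of_nonneg h1.le]
    exact h2
  · intro s'' hs'' M
    obtain ⟨A₁, hA₁⟩ := hgr s'' hs'' M
    exact ⟨A₁, fun z hz h1 h2 h3 => (gr z (Or.inl hz) _ (hA₁ z hz h1 h2 h3)).1⟩
  · intro s'' hs'' M
    obtain ⟨A₁, hA₁⟩ := hgr s'' hs'' M
    exact ⟨A₁, fun z hz h1 h2 h3 => (gr z (Or.inl hz) _ (hA₁ z hz h1 h2 h3)).2⟩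

/-- the same with `Md` at the pick (in straight coordinates of unit `1`) instead of the mid-level
base point -/
theorem t_end_md (W : W5 Λ H F q b m Ψ Mj Mk B A P c k K y₀ u₀ σ s al p th J)
    {x v y a r : ℕ → ℝ} (S : Sq A y₀ u₀ y a) (hr : Tendsto r atTop (𝓝[>] 0))
    (T : Tou H P c u₀ σ th y a) {𝒰 : Ultrafilter ℕ} (hU : (𝒰 : Filter ℕ) ≤ atTop)
    (hx : Tendsto (fun n => (y n - (P (a n)).re - x n) / r n) atTop (𝓝 0))
    (hv : Tendsto (fun n => (a n - v n) / r n) atTop (𝓝 0)) {δ : ℝ}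
    (hδ : σ - k u₀ < δ) (hδ' : δ ≤ s - k u₀) {cA cP : ℕ → ℂ} {E : ℕ → ℝ}
    (hE : ∀ᶠ n in (𝒰 : Filter ℕ), 0 < E n) {M : ℕ → ℤ} {C : ℝ}
    (hE1 : ∀ᶠ n in (𝒰 : Filter ℕ), E n ≤ C)
    (hcA : ∀ᶠ n in (𝒰 : Filter ℕ), ‖cA n - 2 * Real.pi * M n‖ ≤ C)
    (hcP : ∀ᶠ n in (𝒰 : Filter ℕ), ‖cP n‖ ≤ C)
    (hb : ∀ X ⊆ H226.W.Wd δ, IsCompact X → ∃ C : ℝ, ∀ᶠ n in (𝒰 : Filter ℕ), ∀ z ∈ X,
      ‖al (Sx Ψ (x n) (v n) (r n) z) - cA n‖ ≤ C * E n ∧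
      ‖p (Sx Ψ (x n) (v n) (r n) z) - cP n‖ ≤ C * E n)
    {X₀ : Set (ℂ × ℂ)} (hX₀ : IsCompact X₀) (hX₀W : X₀ ⊆ H226.W.Wd δ) {c' : ℝ}
    (hc' : 0 < c') (hnc : ∀ᶠ n in (𝒰 : Filter ℕ), ∃ v₁ ∈ X₀, ∃ v₂ ∈ X₀, c' * E n ≤
      ‖al (Sx Ψ (x n) (v n) (r n) v₁) - al (Sx Ψ (x n) (v n) (r n) v₂)‖ +
      ‖p (Sx Ψ (x n) (v n) (r n) v₁) - p (Sx Ψ (x n) (v n) (r n) v₂)‖)
    {X om e : ℝ} (hom : 0 < om) (he : 0 < e)
    (hMd : ∀ᶠ n in (𝒰 : Filter ℕ), Md H F (fun z => th (Sx Ψ (x n) (v n) (r n) z)) X om e 1)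
    {θ : ℝ} (hθ0 : 0 ≤ θ) (hθ : θ < 1)
    (hgr : ∀ s'' < δ, ∀ M : ℝ, ∃ A₁ : ℝ, ∀ z ∈ H226.W.Wd δ, 1 ≤ z.2.im →
      z.1.im ≤ s'' * z.2.im → ‖z‖ ≤ M * z.2.im → ∀ᶠ n in (𝒰 : Filter ℕ),
      ‖al (Sx Ψ (x n) (v n) (r n) z) - cA n‖ ≤ A₁ * (1 + ‖z‖) ^ θ * E n ∧
      ‖p (Sx Ψ (x n) (v n) (r n) z) - cP n‖ ≤ A₁ * (1 + ‖z‖) ^ θ * E n) : False := by
  have hrp : ∀ᶠ n in (𝒰 : Filter ℕ), 0 < r n :=
    (hr.mono_left hU).eventually self_mem_nhdsWithin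
  obtain ⟨zb, hzb, η, hη, hmid⟩ := Vale.Agent.P097.H624.T.mid_of_md W S hr hx hv 𝒰 hU
    (X := X) (om := om) (e := e) hom he (by
      filter_upwards [hMd, hrp] with n hn hn0
      obtain ⟨β, h1, h2, h3, h4, h5⟩ := hn
      have e1 : Sx Ψ (x n) (v n) 1 ((r n : ℂ) • β) = Sx Ψ (x n) (v n) (r n) β := by
        rw [Vale.Agent.P097.H560.Sx_smul, one_mul]
      refine ⟨(r n : ℂ) • β, ?_, ?_, ?_, ?_, ?_⟩
      · show om * r n ≤ -((r n : ℂ) * β.1).im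
        rw [Complex.im_ofReal_mul]
        nlinarith
      · show om * r n ≤ ((r n : ℂ) * β.2).im
        rw [Complex.im_ofReal_mul]
        nlinarith
      · rw [norm_smul, Complex.norm_real, Real.norm_of_nonneg hn0.le]
        nlinarith
      · simp only [e1]
        exact h4
      · simp only [e1]
        exact h5)
  exact t_end_st W S hr T hU (hx.mono_left hU) (hv.mono_left hU) hδ hδ' hE hE1 hcA hcP hb hX₀ hX₀W
    hc' hnc hzb hη hmid hθ0 hθ hgr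

end

end Vale.Agent.P097.H839.Tan
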