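import Vale.Agent.P097.H839.Tan.TFin
import Vale.Agent.P097.H624.T.Defs

/-!
# P097 / block (T) : `TanEnd`
-/

set_option linter.all false

open Set Filter Metric Topology MeasureTheory

namespace Vale.Agent.P097.H839.Tan

open Vale.Agent.P097.TC
open Vale.Agent.P097.H100 (Wc isOpen_Wc)
open Vale.Agent.P097.H929 (kpt)
open Vale.Agent.P097.A5 (W5 Sq Tou Dm)
open Vale.Agent.P097.H190.Ult (LocBdd montel_full)

/-- **TanEnd** (624's literal) -/
theorem tan_end : Vale.Agent.P097.H624.T.TanEnd := by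
  intro Λ H F q b m Ψ Mj Mk B A P c k K y₀ u₀ σ s al p th J W y u r S T hr 𝒰 hU N ε z₁ hN z₀ η hz₀ hη
    hmid
  have hD : IsOpen (A5.Wd (s - σ)) := isOpen_Wc (s - σ)
  obtain ⟨A', dA, tA, lA⟩ := montel_full 𝒰 hD hN.nal
  obtain ⟨P', dP, tP, lP⟩ := montel_full 𝒰 hD hN.np
  have hε : ∀ᶠ n in (𝒰 : Filter ℕ), 0 < ε n := hN.ε0.mono fun n hn => hn.1
  have hval : ∀ z ∈ A5.Wd (s - σ), ∀ B₁ : ℝ, (∀ᶠ n in (𝒰 : Filter ℕ),
      ‖al (H624.T.phi P c u₀ σ y u r n z) - al (H624.T.phi P c u₀ σ y u r n z₁)‖ ≤ B₁ * ε n ∧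
      ‖p (H624.T.phi P c u₀ σ y u r n z) - p (H624.T.phi P c u₀ σ y u r n z₁)‖ ≤ B₁ * ε n) →
      ‖A' z‖ ≤ B₁ ∧ ‖P' z‖ ≤ B₁ := by
    intro z hz B₁ hB
    have t1 := lA z hz (fun _ => z) tendsto_const_nhds
    have t2 := lP z hz (fun _ => z) tendsto_const_nhds
    refine ⟨le_of_tendsto t1.norm ?_, le_of_tendsto t2.norm ?_⟩
    · filter_upwards [hB, hε] with n hn h0
      rw [norm_div, Complex.norm_real, Real.norm_of_nonneg h0.le, div_le_iff₀ h0]
      exact hn.1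
    · filter_upwards [hB, hε] with n hn h0
      rw [norm_div, Complex.norm_real, Real.norm_of_nonneg h0.le, div_le_iff₀ h0]
      exact hn.2
  have hnc : ∃ z ∈ Wc (s - σ), fderiv ℂ A' z ≠ 0 ∨ fderiv ℂ P' z ≠ 0 := by
    obtain ⟨c₁, hc₁, z₂, hz₂, hnc⟩ := hN.nc
    by_contra hcon
    push Not at hcon
    have n1 := H109.TD.nonconst hD hN.nal tA dA hz₂ (u := fun _ => z₂) tendsto_const_nhds
      (show 0 < c₁ / 3 by positivity) fun z hz => (hcon z hz).1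
    have n2 := H109.TD.nonconst hD hN.np tP dP hz₂ (u := fun _ => z₂) tendsto_const_nhds
      (show 0 < c₁ / 3 by positivity) fun z hz => (hcon z hz).2
    obtain ⟨n, h1, h2, h3, h4⟩ := (n1.and (n2.and (hnc.and hε))).exists
    have sc : ∀ (f : ℂ × ℂ → ℂ) (k : ℂ) (y : ℂ × ℂ), ‖fderiv ℂ (fun z => (f z - k) / (ε n : ℂ)) y‖ =
        ‖fderiv ℂ f y‖ / ε n := by
      intro f k y
      have e1 : (fun z => (f z - k) / (ε n : ℂ)) = ((ε n : ℂ)⁻¹) • (fun z => f z - k) := by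
        funext z
        rw [Pi.smul_apply, smul_eq_mul, div_eq_inv_mul]
      rw [e1, fderiv_const_smul_field, Pi.smul_apply, fderiv_sub_const, norm_smul, norm_inv,
        Complex.norm_real, Real.norm_of_nonneg h4.le]
      ring
    rw [sc] at h1 h2
    rw [div_le_iff₀ h4] at h1 h2
    nlinarith
  obtain ⟨C₁, hC₁⟩ := hN.cal
  obtain ⟨C₂, hC₂⟩ := hN.cp
  obtain ⟨θ, hθ, hgr⟩ := hN.gr
  refine no_w5 W S hr T hU (cA := fun n => al (H624.T.phi P c u₀ σ y u r n z₁))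
    (cP := fun n => p (H624.T.phi P c u₀ σ y u r n z₁)) (e := fun n => (ε n : ℂ))
    (A' := A') (P' := P') ?_ dA dP tA tP hnc (M := N) (C := max 1 (max C₁ C₂)) ?_ ?_ ?_
    (zb := z₀) hz₀ (c0 := η) hη hmid (θ := θ) hθ ?_ ?_
  · filter_upwards [hε] with n hn
    exact_mod_cast hn.ne'
  · filter_upwards [hN.ε0] with n hn
    rw [Complex.norm_real, Real.norm_of_nonneg hn.1.le]
    exact hn.2.trans (le_max_left _ _)
  · filter_upwards [hC₁] with n hn
    exact hn.trans ((le_max_left _ _).trans (le_max_right _ _))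
  · filter_upwards [hC₂] with n hn
    exact hn.trans ((le_max_right _ _).trans (le_max_right _ _))
  · intro s'' hs'' M
    obtain ⟨A₁, hA₁⟩ := hgr s'' hs'' M
    refine ⟨A₁, fun z hz h1 h2 h3 => (hval z hz _ ?_).1⟩
    filter_upwards [hA₁ z hz h1 h2 h3] with n hn
    have e : A₁ * (1 + ‖z‖) ^ θ * ε n = A₁ * ε n * (1 + ‖z‖) ^ θ := by ring
    rw [e]
    exact hn
  · intro s'' hs'' M
    obtain ⟨A₁, hA₁⟩ := hgr s'' hs'' M
    refine ⟨A₁, fun z hz h1 h2 h3 => (hval z hz _ ?_).2⟩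
    filter_upwards [hA₁ z hz h1 h2 h3] with n hn
    have e : A₁ * (1 + ‖z‖) ^ θ * ε n = A₁ * ε n * (1 + ‖z‖) ^ θ := by ring
    rw [e]
    exact hn

/-- **block (T) from `TSel`** -/
theorem pt_of_tsel (h : Vale.Agent.P097.H624.T.TSel) : A5.PT :=
  Vale.Agent.P097.H624.T.pt_of h tan_end

end Vale.Agent.P097.H839.Tan
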