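import Vale.Agent.P097.H839.Tan.Inv

/-!
# P097 / A5.TANC (2) : Weierstrass preparation of degree two (fold)
-/

set_option linter.all false

open Set Filter Metric Topology

namespace Vale.Agent.P097.H839.Tan

variable {E : Type*} [NormedAddCommGroup E] [NormedSpace ℂ E] [FiniteDimensional ℂ E]

theorem ddiv {X : Type*} [NormedAddCommGroup X] [NormedSpace ℂ X] {f g : X → ℂ} {s : Set X}
    (hf : DifferentiableOn ℂ f s) (hg : DifferentiableOn ℂ g s) (h : ∀ x ∈ s, g x ≠ 0) :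
    DifferentiableOn ℂ (fun x => f x / g x) s := by
  simp only [div_eq_mul_inv]
  exact hf.mul (hg.inv h)

/-- the Cauchy kernels -/
noncomputable def cI : ℂ := (2 * Real.pi * Complex.I : ℂ)⁻¹

noncomputable def R0 (M : E × ℂ → ℂ) (x0 : ℂ) (r : ℝ) (z : E × (ℂ × ℂ)) : ℂ :=
  cI * ∮ ξ in C(x0, r), M (z.1, ξ) * (ξ - z.2.1) / ((ξ - z.2.1) ^ 2 - z.2.2)

noncomputable def R1 (M : E × ℂ → ℂ) (x0 : ℂ) (r : ℝ) (z : E × (ℂ × ℂ)) : ℂ :=
  cI * ∮ ξ in C(x0, r), M (z.1, ξ) / ((ξ - z.2.1) ^ 2 - z.2.2)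

noncomputable def UU (M : E × ℂ → ℂ) (x0 : ℂ) (r : ℝ) (z : (E × (ℂ × ℂ)) × ℂ) : ℂ :=
  cI * ∮ ξ in C(x0, r), M (z.1.1, ξ) / ((ξ - z.2) * ((ξ - z.1.2.1) ^ 2 - z.1.2.2))

/-- parameter domain -/
def Om (v0 : E) (x0 : ℂ) (r : ℝ) : Set (E × (ℂ × ℂ)) :=
  ball v0 r ×ˢ (ball x0 (r / 4) ×ˢ ball (0 : ℂ) (r ^ 2 / 16))

/-- annulus for the integration variable -/
def An (x0 : ℂ) (r : ℝ) : Set ℂ := {ξ | r * (3 / 4) < ‖ξ - x0‖} ∩ ball x0 (2 * r)

theorem isOpen_Om (v0 : E) (x0 : ℂ) (r : ℝ) : IsOpen (Om v0 x0 r) :=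
  isOpen_ball.prod (isOpen_ball.prod isOpen_ball)

theorem isOpen_An (x0 : ℂ) (r : ℝ) : IsOpen (An x0 r) :=
  (isOpen_lt continuous_const (by fun_prop)).inter isOpen_ball

theorem sphere_An {x0 : ℂ} {r : ℝ} (hr : 0 < r) : sphere x0 r ⊆ An x0 r := by
  intro ξ hξ
  rw [mem_sphere, dist_eq_norm] at hξ
  refine ⟨?_, ?_⟩
  · show r * (3 / 4) < ‖ξ - x0‖
    rw [hξ]; linarith
  · rw [mem_ball, dist_eq_norm, hξ]; linarith

theorem P_ne {x0 : ℂ} {r : ℝ} (hr : 0 < r) {T W ξ : ℂ} (hT : T ∈ ball x0 (r / 4))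
    (hW : W ∈ ball (0 : ℂ) (r ^ 2 / 16)) (hξ : ξ ∈ An x0 r) : (ξ - T) ^ 2 - W ≠ 0 := by
  intro h
  have h1 : r * (3 / 4) < ‖ξ - x0‖ := hξ.1
  rw [mem_ball, dist_eq_norm] at hT hW
  rw [sub_zero] at hW
  have h2 : r / 2 < ‖ξ - T‖ := by
    have : ‖ξ - x0‖ ≤ ‖ξ - T‖ + ‖T - x0‖ := by
      calc ‖ξ - x0‖ = ‖(ξ - T) + (T - x0)‖ := by congr 1; ring
        _ ≤ _ := norm_add_le _ _
    linarith
  have h3 : ‖ξ - T‖ ^ 2 = ‖W‖ := by
    rw [← norm_pow, sub_eq_zero.1 h]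
  nlinarith

theorem x_ne {x0 : ℂ} {r : ℝ} {x ξ : ℂ} (hx : x ∈ ball x0 (r * (3 / 4)))
    (hξ : ξ ∈ An x0 r) : ξ - x ≠ 0 := by
  intro h
  have h1 : r * (3 / 4) < ‖ξ - x0‖ := hξ.1
  rw [sub_eq_zero.1 h] at h1
  rw [mem_ball, dist_eq_norm] at hx
  linarith

section
variable {M : E × ℂ → ℂ} {v0 : E} {x0 : ℂ} {r : ℝ}

theorem dMz (hM : DifferentiableOn ℂ M (ball v0 r ×ˢ ball x0 (2 * r))) :
    DifferentiableOn ℂ (fun w : (E × (ℂ × ℂ)) × ℂ => M (w.1.1, w.2)) (Om v0 x0 r ×ˢ An x0 r) :=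
  hM.comp (by fun_prop) fun w hw => ⟨hw.1.1, hw.2.2⟩

theorem dR0 (hr : 0 < r) (hM : DifferentiableOn ℂ M (ball v0 r ×ˢ ball x0 (2 * r))) :
    DifferentiableOn ℂ (R0 M x0 r) (Om v0 x0 r) := by
  unfold R0
  refine DifferentiableOn.const_mul ?_ _
  refine P268.differentiableOn_circleIntegral (E := E × (ℂ × ℂ)) (F := ℂ)
    (G := fun w => M (w.1.1, w.2) * (w.2 - w.1.2.1) / ((w.2 - w.1.2.1) ^ 2 - w.1.2.2)) hr.le
    (isOpen_Om v0 x0 r) (isOpen_An x0 r) (sphere_An hr) ?_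
  have h1 : DifferentiableOn ℂ (fun w : (E × (ℂ × ℂ)) × ℂ => w.2 - w.1.2.1)
      (Om v0 x0 r ×ˢ An x0 r) := by fun_prop
  have h2 : DifferentiableOn ℂ (fun w : (E × (ℂ × ℂ)) × ℂ => (w.2 - w.1.2.1) ^ 2 - w.1.2.2)
      (Om v0 x0 r ×ˢ An x0 r) := by fun_prop
  refine ddiv ((dMz hM).mul h1) h2 ?_
  intro w hw
  exact P_ne hr hw.1.2.1 hw.1.2.2 hw.2

theorem dR1 (hr : 0 < r) (hM : DifferentiableOn ℂ M (ball v0 r ×ˢ ball x0 (2 * r))) :
    DifferentiableOn ℂ (R1 M x0 r) (Om v0 x0 r) := by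
  unfold R1
  refine DifferentiableOn.const_mul ?_ _
  refine P268.differentiableOn_circleIntegral (E := E × (ℂ × ℂ)) (F := ℂ)
    (G := fun w => M (w.1.1, w.2) / ((w.2 - w.1.2.1) ^ 2 - w.1.2.2)) hr.le
    (isOpen_Om v0 x0 r) (isOpen_An x0 r) (sphere_An hr) ?_
  have h2 : DifferentiableOn ℂ (fun w : (E × (ℂ × ℂ)) × ℂ => (w.2 - w.1.2.1) ^ 2 - w.1.2.2)
      (Om v0 x0 r ×ˢ An x0 r) := by fun_prop
  refine ddiv (dMz hM) h2 ?_
  intro w hw
  exact P_ne hr hw.1.2.1 hw.1.2.2 hw.2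

theorem dUU (hr : 0 < r) (hM : DifferentiableOn ℂ M (ball v0 r ×ˢ ball x0 (2 * r))) :
    DifferentiableOn ℂ (UU M x0 r) (Om v0 x0 r ×ˢ ball x0 (r * (3 / 4))) := by
  unfold UU
  refine DifferentiableOn.const_mul ?_ _
  refine P268.differentiableOn_circleIntegral (E := (E × (ℂ × ℂ)) × ℂ) (F := ℂ)
    (G := fun w => M (w.1.1.1, w.2) / ((w.2 - w.1.2) * ((w.2 - w.1.1.2.1) ^ 2 - w.1.1.2.2))) hr.le
    ((isOpen_Om v0 x0 r).prod isOpen_ball) (isOpen_An x0 r) (sphere_An hr) ?_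
  have h1 : DifferentiableOn ℂ (fun w : ((E × (ℂ × ℂ)) × ℂ) × ℂ => M (w.1.1.1, w.2))
      ((Om v0 x0 r ×ˢ ball x0 (r * (3 / 4))) ×ˢ An x0 r) :=
    hM.comp (by fun_prop) fun w hw => ⟨hw.1.1.1, hw.2.2⟩
  have h2 : DifferentiableOn ℂ (fun w : ((E × (ℂ × ℂ)) × ℂ) × ℂ =>
      (w.2 - w.1.2) * ((w.2 - w.1.1.2.1) ^ 2 - w.1.1.2.2))
      ((Om v0 x0 r ×ˢ ball x0 (r * (3 / 4))) ×ˢ An x0 r) := by fun_prop
  refine ddiv h1 h2 ?_
  intro w hw
  exact mul_ne_zero (x_ne hw.1.2 hw.2) (P_ne hr hw.1.1.2.1 hw.1.1.2.2 hw.2)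

theorem dSl (hM : DifferentiableOn ℂ M (ball v0 r ×ˢ ball x0 (2 * r))) {v : E}
    (hv : v ∈ ball v0 r) : DifferentiableOn ℂ (fun x => M (v, x)) (ball x0 (2 * r)) :=
  hM.comp (by fun_prop) fun x hx => ⟨hv, hx⟩

theorem cauchy (hr : 0 < r) (hM : DifferentiableOn ℂ M (ball v0 r ×ˢ ball x0 (2 * r))) {v : E}
    (hv : v ∈ ball v0 r) {x : ℂ} (hx : x ∈ ball x0 r) :
    cI * (∮ ξ in C(x0, r), M (v, ξ) / (ξ - x)) = M (v, x) := by
  have h1 : DiffContOnCl ℂ (fun x => M (v, x)) (ball x0 r) :=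
    ((dSl hM hv).mono (closedBall_subset_ball (by linarith))).diffContOnCl_ball (le_refl _)
  have h2 := h1.circleIntegral_sub_inv_smul hx
  have h3 : (∮ ξ in C(x0, r), M (v, ξ) / (ξ - x)) = ∮ ξ in C(x0, r), (ξ - x)⁻¹ • M (v, ξ) := by
    refine circleIntegral.integral_congr hr.le fun ξ _ => ?_
    simp only [smul_eq_mul]
    rw [div_eq_mul_inv, mul_comm]
  rw [h3, h2, cI, smul_eq_mul, ← mul_assoc, inv_mul_cancel₀ Complex.two_pi_I_ne_zero, one_mul]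

theorem circ_lin {f g h : ℂ → ℂ} {a b c : ℂ} {R : ℝ} (hf : CircleIntegrable f c R)
    (hg : CircleIntegrable g c R) (hh : CircleIntegrable h c R) :
    (∮ ξ in C(c, R), (a * f ξ + g ξ + b * h ξ)) =
      a * (∮ ξ in C(c, R), f ξ) + (∮ ξ in C(c, R), g ξ) + b * (∮ ξ in C(c, R), h ξ) := by
  have h1 : CircleIntegrable (fun ξ => a * f ξ) c R := hf.const_fun_smul (a := a)
  have h2 : CircleIntegrable (fun ξ => b * h ξ) c R := hh.const_fun_smul (a := b)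
  have h3 : CircleIntegrable (fun ξ => a * f ξ + g ξ) c R := h1.add hg
  rw [circleIntegral.integral_add h3 h2, circleIntegral.integral_add h1 hg,
    circleIntegral.integral_const_mul, circleIntegral.integral_const_mul]

/-- division with remainder -/
theorem division (hr : 0 < r) (hM : DifferentiableOn ℂ M (ball v0 r ×ˢ ball x0 (2 * r)))
    {z : E × (ℂ × ℂ)} (hz : z ∈ Om v0 x0 r) {x : ℂ} (hx : x ∈ ball x0 (r * (3 / 4))) :
    M (z.1, x) = ((x - z.2.1) ^ 2 - z.2.2) * UU M x0 r (z, x) + R0 M x0 r z +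
      (x - z.2.1) * R1 M x0 r z := by
  have hs := sphere_An (x0 := x0) hr
  have cM : ContinuousOn (fun ξ => M (z.1, ξ)) (sphere x0 r) :=
    (dSl hM hz.1).continuousOn.mono fun ξ hξ => (hs hξ).2
  have i0 : CircleIntegrable (fun ξ => M (z.1, ξ) * (ξ - z.2.1) / ((ξ - z.2.1) ^ 2 - z.2.2))
      x0 r :=
    ContinuousOn.circleIntegrable hr.le ((cM.mul (by fun_prop)).div (by fun_prop) fun ξ hξ =>
      P_ne hr hz.2.1 hz.2.2 (hs hξ))
  have i1 : CircleIntegrable (fun ξ => M (z.1, ξ) / ((ξ - z.2.1) ^ 2 - z.2.2)) x0 r :=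
    ContinuousOn.circleIntegrable hr.le (cM.div (by fun_prop) fun ξ hξ =>
      P_ne hr hz.2.1 hz.2.2 (hs hξ))
  have i2 : CircleIntegrable (fun ξ => M (z.1, ξ) / ((ξ - x) * ((ξ - z.2.1) ^ 2 - z.2.2))) x0 r :=
    ContinuousOn.circleIntegrable hr.le (cM.div (by fun_prop) fun ξ hξ =>
      mul_ne_zero (x_ne hx (hs hξ)) (P_ne hr hz.2.1 hz.2.2 (hs hξ)))
  have h1 := cauchy hr hM hz.1 (x := x) (ball_subset_ball (by linarith) hx)
  have h2 : (∮ ξ in C(x0, r), M (z.1, ξ) / (ξ - x)) =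
      ∮ ξ in C(x0, r), (((x - z.2.1) ^ 2 - z.2.2) *
        (M (z.1, ξ) / ((ξ - x) * ((ξ - z.2.1) ^ 2 - z.2.2))) +
        M (z.1, ξ) * (ξ - z.2.1) / ((ξ - z.2.1) ^ 2 - z.2.2)) +
        (x - z.2.1) * (M (z.1, ξ) / ((ξ - z.2.1) ^ 2 - z.2.2)) := by
    refine circleIntegral.integral_congr hr.le fun ξ hξ => ?_
    have e1 := x_ne hx (hs hξ)
    have e2 := P_ne hr hz.2.1 hz.2.2 (hs hξ)
    field_simp
    ring
  rw [← h1, h2, circ_lin i2 i0 i1, UU, R0, R1]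
  ring

theorem fold2 {f u : ℂ → ℂ} {x0 : ℂ} {ρ : ℝ} (hρ : 0 < ρ) (hu : DifferentiableOn ℂ u (ball x0 ρ))
    (h : ∀ x ∈ ball x0 ρ, f x = (x - x0) ^ 2 * u x) :
    deriv (deriv f) x0 = 2 * u x0 := by
  have h1 : ∀ x ∈ ball x0 ρ, deriv f x = 2 * (x - x0) * u x + (x - x0) ^ 2 * deriv u x := by
    intro x hx
    have e1 : HasDerivAt (fun y : ℂ => (y - x0) ^ 2 * u y)
        (2 * (x - x0) * u x + (x - x0) ^ 2 * deriv u x) x := by
      have e2 : HasDerivAt (fun y : ℂ => (y - x0) ^ 2) (2 * (x - x0)) x := by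
        have := ((hasDerivAt_id x).sub_const x0).fun_pow 2
        refine this.congr_deriv ?_
        simp
      exact e2.mul (hu.differentiableAt (isOpen_ball.mem_nhds hx)).hasDerivAt
    have e3 : f =ᶠ[𝓝 x] fun y : ℂ => (y - x0) ^ 2 * u y := by
      filter_upwards [isOpen_ball.mem_nhds hx] with y hy using h y hy
    rw [e3.deriv_eq, e1.deriv]
  have hx0 : x0 ∈ ball x0 ρ := mem_ball_self hρ
  have h2 : deriv f =ᶠ[𝓝 x0] fun x => 2 * (x - x0) * u x + (x - x0) ^ 2 * deriv u x := by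
    filter_upwards [isOpen_ball.mem_nhds hx0] with y hy using h1 y hy
  rw [h2.deriv_eq]
  have hu0 := (hu.differentiableAt (isOpen_ball.mem_nhds hx0)).hasDerivAt
  have hu1 := ((hu.deriv isOpen_ball).differentiableAt (isOpen_ball.mem_nhds hx0)).hasDerivAt
  have e2 : HasDerivAt (fun y : ℂ => (y - x0) ^ 2) (2 * (x0 - x0)) x0 := by
    have := ((hasDerivAt_id x0).sub_const x0).fun_pow 2
    refine this.congr_deriv ?_
    simp
  have e1 : HasDerivAt (fun y : ℂ => 2 * (y - x0)) 2 x0 := by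
    simpa using ((hasDerivAt_id x0).sub_const x0).const_mul 2
  have := (e1.mul hu0).add (e2.mul hu1)
  refine (this.deriv).trans ?_
  simp

theorem b0 (hr : 0 < r) (hM : DifferentiableOn ℂ M (ball v0 r ×ˢ ball x0 (2 * r))) {v : E}
    (hv : v ∈ ball v0 r) {T : ℂ} (hT : T ∈ ball x0 (r / 4)) : R0 M x0 r (v, (T, 0)) = M (v, T) := by
  have h1 := cauchy hr hM hv (x := T) (ball_subset_ball (by linarith) hT)
  rw [← h1, R0]
  congr 1
  refine circleIntegral.integral_congr hr.le fun ξ hξ => ?_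
  have e2 := P_ne hr hT (mem_ball_self (by positivity)) (sphere_An hr hξ)
  have e3 : ξ - T ≠ 0 := by
    intro h
    exact e2 (by rw [h]; simp)
  simp only [sub_zero]
  field_simp

theorem b1 (hr : 0 < r) (hM : DifferentiableOn ℂ M (ball v0 r ×ˢ ball x0 (2 * r))) {v : E}
    (hv : v ∈ ball v0 r) {T : ℂ} (hT : T ∈ ball x0 (r / 4)) :
    R1 M x0 r (v, (T, 0)) = deriv (fun x => M (v, x)) T := by
  have h1 := Complex.two_pi_I_inv_smul_circleIntegral_sub_sq_inv_smul_of_differentiable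
    (isOpen_ball (x := x0) (ε := 2 * r)) (closedBall_subset_ball (by linarith)) (dSl hM hv)
    (ball_subset_ball (by linarith : r / 4 ≤ r) hT)
  rw [← h1, R1, cI, smul_eq_mul]
  congr 1
  refine circleIntegral.integral_congr hr.le fun ξ hξ => ?_
  simp only [sub_zero, smul_eq_mul]
  rw [div_eq_mul_inv, mul_comm]

theorem weier2 {M : E × ℂ → ℂ} {S : Set (E × ℂ)} (hS : IsOpen S) (hM : DifferentiableOn ℂ M S)
    {v0 : E} {x0 : ℂ} (h0 : (v0, x0) ∈ S) (m0 : M (v0, x0) = 0)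
    (m1 : deriv (fun x => M (v0, x)) x0 = 0) (m2 : deriv (deriv (fun x => M (v0, x))) x0 ≠ 0) :
    ∃ ε > 0, ∃ ε' > 0, ∃ (T W : E → ℂ) (U : E × ℂ → ℂ), ball v0 ε ×ˢ ball x0 ε' ⊆ S ∧
      DifferentiableOn ℂ T (ball v0 ε) ∧ DifferentiableOn ℂ W (ball v0 ε) ∧
      DifferentiableOn ℂ U (ball v0 ε ×ˢ ball x0 ε') ∧ T v0 = x0 ∧ W v0 = 0 ∧
      U (v0, x0) = deriv (deriv (fun x => M (v0, x))) x0 / 2 ∧
      (∀ v ∈ ball v0 ε, ∀ x ∈ ball x0 ε', M (v, x) = U (v, x) * ((x - T v) ^ 2 - W v) ∧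
        U (v, x) ≠ 0) ∧
      (∀ v ∈ ball v0 ε, ∀ s : ℂ, s ^ 2 = W v → T v + s ∈ ball x0 ε') := by
  obtain ⟨r, hr, hrS⟩ : ∃ r > 0, ball v0 r ×ˢ ball x0 (2 * r) ⊆ S := by
    obtain ⟨ρ, hρ, h⟩ := Metric.isOpen_iff.1 hS _ h0
    refine ⟨ρ / 2, by positivity, ?_⟩
    rw [← ball_prod_same] at h
    refine (Set.prod_mono (ball_subset_ball (by linarith)) (ball_subset_ball (by linarith))).trans h
  have hM' := hM.mono hrS
  set a : E × (ℂ × ℂ) := (v0, (x0, 0)) with ha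
  have hv0 : v0 ∈ ball v0 r := mem_ball_self hr
  have hx0 : x0 ∈ ball x0 (r / 4) := mem_ball_self (by positivity)
  have hx0' : x0 ∈ ball x0 (r * (3 / 4)) := mem_ball_self (by positivity)
  have hw0 : (0 : ℂ) ∈ ball (0 : ℂ) (r ^ 2 / 16) := mem_ball_self (by positivity)
  have haO : a ∈ Om v0 x0 r := ⟨hv0, hx0, hw0⟩
  have R0a : R0 M x0 r a = 0 := by rw [ha, b0 hr hM' hv0 hx0, m0]
  have R1a : R1 M x0 r a = 0 := by rw [ha, b1 hr hM' hv0 hx0, m1]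
  have b3 : ∀ x ∈ ball x0 (r * (3 / 4)), M (v0, x) = (x - x0) ^ 2 * UU M x0 r (a, x) := by
    intro x hx
    have := division hr hM' haO hx
    rw [R0a, R1a] at this
    simpa [ha] using this
  have dU := dUU hr hM'
  have dUa : DifferentiableOn ℂ (fun x => UU M x0 r (a, x)) (ball x0 (r * (3 / 4))) :=
    dU.comp (by fun_prop) fun x hx => ⟨haO, hx⟩
  have hm2 : deriv (deriv (fun x => M (v0, x))) x0 = 2 * UU M x0 r (a, x0) :=
    fold2 (by positivity) dUa b3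
  have hu0 : UU M x0 r (a, x0) ≠ 0 := by
    intro h
    rw [h, mul_zero] at hm2
    exact m2 hm2
  have dr0 := dR0 hr hM'
  have dr1 := dR1 hr hM'
  have hO := isOpen_Om v0 x0 r
  have fr0 := (dr0.differentiableAt (hO.mem_nhds haO)).hasFDerivAt
  have fr1 := (dr1.differentiableAt (hO.mem_nhds haO)).hasFDerivAt
  set f : E × (ℂ × ℂ) → E × (ℂ × ℂ) := fun z => (z.1, (R0 M x0 r z, R1 M x0 r z)) with hf
  have hfd : DifferentiableOn ℂ f (Om v0 x0 r) :=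
    differentiableOn_fst.prodMk (dr0.prodMk dr1)
  have hfa : HasFDerivAt f ((ContinuousLinearMap.fst ℂ E (ℂ × ℂ)).prod
      ((fderiv ℂ (R0 M x0 r) a).prod (fderiv ℂ (R1 M x0 r) a))) a :=
    hasFDerivAt_fst.prodMk (fr0.prodMk fr1)
  -- directional derivatives
  have pT : HasDerivAt (fun t : ℂ => ((v0, (t, 0)) : E × (ℂ × ℂ))) (0, (1, 0)) x0 :=
    (hasDerivAt_const x0 v0).prodMk ((hasDerivAt_id x0).prodMk (hasDerivAt_const x0 0))
  have pW : HasDerivAt (fun t : ℂ => ((v0, (x0, t)) : E × (ℂ × ℂ))) (0, (0, 1)) 0 :=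
    (hasDerivAt_const 0 v0).prodMk ((hasDerivAt_const 0 x0).prodMk (hasDerivAt_id 0))
  have dSl0 : HasDerivAt (fun x => M (v0, x)) 0 x0 := by
    rw [← m1]
    exact ((dSl hM' hv0).differentiableAt (isOpen_ball.mem_nhds
      (mem_ball_self (by positivity)))).hasDerivAt
  have d0T : fderiv ℂ (R0 M x0 r) a (0, (1, 0)) = 0 := by
    have e1 := fr0.comp_hasDerivAt x0 pT
    have e2 : (R0 M x0 r ∘ fun t : ℂ => ((v0, (t, 0)) : E × (ℂ × ℂ))) =ᶠ[𝓝 x0]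
        fun x => M (v0, x) := by
      filter_upwards [isOpen_ball.mem_nhds hx0] with y hy
      exact b0 hr hM' hv0 hy
    exact (e1.congr_of_eventuallyEq e2.symm).unique dSl0
  have d1T : fderiv ℂ (R1 M x0 r) a (0, (1, 0)) = deriv (deriv (fun x => M (v0, x))) x0 := by
    have e1 := fr1.comp_hasDerivAt x0 pT
    have e2 : (R1 M x0 r ∘ fun t : ℂ => ((v0, (t, 0)) : E × (ℂ × ℂ))) =ᶠ[𝓝 x0]
        deriv (fun x => M (v0, x)) := by
      filter_upwards [isOpen_ball.mem_nhds hx0] with y hy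
      exact b1 hr hM' hv0 hy
    exact (e1.congr_of_eventuallyEq e2.symm).deriv.symm
  have d0W : fderiv ℂ (R0 M x0 r) a (0, (0, 1)) = UU M x0 r (a, x0) := by
    have e1 := fr0.comp_hasDerivAt 0 pW
    have e2 : (R0 M x0 r ∘ fun t : ℂ => ((v0, (x0, t)) : E × (ℂ × ℂ))) =ᶠ[𝓝 0]
        fun t => t * UU M x0 r ((v0, (x0, t)), x0) := by
      filter_upwards [isOpen_ball.mem_nhds hw0] with t ht
      have e3 := division hr hM' (z := (v0, (x0, t))) ⟨hv0, hx0, ht⟩ hx0'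
      simp only [m0, sub_self, zero_mul, add_zero] at e3
      simp only [Function.comp]
      linear_combination -e3
    have e4 : HasDerivAt (fun t : ℂ => t * UU M x0 r ((v0, (x0, t)), x0))
        (UU M x0 r (a, x0)) 0 := by
      have e5 : DifferentiableAt ℂ (fun t : ℂ => UU M x0 r ((v0, (x0, t)), x0)) 0 := by
        have e6 : DifferentiableAt ℂ (UU M x0 r) ((v0, (x0, (0 : ℂ))), x0) :=
          dU.differentiableAt ((hO.prod isOpen_ball).mem_nhds ⟨haO, hx0'⟩)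
        exact e6.comp (0 : ℂ) (f := fun t : ℂ => (((v0, (x0, t)), x0) : (E × (ℂ × ℂ)) × ℂ))
          (by fun_prop)
      have := (hasDerivAt_id (0 : ℂ)).fun_mul e5.hasDerivAt
      simpa [ha] using this
    exact (e1.congr_of_eventuallyEq e2.symm).unique e4
  have hinj : ∀ h, fderiv ℂ f a h = 0 → h = 0 := by
    rintro ⟨h, dT, dW⟩ hh
    rw [hfa.fderiv] at hh
    have h1 : h = 0 := congrArg Prod.fst hh
    have h2 : fderiv ℂ (R0 M x0 r) a (h, (dT, dW)) = 0 := congrArg (fun z => z.2.1) hh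
    have h3 : fderiv ℂ (R1 M x0 r) a (h, (dT, dW)) = 0 := congrArg (fun z => z.2.2) hh
    subst h1
    have h4 : ((0, (dT, dW)) : E × (ℂ × ℂ)) = dT • (0, (1, 0)) + dW • (0, (0, 1)) := by
      simp
    rw [h4, map_add, map_smul, map_smul, d0T, d0W, smul_zero, zero_add, smul_eq_mul] at h2
    have h5 : dW = 0 := (mul_eq_zero.1 h2).resolve_right hu0
    subst h5
    rw [h4, map_add, map_smul, map_smul, d1T, zero_smul, add_zero, smul_eq_mul] at h3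
    have h6 : dT = 0 := (mul_eq_zero.1 h3).resolve_right m2
    subst h6
    rfl
  obtain ⟨e, he1, he2, he3, he4, -⟩ := exists_inv rfl hO hfd haO hinj
  have hfa0 : f a = (v0, (0, 0)) := by
    rw [hf]
    simp only [R0a, R1a]
    rfl
  have hsymm : e.symm (v0, (0, 0)) = a := by
    rw [← hfa0, ← he3, e.left_inv he1]
  have htar : ((v0, (0, 0)) : E × (ℂ × ℂ)) ∈ e.target := by
    rw [← hfa0, ← he3]; exact e.map_source he1
  set D : Set E := {v | ((v, (0, 0)) : E × (ℂ × ℂ)) ∈ e.target} with hD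
  have hDo : IsOpen D := e.open_target.preimage (by fun_prop)
  have hv0D : v0 ∈ D := htar
  have dG : DifferentiableOn ℂ (fun v : E => e.symm (v, (0, 0))) D :=
    he4.comp (by fun_prop) fun v hv => hv
  set T : E → ℂ := fun v => (e.symm (v, (0, 0))).2.1 with hT
  set W : E → ℂ := fun v => (e.symm (v, (0, 0))).2.2 with hW
  have dT : DifferentiableOn ℂ T D := dG.snd.fst
  have dW : DifferentiableOn ℂ W D := dG.snd.snd
  have T0 : T v0 = x0 := by rw [hT]; simp only [hsymm]; rfl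
  have W0 : W v0 = 0 := by rw [hW]; simp only [hsymm]; rfl
  have key : ∀ v ∈ D, (e.symm (v, (0, 0))) = (v, (T v, W v)) ∧
      ((v, (T v, W v)) : E × (ℂ × ℂ)) ∈ Om v0 x0 r ∧ R0 M x0 r (v, (T v, W v)) = 0 ∧
      R1 M x0 r (v, (T v, W v)) = 0 := by
    intro v hv
    have h1 := e.right_inv hv
    rw [he3] at h1
    have h2 : (e.symm (v, (0, 0))).1 = v := congrArg Prod.fst h1
    have h3 : (e.symm (v, (0, 0))) = (v, (T v, W v)) := by
      refine Prod.ext h2 ?_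
      rfl
    refine ⟨h3, ?_, ?_, ?_⟩
    · rw [← h3]; exact he2 (e.map_target hv)
    · rw [← h3]; exact congrArg (fun z => z.2.1) h1
    · rw [← h3]; exact congrArg (fun z => z.2.2) h1
  set U : E × ℂ → ℂ := fun w => UU M x0 r ((w.1, (T w.1, W w.1)), w.2) with hU
  have dUU' : DifferentiableOn ℂ U (D ×ˢ ball x0 (r * (3 / 4))) := by
    have g1 : DifferentiableOn ℂ (fun w : E × ℂ => T w.1) (D ×ˢ ball x0 (r * (3 / 4))) :=
      dT.comp differentiableOn_fst fun w hw => hw.1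
    have g2 : DifferentiableOn ℂ (fun w : E × ℂ => W w.1) (D ×ˢ ball x0 (r * (3 / 4))) :=
      dW.comp differentiableOn_fst fun w hw => hw.1
    refine dU.comp ((differentiableOn_fst.prodMk (g1.prodMk g2)).prodMk differentiableOn_snd) ?_
    intro w hw
    exact ⟨(key w.1 hw.1).2.1, hw.2⟩
  have hU0 : U (v0, x0) = UU M x0 r (a, x0) := by
    rw [hU]
    simp only [T0, W0]
    rfl
  have hDB : IsOpen (D ×ˢ ball x0 (r * (3 / 4))) := hDo.prod isOpen_ball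
  have hmem : ((v0, x0) : E × ℂ) ∈ D ×ˢ ball x0 (r * (3 / 4)) := ⟨hv0D, hx0'⟩
  have hne : {w : E × ℂ | U w ≠ 0} ∈ 𝓝 ((v0, x0) : E × ℂ) := by
    have hc : ContinuousAt U (v0, x0) := (dUU'.differentiableAt (hDB.mem_nhds hmem)).continuousAt
    exact hc.eventually_ne (by rw [hU0]; exact hu0)
  obtain ⟨ε', hε', hsub⟩ := Metric.mem_nhds_iff.1 (Filter.inter_mem hne (hDB.mem_nhds hmem))
  rw [← ball_prod_same] at hsub
  have c1 : ContinuousAt T v0 := (dT.differentiableAt (hDo.mem_nhds hv0D)).continuousAt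
  have c2 : ContinuousAt W v0 := (dW.differentiableAt (hDo.mem_nhds hv0D)).continuousAt
  have n1 : {v : E | T v ∈ ball x0 (ε' / 2)} ∈ 𝓝 v0 := by
    refine c1.preimage_mem_nhds ?_
    rw [T0]; exact ball_mem_nhds _ (by positivity)
  have n2 : {v : E | W v ∈ ball (0 : ℂ) ((ε' / 2) ^ 2)} ∈ 𝓝 v0 := by
    refine c2.preimage_mem_nhds ?_
    rw [W0]; exact ball_mem_nhds _ (by positivity)
  obtain ⟨ε, hε, hsub2⟩ := Metric.mem_nhds_iff.1
    (Filter.inter_mem (Filter.inter_mem n1 n2) (ball_mem_nhds v0 hε'))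
  have hεε : ball v0 ε ⊆ ball v0 ε' := fun v hv => (hsub2 hv).2
  have hs3 : ∀ v ∈ ball v0 ε, ∀ x ∈ ball x0 ε', U (v, x) ≠ 0 ∧ v ∈ D ∧
      x ∈ ball x0 (r * (3 / 4)) := by
    intro v hv x hx
    have := hsub (mk_mem_prod (hεε hv) hx)
    exact ⟨this.1, this.2.1, this.2.2⟩
  have hx0e : x0 ∈ ball x0 ε' := mem_ball_self hε'
  refine ⟨ε, hε, ε', hε', T, W, U, ?_, ?_, ?_, ?_, T0, W0, ?_, ?_, ?_⟩
  · rintro ⟨v, x⟩ ⟨hv, hx⟩
    obtain ⟨-, h1, h2⟩ := hs3 v hv x hx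
    exact hrS ⟨(key v h1).2.1.1, ball_subset_ball (by linarith) h2⟩
  · exact dT.mono fun v hv => (hs3 v hv x0 hx0e).2.1
  · exact dW.mono fun v hv => (hs3 v hv x0 hx0e).2.1
  · refine dUU'.mono ?_
    rintro ⟨v, x⟩ ⟨hv, hx⟩
    exact ⟨(hs3 v hv x hx).2.1, (hs3 v hv x hx).2.2⟩
  · rw [hU0, hm2]
    ring
  · intro v hv x hx
    obtain ⟨h1, h2, h3⟩ := hs3 v hv x hx
    refine ⟨?_, h1⟩
    obtain ⟨-, k1, k2, k3⟩ := key v h2
    have := division hr hM' k1 h3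
    rw [k2, k3] at this
    rw [this, hU]
    ring
  · intro v hv s hs
    have h1 : T v ∈ ball x0 (ε' / 2) := (hsub2 hv).1.1
    have h2 : W v ∈ ball (0 : ℂ) ((ε' / 2) ^ 2) := (hsub2 hv).1.2
    rw [mem_ball, dist_eq_norm] at h1 h2 ⊢
    rw [sub_zero, ← hs, norm_pow] at h2
    have h3 : ‖s‖ < ε' / 2 := lt_of_pow_lt_pow_left₀ 2 (by positivity) h2
    calc ‖T v + s - x0‖ = ‖(T v - x0) + s‖ := by congr 1; ring
      _ ≤ ‖T v - x0‖ + ‖s‖ := norm_add_le _ _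
      _ < ε' := by linarith

end

end Vale.Agent.P097.H839.Tan
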